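import Vale.Agent.Lib.P150.SoftMax

open MeasureTheory ProbabilityTheory Real
open scoped BigOperators NNReal

set_option linter.unusedSectionVars false

namespace Vale.Agent.Lib.P150

variable {α β T : Type*} [Fintype α] [Fintype β] [Fintype T] [DecidableEq α] [DecidableEq β]
  [DecidableEq T]

/-- Splitting the Gaussian over a sum type. -/
lemma integral_sum_split (K : (α → ℝ) → ℝ) (L : (β → ℝ) → ℝ) :
    ∫ g, K (fun i => g (Sum.inl i)) * L (fun i => g (Sum.inr i)) ∂(gm (α ⊕ β))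
      = (∫ a, K a ∂(gm α)) * ∫ b, L b ∂(gm β) := by
  have hmp := measurePreserving_sumPiEquivProdPi
    (ι := α) (ι' := β) (X := fun _ => ℝ) (fun _ => gaussianReal 0 1)
  have := hmp.integral_comp' (g := fun z : (α → ℝ) × (β → ℝ) => K z.1 * L z.2)
  unfold gm
  rw [← integral_prod_mul]
  exact this

lemma integral_sum_inl (K : (α → ℝ) → ℝ) :
    ∫ g, K (fun i => g (Sum.inl i)) ∂(gm (α ⊕ β)) = ∫ a, K a ∂(gm α) := by
  have := integral_sum_split (α := α) (β := β) K (fun _ => 1)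
  simpa using this

lemma integral_sum_inr (K : (β → ℝ) → ℝ) :
    ∫ g, K (fun i => g (Sum.inr i)) ∂(gm (α ⊕ β)) = ∫ a, K a ∂(gm β) := by
  have := integral_sum_split (α := α) (β := β) (fun _ => 1) K
  simpa using this

/-- Sudakov-Fernique for soft maximum, with independent index sets. -/
theorem sf_compare [Nonempty T] {s : ℝ} (hs : 0 < s) (X : T → α → ℝ) (Y : T → β → ℝ)
    (h : ∀ u v, ∑ l, (X u l - X v l) ^ 2 ≤ ∑ l, (Y u l - Y v l) ^ 2) :
    ∫ g, smax s (lin X g) ∂(gm α) ≤ ∫ g, smax s (lin Y g) ∂(gm β) := by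
  let A : T → (α ⊕ β) → ℝ := fun u => Sum.elim (X u) (fun _ => 0)
  let B : T → (α ⊕ β) → ℝ := fun u => Sum.elim (fun _ => 0) (Y u)
  have key := sf_compare_aux hs A B (fun u v => by simp [A, B, Fintype.sum_sum_type])
    (fun u v => by simpa [A, B, Fintype.sum_sum_type] using h u v)
  have e1 : ∀ g : α ⊕ β → ℝ, lin A g = lin X (fun i => g (Sum.inl i)) := by
    intro g; funext u; simp [lin, A, Fintype.sum_sum_type]
  have e2 : ∀ g : α ⊕ β → ℝ, lin B g = lin Y (fun i => g (Sum.inr i)) := by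
    intro g; funext u; simp [lin, B, Fintype.sum_sum_type]
  simp_rw [e1, e2] at key
  rw [integral_sum_inl (β := β) (fun a => smax s (lin X a)),
    integral_sum_inr (α := α) (fun a => smax s (lin Y a))] at key
  exact key

/-- Restriction along a map preserves tameness. -/
lemma Tame.comp_of_le {κ : Type*} [Fintype κ] {H : (T → ℝ) → ℝ} (hH : Tame H)
    {r : (κ → ℝ) → T → ℝ} (hr : Continuous r) {c : ℝ} (hc : 0 ≤ c)
    (h : ∀ w, ∑ u, |r w u| ≤ c * ∑ a, |w a|) : Tame (fun w => H (r w)) := by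
  obtain ⟨ht, C, a, hC, ha, hb⟩ := hH
  refine ⟨ht.comp hr, C, a * c, hC, mul_nonneg ha hc, fun w => ?_⟩
  refine (hb _).trans (mul_le_mul_of_nonneg_left (exp_le_exp.2 ?_) hC)
  rw [mul_assoc]
  exact mul_le_mul_of_nonneg_left (h w) ha

/-- The restrictions. -/
def rL (w : T ⊕ T → ℝ) : T → ℝ := fun u => w (Sum.inl u)
/-- The restrictions. -/
def rR (w : T ⊕ T → ℝ) : T → ℝ := fun u => w (Sum.inr u)

lemma continuous_rL : Continuous (rL (T := T)) := by unfold rL; fun_prop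
lemma continuous_rR : Continuous (rR (T := T)) := by unfold rR; fun_prop

lemma sum_abs_rL (w : T ⊕ T → ℝ) : ∑ u, |rL w u| ≤ 1 * ∑ a, |w a| := by
  rw [one_mul, Fintype.sum_sum_type]
  have : 0 ≤ ∑ u, |w (Sum.inr u)| := Finset.sum_nonneg fun _ _ => abs_nonneg _
  simp only [rL]; linarith

lemma sum_abs_rR (w : T ⊕ T → ℝ) : ∑ u, |rR w u| ≤ 1 * ∑ a, |w a| := by
  rw [one_mul, Fintype.sum_sum_type]
  have : 0 ≤ ∑ u, |w (Sum.inl u)| := Finset.sum_nonneg fun _ _ => abs_nonneg _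
  simp only [rR]; linarith

lemma Tame.rL {H : (T → ℝ) → ℝ} (hH : Tame H) : Tame (fun w : T ⊕ T → ℝ => H (rL w)) :=
  Tame.comp_of_le hH continuous_rL zero_le_one sum_abs_rL

lemma Tame.rR {H : (T → ℝ) → ℝ} (hH : Tame H) : Tame (fun w : T ⊕ T → ℝ => H (rR w)) :=
  Tame.comp_of_le hH continuous_rR zero_le_one sum_abs_rR

lemma hasFDerivAt_rL {H : (T → ℝ) → ℝ} {dH : T → (T → ℝ) → ℝ} (hH : HasGrad H dH) (w : T ⊕ T → ℝ) :
    HasFDerivAt (fun w => H (rL w))
      (∑ u, dH u (rL w) • (ContinuousLinearMap.proj (Sum.inl u) : (T ⊕ T → ℝ) →L[ℝ] ℝ)) w := by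
  have hr : HasFDerivAt (rL (T := T)) (ContinuousLinearMap.pi fun u =>
      (ContinuousLinearMap.proj (Sum.inl u) : (T ⊕ T → ℝ) →L[ℝ] ℝ)) w :=
    (ContinuousLinearMap.pi fun u =>
      (ContinuousLinearMap.proj (Sum.inl u) : (T ⊕ T → ℝ) →L[ℝ] ℝ)).hasFDerivAt
  have := (hH (rL w)).comp w hr
  refine this.congr_fderiv (ContinuousLinearMap.ext fun y => ?_)
  simp

lemma hasFDerivAt_rR {H : (T → ℝ) → ℝ} {dH : T → (T → ℝ) → ℝ} (hH : HasGrad H dH) (w : T ⊕ T → ℝ) :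
    HasFDerivAt (fun w => H (rR w))
      (∑ u, dH u (rR w) • (ContinuousLinearMap.proj (Sum.inr u) : (T ⊕ T → ℝ) →L[ℝ] ℝ)) w := by
  have hr : HasFDerivAt (rR (T := T)) (ContinuousLinearMap.pi fun u =>
      (ContinuousLinearMap.proj (Sum.inr u) : (T ⊕ T → ℝ) →L[ℝ] ℝ)) w :=
    (ContinuousLinearMap.pi fun u =>
      (ContinuousLinearMap.proj (Sum.inr u) : (T ⊕ T → ℝ) →L[ℝ] ℝ)).hasFDerivAt
  have := (hH (rR w)).comp w hr
  refine this.congr_fderiv (ContinuousLinearMap.ext fun y => ?_)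
  simp

/-- Tensor product of two functions. -/
def tens (F₁ F₂ : (T → ℝ) → ℝ) (w : T ⊕ T → ℝ) : ℝ := F₁ (rL w) * F₂ (rR w)

/-- Gradient of a tensor product. -/
def dtens (F₁ F₂ : (T → ℝ) → ℝ) (d₁ d₂ : T → (T → ℝ) → ℝ) : T ⊕ T → (T ⊕ T → ℝ) → ℝ
  | Sum.inl u => fun w => d₁ u (rL w) * F₂ (rR w)
  | Sum.inr u => fun w => F₁ (rL w) * d₂ u (rR w)

/-- Hessian of a tensor product. -/
def ddtens (F₁ F₂ : (T → ℝ) → ℝ) (d₁ d₂ : T → (T → ℝ) → ℝ) (dd₁ dd₂ : T → T → (T → ℝ) → ℝ) :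
    T ⊕ T → T ⊕ T → (T ⊕ T → ℝ) → ℝ
  | Sum.inl u, Sum.inl v => fun w => dd₁ u v (rL w) * F₂ (rR w)
  | Sum.inl u, Sum.inr v => fun w => d₁ u (rL w) * d₂ v (rR w)
  | Sum.inr u, Sum.inl v => fun w => d₁ v (rL w) * d₂ u (rR w)
  | Sum.inr u, Sum.inr v => fun w => F₁ (rL w) * dd₂ u v (rR w)

lemma hasGrad_tens {F₁ F₂ : (T → ℝ) → ℝ} {d₁ d₂ : T → (T → ℝ) → ℝ}
    (h₁ : HasGrad F₁ d₁) (h₂ : HasGrad F₂ d₂) :
    HasGrad (tens F₁ F₂) (dtens F₁ F₂ d₁ d₂) := by
  intro w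
  have a1 := hasFDerivAt_rL h₁ w
  have a2 := hasFDerivAt_rR h₂ w
  have := a1.mul a2
  refine this.congr_fderiv (ContinuousLinearMap.ext fun y => ?_)
  simp only [Fintype.sum_sum_type, dtens, add_apply, smul_apply, FunLike.coe_sum, Finset.sum_apply,
    ContinuousLinearMap.proj_apply, smul_eq_mul, Finset.mul_sum]
  rw [add_comm]
  congr 1 <;> exact Finset.sum_congr rfl fun _ _ => by ring

lemma hasGrad_dtens {F₁ F₂ : (T → ℝ) → ℝ} {d₁ d₂ : T → (T → ℝ) → ℝ}
    {dd₁ dd₂ : T → T → (T → ℝ) → ℝ}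
    (h₁ : HasGrad F₁ d₁) (h₂ : HasGrad F₂ d₂)
    (hh₁ : ∀ u, HasGrad (d₁ u) (dd₁ u)) (hh₂ : ∀ u, HasGrad (d₂ u) (dd₂ u)) (a : T ⊕ T) :
    HasGrad (dtens F₁ F₂ d₁ d₂ a) (ddtens F₁ F₂ d₁ d₂ dd₁ dd₂ a) := by
  intro w
  cases a with
  | inl u =>
    have a1 := hasFDerivAt_rL (hh₁ u) w
    have a2 := hasFDerivAt_rR h₂ w
    have := a1.mul a2
    refine this.congr_fderiv (ContinuousLinearMap.ext fun y => ?_)
    simp only [Fintype.sum_sum_type, ddtens, add_apply, smul_apply, FunLike.coe_sum, Finset.sum_apply,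
      ContinuousLinearMap.proj_apply, smul_eq_mul, Finset.mul_sum]
    rw [add_comm]
    congr 1 <;> exact Finset.sum_congr rfl fun _ _ => by ring
  | inr u =>
    have a1 := hasFDerivAt_rL h₁ w
    have a2 := hasFDerivAt_rR (hh₂ u) w
    have := a1.mul a2
    refine this.congr_fderiv (ContinuousLinearMap.ext fun y => ?_)
    simp only [Fintype.sum_sum_type, ddtens, add_apply, smul_apply, FunLike.coe_sum, Finset.sum_apply,
      ContinuousLinearMap.proj_apply, smul_eq_mul, Finset.mul_sum]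
    rw [add_comm]
    congr 1 <;> exact Finset.sum_congr rfl fun _ _ => by ring

/-- Exponential of the soft maximum. -/
noncomputable def eS (s θ : ℝ) (w : T → ℝ) : ℝ := exp (θ * smax s w)

/-- Its gradient. -/
noncomputable def deS (s θ : ℝ) (u : T) (w : T → ℝ) : ℝ := θ * pr s u w * eS s θ w

/-- Its Hessian. -/
noncomputable def ddeS (s θ : ℝ) (u v : T) (w : T → ℝ) : ℝ :=
  θ * dpr s u v w * eS s θ w + θ * pr s u w * deS s θ v w

lemma eS_pos (s θ : ℝ) (w : T → ℝ) : 0 < eS s θ w := exp_pos _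

lemma hasGrad_eS [Nonempty T] {s : ℝ} (hs : s ≠ 0) (θ : ℝ) :
    HasGrad (eS (T := T) s θ) (deS s θ) := by
  intro w
  have h1 := ((hasGrad_smax hs w).const_mul θ).exp
  refine h1.congr_fderiv (ContinuousLinearMap.ext fun y => ?_)
  simp only [smul_apply, FunLike.coe_sum, Finset.sum_apply, ContinuousLinearMap.proj_apply,
    smul_eq_mul, Finset.mul_sum, deS, eS]
  exact Finset.sum_congr rfl fun _ _ => by ring

lemma hasGrad_deS [Nonempty T] {s : ℝ} (hs : s ≠ 0) (θ : ℝ) (u : T) :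
    HasGrad (deS s θ u) (ddeS s θ u) := by
  intro w
  have h1 := hasGrad_pr s u w
  have h2 := hasGrad_eS hs θ w
  have h3 := (h1.const_mul θ).mul h2
  refine h3.congr_fderiv (ContinuousLinearMap.ext fun y => ?_)
  simp only [add_apply, smul_apply, FunLike.coe_sum, Finset.sum_apply, ContinuousLinearMap.proj_apply,
    smul_eq_mul, Finset.mul_sum, ddeS, add_mul, Finset.sum_add_distrib]
  rw [add_comm]
  congr 1 <;> exact Finset.sum_congr rfl fun _ _ => by ring

lemma tame_eS [Nonempty T] {s : ℝ} (hs : 0 < s) (θ : ℝ) : Tame (eS (T := T) s θ) := by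
  refine ⟨(continuous_const.mul (continuous_smax s)).rexp, exp (|θ| * (log (Fintype.card T) / s)),
    |θ|, (exp_pos _).le, abs_nonneg _, fun w => ?_⟩
  rw [abs_of_pos (eS_pos s θ w), ← Real.exp_add]
  refine exp_le_exp.2 ?_
  have h1 : θ * smax s w ≤ |θ| * |smax s w| := by
    rw [← abs_mul]; exact le_abs_self _
  have h2 := mul_le_mul_of_nonneg_left (abs_smax_le hs w) (abs_nonneg θ)
  linarith

lemma tame_deS [Nonempty T] {s : ℝ} (hs : 0 < s) (θ : ℝ) (u : T) : Tame (deS (T := T) s θ u) :=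
  ((Tame.const θ).mul (tame_pr s u)).mul (tame_eS hs θ)

lemma tame_ddeS [Nonempty T] {s : ℝ} (hs : 0 < s) (θ : ℝ) (u v : T) : Tame (ddeS (T := T) s θ u v) :=
  (((Tame.const θ).mul (tame_dpr s u v)).mul (tame_eS hs θ)).add
    (((Tame.const θ).mul (tame_pr s u)).mul (tame_deS hs θ v))

lemma sum4 (G : T ⊕ T → T ⊕ T → ℝ) :
    ∑ a, ∑ b, G a b = ∑ u, ∑ v, G (Sum.inl u) (Sum.inl v) + ∑ u, ∑ v, G (Sum.inl u) (Sum.inr v)
      + (∑ u, ∑ v, G (Sum.inr u) (Sum.inl v) + ∑ u, ∑ v, G (Sum.inr u) (Sum.inr v)) := by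
  simp only [Fintype.sum_sum_type, Finset.sum_add_distrib]
  ring

lemma cross_lower [Nonempty T] {ι : Type*} [Fintype ι] [DecidableEq ι] {s : ℝ} (hs : 0 < s)
    (C : T → T → ℝ) {L2 : ℝ} (hL : ∀ u v, C u v ≤ L2) (θ : ℝ) (L : T ⊕ T → ι → ℝ) :
    - (θ ^ 2 * L2) * ∫ g, tens (eS (T := T) s θ) (eS s (-θ)) (lin L g) ∂(gm ι)
      ≤ ∑ u, ∑ v, C u v * ∫ g, deS s θ u (rL (lin L g)) * deS s (-θ) v (rR (lin L g)) ∂(gm ι) := by
  have tI : ∀ u v, Tame (fun g : ι → ℝ => deS s θ u (rL (lin L g)) * deS s (-θ) v (rR (lin L g))) :=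
    fun u v => (((tame_deS hs θ u).rL).mul ((tame_deS hs (-θ) v).rR)).comp_lin L
  have tF : Tame (fun g : ι → ℝ => tens (eS (T := T) s θ) (eS s (-θ)) (lin L g)) :=
    ((tame_eS hs θ).rL.mul (tame_eS hs (-θ)).rR).comp_lin L
  have e : ∑ u, ∑ v, C u v * ∫ g, deS s θ u (rL (lin L g)) * deS s (-θ) v (rR (lin L g)) ∂(gm ι)
      = ∫ g, ∑ u, ∑ v, C u v * (deS s θ u (rL (lin L g)) * deS s (-θ) v (rR (lin L g))) ∂(gm ι) := by
    rw [integral_finsetSum _ fun u _ => ?_]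
    · refine Finset.sum_congr rfl fun u _ => ?_
      rw [integral_finsetSum _ fun v _ => ?_]
      · refine Finset.sum_congr rfl fun v _ => ?_
        rw [integral_const_mul]
      · exact ((tI u v).const_mul _).integrable
    · exact (Tame.sum _ fun v _ => (tI u v).const_mul _).integrable
  rw [e, ← integral_const_mul]
  refine integral_mono ((tF.const_mul _).integrable)
    (Tame.sum _ fun u _ => Tame.sum _ fun v _ => (tI u v).const_mul _).integrable fun g => ?_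
  simp only
  set w1 := rL (lin L g)
  set w2 := rR (lin L g)
  have e1 : ∑ u, ∑ v, C u v * (deS s θ u w1 * deS s (-θ) v w2)
      = - (θ ^ 2 * (∑ u, ∑ v, C u v * (pr s u w1 * pr s v w2))) * (eS s θ w1 * eS s (-θ) w2) := by
    set c := -θ ^ 2 * (eS s θ w1 * eS s (-θ) w2) with hc
    calc ∑ u, ∑ v, C u v * (deS s θ u w1 * deS s (-θ) v w2)
        = ∑ u, ∑ v, c * (C u v * (pr s u w1 * pr s v w2)) := by
          refine Finset.sum_congr rfl fun u _ => Finset.sum_congr rfl fun v _ => ?_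
          unfold deS
          rw [hc]
          ring
      _ = c * ∑ u, ∑ v, C u v * (pr s u w1 * pr s v w2) := by
          simp only [Finset.mul_sum]
      _ = _ := by rw [hc]; ring
  have hp : ∑ u, ∑ v, C u v * (pr s u w1 * pr s v w2) ≤ L2 := by
    calc ∑ u, ∑ v, C u v * (pr s u w1 * pr s v w2)
        ≤ ∑ u, ∑ v, L2 * (pr s u w1 * pr s v w2) :=
          Finset.sum_le_sum fun u _ => Finset.sum_le_sum fun v _ =>
            mul_le_mul_of_nonneg_right (hL u v)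
              (mul_nonneg (pr_pos s u w1).le (pr_pos s v w2).le)
      _ = L2 * ((∑ u, pr s u w1) * ∑ v, pr s v w2) := by
          rw [Finset.sum_mul_sum, Finset.mul_sum]
          refine Finset.sum_congr rfl fun u _ => ?_
          rw [Finset.mul_sum]
      _ = L2 := by rw [sum_pr, sum_pr]; ring
  rw [e1]
  have hpos : 0 ≤ eS s θ w1 * eS s (-θ) w2 := (mul_pos (eS_pos _ _ _) (eS_pos _ _ _)).le
  have hθ : 0 ≤ θ ^ 2 := sq_nonneg θ
  show -(θ ^ 2 * L2) * (eS s θ w1 * eS s (-θ) w2) ≤ _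
  refine mul_le_mul_of_nonneg_right ?_ hpos
  have := mul_le_mul_of_nonneg_left hp hθ
  linarith

/-- Exponential moment bound: product form. -/
theorem mgf_bound_aux [Nonempty T] {s : ℝ} (hs : 0 < s) (X : T → α → ℝ) {L2 : ℝ}
    (hL : ∀ u v, ∑ l, X u l * X v l ≤ L2) (hC : ∀ u v, ∑ l, X u l * X v l = ∑ l, X v l * X u l)
    (θ : ℝ) :
    (∫ g, eS s θ (lin X g) ∂(gm α)) * (∫ g, eS s (-θ) (lin X g) ∂(gm α)) ≤ exp (θ ^ 2 * L2) := by
  classical
  let A : T ⊕ T → (α ⊕ (α ⊕ α)) → ℝ := fun a => Sum.elim (X (Sum.elim id id a)) (fun _ => 0)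
  let B : T ⊕ T → (α ⊕ (α ⊕ α)) → ℝ := fun a => Sum.elim (fun _ => 0)
    (match a with
      | Sum.inl u => Sum.elim (X u) (fun _ => 0)
      | Sum.inr u => Sum.elim (fun _ => 0) (X u))
  have hAB : ∀ a b, ∑ l, A a l * B b l = 0 := by
    intro a b; simp [A, B, Fintype.sum_sum_type]
  have hF := hasGrad_tens (hasGrad_eS (T := T) hs.ne' θ) (hasGrad_eS hs.ne' (-θ))
  have hdF := hasGrad_dtens (hasGrad_eS (T := T) hs.ne' θ) (hasGrad_eS hs.ne' (-θ))
    (hasGrad_deS hs.ne' θ) (hasGrad_deS hs.ne' (-θ))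
  have tF : Tame (tens (eS (T := T) s θ) (eS s (-θ))) :=
    (tame_eS hs θ).rL.mul (tame_eS hs (-θ)).rR
  have tdF : ∀ a, Tame (dtens (eS (T := T) s θ) (eS s (-θ)) (deS s θ) (deS s (-θ)) a) := by
    intro a
    cases a with
    | inl u => exact (tame_deS hs θ u).rL.mul (tame_eS hs (-θ)).rR
    | inr u => exact (tame_eS hs θ).rL.mul (tame_deS hs (-θ) u).rR
  have tddF : ∀ a b, Tame (ddtens (eS (T := T) s θ) (eS s (-θ)) (deS s θ) (deS s (-θ))
      (ddeS s θ) (ddeS s (-θ)) a b) := by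
    intro a b
    cases a with
    | inl u =>
      cases b with
      | inl v => exact (tame_ddeS hs θ u v).rL.mul (tame_eS hs (-θ)).rR
      | inr v => exact (tame_deS hs θ u).rL.mul (tame_deS hs (-θ) v).rR
    | inr u =>
      cases b with
      | inl v => exact (tame_deS hs θ v).rL.mul (tame_deS hs (-θ) u).rR
      | inr v => exact (tame_eS hs θ).rL.mul (tame_ddeS hs (-θ) u v).rR
  have hd := fun t => interp hF hdF tF tdF tddF A B hAB t
  set φ : ℝ → ℝ := fun t => ∫ g, tens (eS (T := T) s θ) (eS s (-θ)) (lin (lerpM A B t) g)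
    ∂(gm (α ⊕ (α ⊕ α))) with hφ
  let C : T → T → ℝ := fun u v => ∑ l, X u l * X v l
  have hCAB : ∀ t, ∑ a, ∑ b, ((∑ l, A a l * A b l) - (∑ l, B a l * B b l)) *
      ∫ g, ddtens (eS (T := T) s θ) (eS s (-θ)) (deS s θ) (deS s (-θ)) (ddeS s θ) (ddeS s (-θ)) a b
        (lin (lerpM A B t) g) ∂(gm (α ⊕ (α ⊕ α)))
      = 2 * ∑ u, ∑ v, C u v * ∫ g, deS s θ u (rL (lin (lerpM A B t) g)) *
          deS s (-θ) v (rR (lin (lerpM A B t) g)) ∂(gm (α ⊕ (α ⊕ α))) := by
    intro t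
    rw [sum4]
    have c1 : ∀ u v, (∑ l, A (Sum.inl u) l * A (Sum.inl v) l) - (∑ l, B (Sum.inl u) l * B (Sum.inl v) l) = 0 := by
      intro u v; simp [A, B, Fintype.sum_sum_type]
    have c2 : ∀ u v, (∑ l, A (Sum.inr u) l * A (Sum.inr v) l) - (∑ l, B (Sum.inr u) l * B (Sum.inr v) l) = 0 := by
      intro u v; simp [A, B, Fintype.sum_sum_type]
    have c3 : ∀ u v, (∑ l, A (Sum.inl u) l * A (Sum.inr v) l) - (∑ l, B (Sum.inl u) l * B (Sum.inr v) l) = C u v := by
      intro u v; simp [A, B, C, Fintype.sum_sum_type]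
    have c4 : ∀ u v, (∑ l, A (Sum.inr u) l * A (Sum.inl v) l) - (∑ l, B (Sum.inr u) l * B (Sum.inl v) l) = C u v := by
      intro u v; simp [A, B, C, Fintype.sum_sum_type]
    simp only [c1, c2, c3, c4, zero_mul, Finset.sum_const_zero, zero_add, add_zero, ddtens]
    have sw : ∑ u, ∑ v, C u v * ∫ g, deS s θ v (rL (lin (lerpM A B t) g)) *
          deS s (-θ) u (rR (lin (lerpM A B t) g)) ∂(gm (α ⊕ (α ⊕ α)))
        = ∑ u, ∑ v, C u v * ∫ g, deS s θ u (rL (lin (lerpM A B t) g)) *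
          deS s (-θ) v (rR (lin (lerpM A B t) g)) ∂(gm (α ⊕ (α ⊕ α))) := by
      rw [Finset.sum_comm]
      refine Finset.sum_congr rfl fun u _ => Finset.sum_congr rfl fun v _ => ?_
      simp only [C]
      rw [hC v u]
    rw [sw]
    ring
  let K : ℝ := θ ^ 2 * L2
  let ψ : ℝ → ℝ := fun t => φ t * exp (K * sin t ^ 2)
  have hψ : ∀ t, HasDerivAt ψ ((sin t * cos t * (2 * ∑ u, ∑ v, C u v * ∫ g, deS s θ u (rL (lin (lerpM A B t) g)) *
          deS s (-θ) v (rR (lin (lerpM A B t) g)) ∂(gm (α ⊕ (α ⊕ α))))) * exp (K * sin t ^ 2)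
        + φ t * (exp (K * sin t ^ 2) * (K * (2 * sin t * cos t)))) t := by
    intro t
    have h1 := hd t
    rw [hCAB t] at h1
    have h2 : HasDerivAt (fun t => K * sin t ^ 2) (K * (2 * sin t * cos t)) t := by
      have := ((hasDerivAt_sin t).pow 2).const_mul K
      simpa using this
    exact h1.mul h2.exp
  have hmono : MonotoneOn ψ (Set.Icc 0 (π / 2)) := by
    refine monotoneOn_of_deriv_nonneg (convex_Icc _ _)
      (fun t _ => (hψ t).continuousAt.continuousWithinAt)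
      (fun t _ => (hψ t).differentiableAt.differentiableWithinAt) ?_
    intro t ht
    rw [(hψ t).deriv]
    have ht' := interior_subset ht
    have hsc : 0 ≤ sin t * cos t :=
      mul_nonneg (sin_nonneg_of_nonneg_of_le_pi ht'.1 (by linarith [ht'.2, pi_pos]))
        (cos_nonneg_of_mem_Icc ⟨by linarith [ht'.1, pi_pos], ht'.2⟩)
    have hlow := cross_lower hs C hL θ (lerpM A B t)
    have hexp := exp_pos (K * sin t ^ 2)
    have : 0 ≤ sin t * cos t * (2 * (∑ u, ∑ v, C u v * ∫ g, deS s θ u (rL (lin (lerpM A B t) g)) *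
          deS s (-θ) v (rR (lin (lerpM A B t) g)) ∂(gm (α ⊕ (α ⊕ α)))) + 2 * K * φ t) := by
      refine mul_nonneg hsc ?_
      have : - (θ ^ 2 * L2) * φ t ≤ ∑ u, ∑ v, C u v * ∫ g, deS s θ u (rL (lin (lerpM A B t) g)) *
          deS s (-θ) v (rR (lin (lerpM A B t) g)) ∂(gm (α ⊕ (α ⊕ α))) := hlow
      simp only [K]
      nlinarith
    have h3 := mul_nonneg this hexp.le
    calc 0 ≤ _ := h3
      _ = _ := by ring
  have h0 : (0 : ℝ) ∈ Set.Icc 0 (π / 2) := ⟨le_rfl, by positivity⟩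
  have h1 : π / 2 ∈ Set.Icc 0 (π / 2) := ⟨by positivity, le_rfl⟩
  have hm := hmono h0 h1 (by positivity)
  have e0 : lerpM A B 0 = B := by
    funext u l; simp [lerpM]
  have e1 : lerpM A B (π / 2) = A := by
    funext u l; simp [lerpM]
  simp only [ψ, hφ, e0, e1, sin_zero, sin_pi_div_two] at hm
  -- evaluate the two ends
  have eA : ∀ g : α ⊕ (α ⊕ α) → ℝ, tens (eS (T := T) s θ) (eS s (-θ)) (lin A g) = 1 := by
    intro g
    have r1 : rL (lin A g) = lin X (fun i => g (Sum.inl i)) := by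
      funext u; simp [rL, lin, A, Fintype.sum_sum_type]
    have r2 : rR (lin A g) = lin X (fun i => g (Sum.inl i)) := by
      funext u; simp [rR, lin, A, Fintype.sum_sum_type]
    unfold tens
    rw [r1, r2]
    unfold eS
    rw [← Real.exp_add]
    simp
  have eB : ∀ g : α ⊕ (α ⊕ α) → ℝ, tens (eS (T := T) s θ) (eS s (-θ)) (lin B g)
      = eS s θ (lin X (fun i => g (Sum.inr (Sum.inl i)))) * eS s (-θ) (lin X (fun i => g (Sum.inr (Sum.inr i)))) := by
    intro g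
    have r1 : rL (lin B g) = lin X (fun i => g (Sum.inr (Sum.inl i))) := by
      funext u; simp [rL, lin, B, Fintype.sum_sum_type]
    have r2 : rR (lin B g) = lin X (fun i => g (Sum.inr (Sum.inr i))) := by
      funext u; simp [rR, lin, B, Fintype.sum_sum_type]
    unfold tens
    rw [r1, r2]
  simp_rw [eA, eB] at hm
  have step : ∫ g, eS s θ (lin X (fun i => g (Sum.inr (Sum.inl i)))) *
      eS s (-θ) (lin X (fun i => g (Sum.inr (Sum.inr i)))) ∂(gm (α ⊕ (α ⊕ α)))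
      = (∫ g, eS s θ (lin X g) ∂(gm α)) * (∫ g, eS s (-θ) (lin X g) ∂(gm α)) := by
    rw [integral_sum_inr (α := α) (β := α ⊕ α)
      (fun h => eS s θ (lin X (fun i => h (Sum.inl i))) * eS s (-θ) (lin X (fun i => h (Sum.inr i))))]
    exact integral_sum_split (fun a => eS s θ (lin X a)) (fun a => eS s (-θ) (lin X a))
  rw [step] at hm
  simpa [K] using hm

/-- Exponential moment bound around the mean (sub-Gaussian concentration of the soft maximum). -/
theorem mgf_bound [Nonempty T] {s : ℝ} (hs : 0 < s) (X : T → α → ℝ) {L2 : ℝ}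
    (hL : ∀ u v, ∑ l, X u l * X v l ≤ L2) (hC : ∀ u v, ∑ l, X u l * X v l = ∑ l, X v l * X u l)
    (θ : ℝ) :
    ∫ g, exp (θ * smax s (lin X g)) ∂(gm α)
      ≤ exp (θ * (∫ g, smax s (lin X g) ∂(gm α)) + θ ^ 2 * L2) := by
  set m := ∫ g, smax s (lin X g) ∂(gm α) with hm
  have tf : Tame (fun g : α → ℝ => smax s (lin X g)) := (tame_smax hs).comp_lin X
  have te1 : Tame (fun g : α → ℝ => eS s θ (lin X g)) := (tame_eS hs θ).comp_lin X
  have te2 : Tame (fun g : α → ℝ => eS s (-θ) (lin X g)) := (tame_eS hs (-θ)).comp_lin X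
  have aux := mgf_bound_aux hs X hL hC θ
  -- Jensen for the negative exponent
  have hJ : exp (-θ * m) ≤ ∫ g, eS s (-θ) (lin X g) ∂(gm α) := by
    have hpt : ∀ g : α → ℝ, exp (-θ * m) * (1 + (-θ * smax s (lin X g) - -θ * m))
        ≤ eS s (-θ) (lin X g) := by
      intro g
      have h1 := Real.add_one_le_exp (-θ * smax s (lin X g) - -θ * m)
      have h2 : eS s (-θ) (lin X g) = exp (-θ * m) * exp (-θ * smax s (lin X g) - -θ * m) := by
        unfold eS; rw [← Real.exp_add]; congr 1; ring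
      rw [h2]
      refine mul_le_mul_of_nonneg_left ?_ (exp_pos _).le
      linarith
    have tL : Tame (fun g : α → ℝ => exp (-θ * m) * (1 + (-θ * smax s (lin X g) - -θ * m))) :=
      (Tame.const _).mul ((Tame.const 1).add ((tf.const_mul (-θ)).sub (Tame.const _)))
    have h3 := integral_mono tL.integrable te2.integrable hpt
    have h4 : ∫ g, exp (-θ * m) * (1 + (-θ * smax s (lin X g) - -θ * m)) ∂(gm α) = exp (-θ * m) := by
      rw [integral_const_mul, integral_add (integrable_const _)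
        ((tf.const_mul (-θ)).sub (Tame.const _)).integrable,
        integral_sub (tf.const_mul (-θ)).integrable (integrable_const _),
        integral_const_mul, ← hm]
      simp
    rw [h4] at h3
    exact h3
  have hpos : 0 ≤ ∫ g, eS s θ (lin X g) ∂(gm α) :=
    integral_nonneg fun g => (eS_pos _ _ _).le
  have h5 : (∫ g, eS s θ (lin X g) ∂(gm α)) * exp (-θ * m) ≤ exp (θ ^ 2 * L2) :=
    (mul_le_mul_of_nonneg_left hJ hpos).trans aux
  have h6 : exp (θ * m + θ ^ 2 * L2) = exp (θ * m) * exp (θ ^ 2 * L2) := Real.exp_add _ _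
  have h7 : exp (θ * m) * exp (-θ * m) = 1 := by
    rw [← Real.exp_add]; simp
  show ∫ g, eS s θ (lin X g) ∂(gm α) ≤ _
  rw [h6]
  calc ∫ g, eS s θ (lin X g) ∂(gm α)
      = ((∫ g, eS s θ (lin X g) ∂(gm α)) * exp (-θ * m)) * exp (θ * m) := by
        rw [mul_assoc, mul_comm (exp (-θ * m)), h7, mul_one]
    _ ≤ exp (θ ^ 2 * L2) * exp (θ * m) := mul_le_mul_of_nonneg_right h5 (exp_pos _).le
    _ = _ := mul_comm _ _

end Vale.Agent.Lib.P150
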