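import Mathlib

open MeasureTheory ProbabilityTheory Real
open scoped BigOperators

namespace Vale.Agent.Lib.P150

/-- Index set of the disorder: pairs `i < j`. -/
abbrev Pair (n : ℕ) := {p : Fin n × Fin n // p.1 < p.2}

/-- Spin configurations are `Fin n → Bool`; `true` is spin `+1`, `false` is spin `-1`. -/
abbrev Conf (n : ℕ) := Fin n → Bool

/-- The spin value at site `i`. -/
def spin {n : ℕ} (x : Conf n) (i : Fin n) : ℝ := if x i then 1 else -1

/-- The law of the disorder: i.i.d. standard Gaussians on pairs `i < j`. -/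
noncomputable def disorder (n : ℕ) : Measure (Pair n → ℝ) :=
  Measure.pi fun _ => gaussianReal 0 1

/-- The exponent `(β / √n) ∑_{i<j} g_{ij} x_i x_j` of the Gibbs weight. -/
noncomputable def gibbsExponent {n : ℕ} (β : ℝ) (g : Pair n → ℝ) (x : Conf n) : ℝ :=
  β / √(n : ℝ) * ∑ p : Pair n, g p * spin x p.1.1 * spin x p.1.2

/-- The Sherrington-Kirkpatrick Gibbs measure `μ(x)`. -/
noncomputable def gibbs {n : ℕ} (β : ℝ) (g : Pair n → ℝ) (x : Conf n) : ℝ :=
  exp (gibbsExponent β g x) / ∑ y : Conf n, exp (gibbsExponent β g y)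

/-- The mean of `f` under the Gibbs measure. -/
noncomputable def gibbsMean {n : ℕ} (β : ℝ) (g : Pair n → ℝ) (f : Conf n → ℝ) : ℝ :=
  ∑ x : Conf n, gibbs β g x * f x

/-- The variance of `f` under the Gibbs measure. -/
noncomputable def gibbsVar {n : ℕ} (β : ℝ) (g : Pair n → ℝ) (f : Conf n → ℝ) : ℝ :=
  gibbsMean β g (fun x => f x ^ 2) - gibbsMean β g f ^ 2

/-- The configuration `x` with the spin at `i` flipped. -/
def flipAt {n : ℕ} (x : Conf n) (i : Fin n) : Conf n := Function.update x i (!x i)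

/-- `Q_i`: conditional expectation under the Gibbs measure given all spins except the one at `i`
(the heat-bath update at `i`). -/
noncomputable def heatBath {n : ℕ} (β : ℝ) (g : Pair n → ℝ) (i : Fin n) (f : Conf n → ℝ)
    (x : Conf n) : ℝ :=
  (gibbs β g x * f x + gibbs β g (flipAt x i) * f (flipAt x i)) /
    (gibbs β g x + gibbs β g (flipAt x i))

/-- The generator `𝓛 = ∑_i (Q_i - I)` of heat-bath Glauber dynamics. -/
noncomputable def generator {n : ℕ} (β : ℝ) (g : Pair n → ℝ) (f : Conf n → ℝ) (x : Conf n) : ℝ :=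
  ∑ i : Fin n, (heatBath β g i f x - f x)

/-- The spectral gap of `-𝓛` on `L²(μ)`, as the infimum of the Rayleigh quotient
`⟨f, -𝓛 f⟩_μ / Var_μ f` over functions `f` of nonzero variance. -/
noncomputable def spectralGap {n : ℕ} (β : ℝ) (g : Pair n → ℝ) : ℝ :=
  sInf {r : ℝ | ∃ f : Conf n → ℝ, gibbsVar β g f ≠ 0 ∧
    r = gibbsMean β g (fun x => f x * (- generator β g f x)) / gibbsVar β g f}

/-- The matrix of the generator `𝓛`: its `(x, y)` entry is `(𝓛 δ_y)(x)`. -/
noncomputable def generatorMatrix {n : ℕ} (β : ℝ) (g : Pair n → ℝ) :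
    Matrix (Conf n) (Conf n) ℝ :=
  Matrix.of fun x y => generator β g (fun z => if z = y then 1 else 0) x

/-- The continuous-time heat kernel `P_t = exp (t 𝓛)`. -/
noncomputable def heatKernel {n : ℕ} (β : ℝ) (g : Pair n → ℝ) (t : ℝ) :
    Matrix (Conf n) (Conf n) ℝ :=
  NormedSpace.exp (t • generatorMatrix β g)

/-- The total variation distance `‖P_t(x, ·) - μ‖_TV`. -/
noncomputable def tvToGibbs {n : ℕ} (β : ℝ) (g : Pair n → ℝ) (t : ℝ) (x : Conf n) : ℝ :=
  (1 / 2) * ∑ y : Conf n, |heatKernel β g t x y - gibbs β g y|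

end Vale.Agent.Lib.P150
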