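import Mathlib

open MeasureTheory ProbabilityTheory Real
open scoped BigOperators NNReal

namespace Vale.Agent.Lib.P150

variable {ι : Type*} [Fintype ι]

/-- The standard Gaussian product measure on `ι → ℝ`. -/
noncomputable def gm (ι : Type*) [Fintype ι] : Measure (ι → ℝ) :=
  Measure.pi (fun _ => gaussianReal 0 1)

instance gm_isProb : IsProbabilityMeasure (gm ι) := by
  unfold gm; infer_instance

/-- Tame: continuous with an exponential bound in the `ℓ¹` norm. -/
def Tame (F : (ι → ℝ) → ℝ) : Prop :=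
  Continuous F ∧ ∃ C a : ℝ, 0 ≤ C ∧ 0 ≤ a ∧ ∀ g, |F g| ≤ C * exp (a * ∑ i, |g i|)

/-- Coordinate derivative. -/
def HasPD [DecidableEq ι] (p : ι) (F F' : (ι → ℝ) → ℝ) : Prop :=
  ∀ g, HasDerivAt (fun t => F (Function.update g p t)) (F' g) (g p)

lemma integrable_exp_abs (a : ℝ) :
    Integrable (fun t : ℝ => exp (a * |t|)) (gaussianReal 0 1) := by
  have h1 := integrable_exp_mul_gaussianReal (μ := 0) (v := 1) a
  have h2 := integrable_exp_mul_gaussianReal (μ := 0) (v := 1) (-a)
  refine (h1.add h2).mono' (by fun_prop) (Filter.Eventually.of_forall fun t => ?_)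
  rw [Real.norm_eq_abs, abs_of_pos (exp_pos _)]
  have p1 := exp_pos (a * t)
  have p2 := exp_pos (-a * t)
  rcases le_total 0 t with h | h
  · rw [abs_of_nonneg h]; simp only [Pi.add_apply]; linarith
  · rw [abs_of_nonpos h]
    simp only [Pi.add_apply]
    have : a * -t = -a * t := by ring
    rw [this]; linarith

lemma integrable_exp_sum_abs (a : ℝ) :
    Integrable (fun g : ι → ℝ => exp (a * ∑ i, |g i|)) (gm ι) := by
  have h := Integrable.fintype_prod (μ := fun _ : ι => gaussianReal 0 1)
    (f := fun _ t => exp (a * |t|)) (fun _ => integrable_exp_abs a)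
  refine h.congr (Filter.Eventually.of_forall fun g => ?_)
  simp only
  rw [← Real.exp_sum, Finset.mul_sum]

lemma Tame.integrable {F : (ι → ℝ) → ℝ} (hF : Tame F) : Integrable F (gm ι) := by
  obtain ⟨hc, C, a, hC, ha, hb⟩ := hF
  refine ((integrable_exp_sum_abs (ι := ι) a).const_mul C).mono'
    hc.aestronglyMeasurable (Filter.Eventually.of_forall fun g => ?_)
  rw [Real.norm_eq_abs]; exact hb g

lemma Tame.const (c : ℝ) : Tame (fun _ : ι → ℝ => c) := by
  refine ⟨continuous_const, |c|, 0, abs_nonneg _, le_rfl, fun g => ?_⟩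
  simp

lemma Tame.add {F G : (ι → ℝ) → ℝ} (hF : Tame F) (hG : Tame G) :
    Tame (fun g => F g + G g) := by
  obtain ⟨hc, C, a, hC, ha, hb⟩ := hF
  obtain ⟨hc', C', a', hC', ha', hb'⟩ := hG
  refine ⟨hc.add hc', C + C', max a a', by positivity, le_max_of_le_left ha, fun g => ?_⟩
  have hS : 0 ≤ ∑ i, |g i| := Finset.sum_nonneg fun _ _ => abs_nonneg _
  have e1 : exp (a * ∑ i, |g i|) ≤ exp (max a a' * ∑ i, |g i|) :=
    exp_le_exp.2 (mul_le_mul_of_nonneg_right (le_max_left _ _) hS)
  have e2 : exp (a' * ∑ i, |g i|) ≤ exp (max a a' * ∑ i, |g i|) :=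
    exp_le_exp.2 (mul_le_mul_of_nonneg_right (le_max_right _ _) hS)
  calc |F g + G g| ≤ |F g| + |G g| := abs_add_le _ _
    _ ≤ C * exp (a * ∑ i, |g i|) + C' * exp (a' * ∑ i, |g i|) := add_le_add (hb g) (hb' g)
    _ ≤ C * exp (max a a' * ∑ i, |g i|) + C' * exp (max a a' * ∑ i, |g i|) :=
        add_le_add (mul_le_mul_of_nonneg_left e1 hC) (mul_le_mul_of_nonneg_left e2 hC')
    _ = _ := by ring

lemma Tame.mul {F G : (ι → ℝ) → ℝ} (hF : Tame F) (hG : Tame G) :
    Tame (fun g => F g * G g) := by
  obtain ⟨hc, C, a, hC, ha, hb⟩ := hF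
  obtain ⟨hc', C', a', hC', ha', hb'⟩ := hG
  refine ⟨hc.mul hc', C * C', a + a', by positivity, by positivity, fun g => ?_⟩
  rw [abs_mul, add_mul, Real.exp_add]
  calc |F g| * |G g| ≤ (C * exp (a * ∑ i, |g i|)) * (C' * exp (a' * ∑ i, |g i|)) :=
        mul_le_mul (hb g) (hb' g) (abs_nonneg _) (by positivity)
    _ = _ := by ring

lemma Tame.neg {F : (ι → ℝ) → ℝ} (hF : Tame F) : Tame (fun g => - F g) := by
  obtain ⟨hc, C, a, hC, ha, hb⟩ := hF
  exact ⟨hc.neg, C, a, hC, ha, fun g => by rw [abs_neg]; exact hb g⟩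

lemma Tame.sub {F G : (ι → ℝ) → ℝ} (hF : Tame F) (hG : Tame G) :
    Tame (fun g => F g - G g) := by
  simpa [sub_eq_add_neg] using hF.add hG.neg

lemma Tame.const_mul {F : (ι → ℝ) → ℝ} (c : ℝ) (hF : Tame F) : Tame (fun g => c * F g) :=
  (Tame.const c).mul hF

lemma Tame.sum {κ : Type*} (s : Finset κ) {F : κ → (ι → ℝ) → ℝ} (hF : ∀ k ∈ s, Tame (F k)) :
    Tame (fun g => ∑ k ∈ s, F k g) := by
  classical
  induction s using Finset.induction_on with
  | empty => simpa using Tame.const (ι := ι) 0
  | insert a s ha ih =>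
    have := (hF a (Finset.mem_insert_self _ _)).add
      (ih fun k hk => hF k (Finset.mem_insert_of_mem hk))
    have e : (fun g => ∑ k ∈ insert a s, F k g) = fun g => F a g + ∑ k ∈ s, F k g := by
      funext g; rw [Finset.sum_insert ha]
    rw [e]; exact this

lemma Tame.coord (p : ι) : Tame (fun g : ι → ℝ => g p) := by
  classical
  refine ⟨continuous_apply p, 1, 1, zero_le_one, zero_le_one, fun g => ?_⟩
  have h1 : |g p| ≤ ∑ i, |g i| :=
    Finset.single_le_sum (f := fun i => |g i|) (fun _ _ => abs_nonneg _) (Finset.mem_univ p)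
  have h2 := Real.add_one_le_exp (∑ i, |g i|)
  simp only [one_mul]
  linarith

lemma Tame.of_bound {F : (ι → ℝ) → ℝ} (hc : Continuous F) (M : ℝ) (hM : ∀ g, |F g| ≤ M) :
    Tame F := by
  have h0 : 0 ≤ M := le_trans (abs_nonneg _) (hM 0)
  refine ⟨hc, M, 0, h0, le_rfl, fun g => ?_⟩
  simpa using hM g

lemma Tame.mono {F G : (ι → ℝ) → ℝ} (hc : Continuous F) (hG : Tame G)
    (h : ∀ g, |F g| ≤ |G g|) : Tame F := by
  obtain ⟨_, C, a, hC, ha, hb⟩ := hG
  exact ⟨hc, C, a, hC, ha, fun g => (h g).trans (hb g)⟩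

/-! ### One-dimensional integration by parts -/

lemma hasDerivAt_pdf (t : ℝ) :
    HasDerivAt (gaussianPDFReal 0 1) (-t * gaussianPDFReal 0 1 t) t := by
  have h : gaussianPDFReal 0 1 = fun t => (√(2 * π))⁻¹ * exp (-t ^ 2 / 2) := by
    funext t; simp [gaussianPDFReal]
  rw [h]
  have h1 : HasDerivAt (fun t : ℝ => -t ^ 2 / 2) (-t) t := by
    have := (((hasDerivAt_id t).pow 2).neg).div_const 2
    simp only [id, Nat.cast_ofNat, Nat.add_one_sub_one, pow_one, mul_one] at this
    have e : -(2 * t) / 2 = -t := by ring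
    rw [e] at this
    exact this
  have h2 := (h1.exp).const_mul ((√(2 * π))⁻¹)
  have e : (√(2 * π))⁻¹ * (exp (-t ^ 2 / 2) * -t) = -t * ((√(2 * π))⁻¹ * exp (-t ^ 2 / 2)) := by ring
  rw [e] at h2
  exact h2

lemma integrable_pdf_iff (h : ℝ → ℝ) :
    Integrable h (gaussianReal 0 1) ↔ Integrable (fun t => gaussianPDFReal 0 1 t * h t) := by
  rw [gaussianReal_of_var_ne_zero 0 (one_ne_zero)]
  rw [integrable_withDensity_iff_integrable_smul₀' (measurable_gaussianPDF _ _).aemeasurable
    (Filter.Eventually.of_forall fun _ => gaussianPDF_lt_top)]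
  refine integrable_congr (Filter.Eventually.of_forall fun t => ?_)
  simp [gaussianPDF, gaussianPDFReal_nonneg]

lemma integrable_coord_mul_exp_abs (a : ℝ) :
    Integrable (fun t : ℝ => t * exp (a * |t|)) (gaussianReal 0 1) := by
  have h := integrable_exp_abs (|a| + 1)
  refine h.mono' (by fun_prop) (Filter.Eventually.of_forall fun t => ?_)
  rw [Real.norm_eq_abs, abs_mul, abs_of_pos (exp_pos _), add_mul, Real.exp_add, one_mul, mul_comm]
  have h1 : exp (a * |t|) ≤ exp (|a| * |t|) :=
    exp_le_exp.2 (mul_le_mul_of_nonneg_right (le_abs_self a) (abs_nonneg t))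
  have h2 : |t| ≤ exp |t| := by
    have := Real.add_one_le_exp (|t|); linarith
  exact mul_le_mul h1 h2 (abs_nonneg t) (exp_pos _).le

/-- One-dimensional Gaussian integration by parts. -/
lemma gauss_ibp_1d {f f' : ℝ → ℝ} (hf : ∀ t, HasDerivAt f (f' t) t)
    (hf'c : Continuous f') {C a : ℝ}
    (hb : ∀ t, |f t| ≤ C * exp (a * |t|)) (hb' : ∀ t, |f' t| ≤ C * exp (a * |t|)) :
    ∫ t, t * f t ∂(gaussianReal 0 1) = ∫ t, f' t ∂(gaussianReal 0 1) := by
  have hfc : Continuous f := continuous_iff_continuousAt.2 fun t => (hf t).continuousAt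
  have i1 : Integrable f (gaussianReal 0 1) :=
    ((integrable_exp_abs a).const_mul C).mono' hfc.aestronglyMeasurable
      (Filter.Eventually.of_forall fun t => by rw [Real.norm_eq_abs]; exact hb t)
  have i2 : Integrable f' (gaussianReal 0 1) :=
    ((integrable_exp_abs a).const_mul C).mono' hf'c.aestronglyMeasurable
      (Filter.Eventually.of_forall fun t => by rw [Real.norm_eq_abs]; exact hb' t)
  have i3 : Integrable (fun t => t * f t) (gaussianReal 0 1) := by
    refine ((integrable_coord_mul_exp_abs a).norm.const_mul C).mono'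
      (by fun_prop) (Filter.Eventually.of_forall fun t => ?_)
    rw [Real.norm_eq_abs, abs_mul, Real.norm_eq_abs, abs_mul, abs_of_pos (exp_pos _)]
    calc |t| * |f t| ≤ |t| * (C * exp (a * |t|)) :=
          mul_le_mul_of_nonneg_left (hb t) (abs_nonneg t)
      _ = _ := by ring
  have j1 := (integrable_pdf_iff f).1 i1
  have j2 := (integrable_pdf_iff f').1 i2
  have j3 := (integrable_pdf_iff _).1 i3
  have key := integral_mul_deriv_eq_deriv_mul_of_integrable (A := ℝ)
    (u := f) (v := gaussianPDFReal 0 1) (u' := f') (v' := fun t => -t * gaussianPDFReal 0 1 t)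
    (fun t _ => hf t) (fun t _ => hasDerivAt_pdf t) ?_ ?_ ?_
  · rw [integral_gaussianReal_eq_integral_smul one_ne_zero,
      integral_gaussianReal_eq_integral_smul one_ne_zero]
    simp only [smul_eq_mul]
    have e1 : (fun t => gaussianPDFReal 0 1 t * (t * f t))
        = fun t => - (f t * (-t * gaussianPDFReal 0 1 t)) := by
      funext t; ring
    have e2 : (fun t => gaussianPDFReal 0 1 t * f' t)
        = fun t => f' t * gaussianPDFReal 0 1 t := by
      funext t; ring
    rw [e1, e2, integral_neg, key]; ring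
  · refine j3.neg.congr (Filter.Eventually.of_forall fun t => ?_)
    simp only [Pi.neg_apply, Pi.mul_apply]; ring
  · refine j2.congr (Filter.Eventually.of_forall fun t => ?_)
    simp only [Pi.mul_apply]; ring
  · refine j1.congr (Filter.Eventually.of_forall fun t => ?_)
    simp only [Pi.mul_apply]; ring

/-! ### Resampling one coordinate -/

variable [DecidableEq ι]

lemma measurePreserving_update (p : ι) :
    MeasurePreserving (fun z : (ι → ℝ) × ℝ => Function.update z.1 p z.2)
      ((gm ι).prod (gaussianReal 0 1)) (gm ι) := by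
  refine ⟨measurable_update' , ?_⟩
  symm
  unfold gm
  refine Measure.pi_eq fun A hA => ?_
  have hΨ : Measurable (fun z : (ι → ℝ) × ℝ => Function.update z.1 p z.2) := measurable_update'
  rw [Measure.map_apply hΨ (MeasurableSet.univ_pi hA)]
  have e : (fun z : (ι → ℝ) × ℝ => Function.update z.1 p z.2) ⁻¹' Set.univ.pi A
      = (Set.univ.pi (Function.update A p Set.univ)) ×ˢ A p := by
    ext ⟨y, t⟩
    simp only [Set.mem_preimage, Set.mem_pi, Set.mem_univ, forall_true_left, Set.mem_prod]
    constructor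
    · intro h
      refine ⟨fun q => ?_, by simpa using h p⟩
      by_cases hq : q = p
      · subst hq; simp
      · simpa [Function.update_of_ne hq] using h q
    · rintro ⟨h1, h2⟩ q
      by_cases hq : q = p
      · subst hq; simpa using h2
      · simpa [Function.update_of_ne hq] using h1 q
  rw [e, Measure.prod_prod, Measure.pi_pi]
  have : ∏ i, (gaussianReal 0 1) (Function.update A p Set.univ i)
      = ∏ i ∈ Finset.univ.erase p, (gaussianReal 0 1) (A i) := by
    rw [← Finset.mul_prod_erase Finset.univ _ (Finset.mem_univ p)]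
    simp only [Function.update_self, measure_univ, one_mul]
    refine Finset.prod_congr rfl fun q hq => ?_
    rw [Function.update_of_ne (Finset.ne_of_mem_erase hq)]
  rw [this, mul_comm, Finset.mul_prod_erase Finset.univ (fun i => gaussianReal 0 1 (A i)) (Finset.mem_univ p)]

lemma sum_abs_update (y : ι → ℝ) (p : ι) (t : ℝ) :
    ∑ i, |Function.update y p t i| = |t| + ∑ i ∈ Finset.univ.erase p, |y i| := by
  rw [← Finset.add_sum_erase Finset.univ _ (Finset.mem_univ p)]
  simp only [Function.update_self]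
  congr 1
  refine Finset.sum_congr rfl fun q hq => ?_
  rw [Function.update_of_ne (Finset.ne_of_mem_erase hq)]

/-- Gaussian integration by parts in one coordinate. -/
theorem gauss_ibp {p : ι} {F F' : (ι → ℝ) → ℝ} (hF : Tame F) (hF' : Tame F')
    (hD : HasPD p F F') :
    ∫ g, g p * F g ∂(gm ι) = ∫ g, F' g ∂(gm ι) := by
  have hmp := measurePreserving_update (ι := ι) p
  have hL : Tame (fun g : ι → ℝ => g p * F g) := (Tame.coord p).mul hF
  have int1 : Integrable (fun z : (ι → ℝ) × ℝ => (Function.update z.1 p z.2) p * F (Function.update z.1 p z.2))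
      ((gm ι).prod (gaussianReal 0 1)) :=
    hmp.integrable_comp_of_integrable (g := fun g => g p * F g) hL.integrable
  have int2 : Integrable (fun z : (ι → ℝ) × ℝ => F' (Function.update z.1 p z.2))
      ((gm ι).prod (gaussianReal 0 1)) :=
    hmp.integrable_comp_of_integrable hF'.integrable
  have eL : ∫ g, g p * F g ∂(gm ι)
      = ∫ y, ∫ t, t * F (Function.update y p t) ∂(gaussianReal 0 1) ∂(gm ι) := by
    have e := integral_map (μ := (gm ι).prod (gaussianReal 0 1)) hmp.aemeasurable
      (f := fun g : ι → ℝ => g p * F g) (by rw [hmp.map_eq]; exact hL.1.aestronglyMeasurable)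
    rw [hmp.map_eq] at e
    rw [e, integral_prod _ int1]
    simp
  have eR : ∫ g, F' g ∂(gm ι)
      = ∫ y, ∫ t, F' (Function.update y p t) ∂(gaussianReal 0 1) ∂(gm ι) := by
    have e := integral_map (μ := (gm ι).prod (gaussianReal 0 1)) hmp.aemeasurable
      (f := F') (by rw [hmp.map_eq]; exact hF'.1.aestronglyMeasurable)
    rw [hmp.map_eq] at e
    rw [e, integral_prod _ int2]
  rw [eL, eR]
  refine integral_congr_ae (Filter.Eventually.of_forall fun y => ?_)
  obtain ⟨_, C, a, hC, ha, hb⟩ := hF
  obtain ⟨hc', C', a', hC', ha', hb'⟩ := hF'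
  simp only
  have hcu : Continuous (fun t : ℝ => Function.update y p t) := by
    exact continuous_const.update p continuous_id
  refine gauss_ibp_1d (f := fun t => F (Function.update y p t))
    (f' := fun t => F' (Function.update y p t))
    (C := (C + C') * exp ((a + a') * ∑ i ∈ Finset.univ.erase p, |y i|)) (a := a + a')
    (fun t => ?_) (hc'.comp hcu) (fun t => ?_) (fun t => ?_)
  · have := hD (Function.update y p t)
    simp only [Function.update_self, Function.update_idem] at this
    exact this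
  · have hS := Finset.sum_nonneg (s := Finset.univ.erase p) (f := fun i => |y i|) (fun _ _ => abs_nonneg _)
    refine (hb _).trans ?_
    rw [sum_abs_update]
    have e : exp (a * (|t| + ∑ i ∈ Finset.univ.erase p, |y i|))
        ≤ exp ((a + a') * (|t| + ∑ i ∈ Finset.univ.erase p, |y i|)) :=
      exp_le_exp.2 (mul_le_mul_of_nonneg_right (by linarith) (by positivity))
    rw [mul_assoc, ← Real.exp_add]
    have : (a + a') * ∑ i ∈ Finset.univ.erase p, |y i| + (a + a') * |t|
        = (a + a') * (|t| + ∑ i ∈ Finset.univ.erase p, |y i|) := by ring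
    rw [this]
    exact mul_le_mul (by linarith) e (exp_pos _).le (by linarith)
  · have hS := Finset.sum_nonneg (s := Finset.univ.erase p) (f := fun i => |y i|) (fun _ _ => abs_nonneg _)
    refine (hb' _).trans ?_
    rw [sum_abs_update]
    have e : exp (a' * (|t| + ∑ i ∈ Finset.univ.erase p, |y i|))
        ≤ exp ((a + a') * (|t| + ∑ i ∈ Finset.univ.erase p, |y i|)) :=
      exp_le_exp.2 (mul_le_mul_of_nonneg_right (by linarith) (by positivity))
    rw [mul_assoc, ← Real.exp_add]
    have : (a + a') * ∑ i ∈ Finset.univ.erase p, |y i| + (a + a') * |t|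
        = (a + a') * (|t| + ∑ i ∈ Finset.univ.erase p, |y i|) := by ring
    rw [this]
    exact mul_le_mul (by linarith) e (exp_pos _).le (by linarith)

end Vale.Agent.Lib.P150
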