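import Vale.Agent.Lib.P150.IbpTrace

open MeasureTheory ProbabilityTheory Real Matrix
open scoped BigOperators

set_option linter.unusedSectionVars false

namespace Vale.Agent.Lib.P150

variable {n : ℕ}

/-- Product of the spins of a pair. -/
noncomputable def pS (p : Pair n) (x : Conf n) : ℝ := spin x p.1.1 * spin x p.1.2

lemma spin_mul_self (x : Conf n) (i : Fin n) : spin x i * spin x i = 1 := by
  unfold spin; split_ifs <;> norm_num

lemma abs_spin (x : Conf n) (i : Fin n) : |spin x i| = 1 := by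
  unfold spin; split_ifs <;> simp

lemma gibbsExponent_eq (β : ℝ) (g : Pair n → ℝ) (x : Conf n) :
    gibbsExponent β g x = ∑ q : Pair n, g q * ((β / √(n : ℝ)) * pS q x) := by
  unfold gibbsExponent pS
  rw [Finset.mul_sum]
  exact Finset.sum_congr rfl fun q _ => by ring

/-- The partition function. -/
noncomputable def partFn (β : ℝ) (g : Pair n → ℝ) : ℝ := ∑ y : Conf n, exp (gibbsExponent β g y)

lemma partFn_pos (β : ℝ) (g : Pair n → ℝ) : 0 < partFn β g :=
  Finset.sum_pos (fun _ _ => exp_pos _) Finset.univ_nonempty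

lemma gibbs_pos (β : ℝ) (g : Pair n → ℝ) (x : Conf n) : 0 < gibbs β g x :=
  div_pos (exp_pos _) (partFn_pos β g)

lemma sum_gibbs (β : ℝ) (g : Pair n → ℝ) : ∑ x : Conf n, gibbs β g x = 1 := by
  unfold gibbs
  rw [← Finset.sum_div]
  exact div_self (partFn_pos β g).ne'

lemma gibbs_le_one (β : ℝ) (g : Pair n → ℝ) (x : Conf n) : gibbs β g x ≤ 1 := by
  rw [← sum_gibbs β g]
  exact Finset.single_le_sum (f := fun x => gibbs β g x) (fun y _ => (gibbs_pos β g y).le) (Finset.mem_univ x)

lemma gibbsMean_const (β : ℝ) (g : Pair n → ℝ) (c : ℝ) : gibbsMean β g (fun _ => c) = c := by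
  unfold gibbsMean
  rw [← Finset.sum_mul, sum_gibbs, one_mul]

lemma gibbsMean_add (β : ℝ) (g : Pair n → ℝ) (f h : Conf n → ℝ) :
    gibbsMean β g (fun x => f x + h x) = gibbsMean β g f + gibbsMean β g h := by
  unfold gibbsMean
  rw [← Finset.sum_add_distrib]
  exact Finset.sum_congr rfl fun _ _ => by ring

lemma gibbsMean_sub (β : ℝ) (g : Pair n → ℝ) (f h : Conf n → ℝ) :
    gibbsMean β g (fun x => f x - h x) = gibbsMean β g f - gibbsMean β g h := by
  unfold gibbsMean
  rw [← Finset.sum_sub_distrib]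
  exact Finset.sum_congr rfl fun _ _ => by ring

lemma gibbsMean_const_mul (β : ℝ) (g : Pair n → ℝ) (c : ℝ) (f : Conf n → ℝ) :
    gibbsMean β g (fun x => c * f x) = c * gibbsMean β g f := by
  unfold gibbsMean
  rw [Finset.mul_sum]
  exact Finset.sum_congr rfl fun _ _ => by ring

lemma gibbsMean_sum {κ : Type*} (β : ℝ) (g : Pair n → ℝ) (s : Finset κ) (f : κ → Conf n → ℝ) :
    gibbsMean β g (fun x => ∑ k ∈ s, f k x) = ∑ k ∈ s, gibbsMean β g (f k) := by
  unfold gibbsMean
  simp_rw [Finset.mul_sum]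
  rw [Finset.sum_comm]

lemma gibbsMean_nonneg (β : ℝ) (g : Pair n → ℝ) {f : Conf n → ℝ} (hf : ∀ x, 0 ≤ f x) :
    0 ≤ gibbsMean β g f :=
  Finset.sum_nonneg fun x _ => mul_nonneg (gibbs_pos β g x).le (hf x)

lemma gibbsMean_mono (β : ℝ) (g : Pair n → ℝ) {f h : Conf n → ℝ} (hf : ∀ x, f x ≤ h x) :
    gibbsMean β g f ≤ gibbsMean β g h :=
  Finset.sum_le_sum fun x _ => mul_le_mul_of_nonneg_left (hf x) (gibbs_pos β g x).le

lemma abs_gibbsMean_le (β : ℝ) (g : Pair n → ℝ) {f : Conf n → ℝ} {M : ℝ} (hf : ∀ x, |f x| ≤ M) :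
    |gibbsMean β g f| ≤ M := by
  rw [abs_le]
  constructor
  · have := gibbsMean_mono β g (f := fun _ => -M) (h := f) (fun x => (abs_le.1 (hf x)).1)
    rwa [gibbsMean_const] at this
  · have := gibbsMean_mono β g (f := f) (h := fun _ => M) (fun x => (abs_le.1 (hf x)).2)
    rwa [gibbsMean_const] at this

lemma continuous_gibbsExponent (β : ℝ) (x : Conf n) :
    Continuous (fun g : Pair n → ℝ => gibbsExponent β g x) := by
  unfold gibbsExponent
  fun_prop

lemma continuous_partFn (β : ℝ) : Continuous (partFn (n := n) β) := by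
  unfold partFn
  exact continuous_finsetSum _ fun x _ => (continuous_gibbsExponent β x).rexp

lemma continuous_gibbs (β : ℝ) (x : Conf n) : Continuous (fun g : Pair n → ℝ => gibbs β g x) := by
  unfold gibbs
  exact ((continuous_gibbsExponent β x).rexp).div (continuous_partFn β)
    (fun g => (partFn_pos β g).ne')

lemma continuous_gibbsMean (β : ℝ) (f : Conf n → ℝ) :
    Continuous (fun g : Pair n → ℝ => gibbsMean β g f) := by
  unfold gibbsMean
  exact continuous_finsetSum _ fun x _ => (continuous_gibbs β x).mul continuous_const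

/-- Gibbs means are tame. -/
lemma tame_gibbsMean (β : ℝ) (f : Conf n → ℝ) : Tame (fun g : Pair n → ℝ => gibbsMean β g f) :=
  Tame.of_bound (continuous_gibbsMean β f) (∑ x, |f x|) fun g =>
    abs_gibbsMean_le β g fun x =>
      Finset.single_le_sum (f := fun x => |f x|) (fun _ _ => abs_nonneg _) (Finset.mem_univ x)

lemma hasPD_gibbsExponent (β : ℝ) (p : Pair n) (x : Conf n) :
    HasPD p (fun g => gibbsExponent β g x) (fun _ => (β / √(n : ℝ)) * pS p x) := by
  simp_rw [gibbsExponent_eq]
  have := HasPD.sum (p := p) (Finset.univ : Finset (Pair n))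
    (F := fun q g => g q * ((β / √(n : ℝ)) * pS q x))
    (F' := fun q _ => if q = p then (β / √(n : ℝ)) * pS q x else 0)
    (fun q _ => hasPD_coord_div p q _)
  simpa using this

lemma HasPD.exp' {ι : Type*} [Fintype ι] [DecidableEq ι] {p : ι} {F F' : (ι → ℝ) → ℝ}
    (hF : HasPD p F F') : HasPD p (fun g => exp (F g)) (fun g => exp (F g) * F' g) := by
  intro g
  have := (hF g).exp
  simp only [Function.update_eq_self] at this
  exact this

lemma HasPD.div' {ι : Type*} [Fintype ι] [DecidableEq ι] {p : ι} {F F' G G' : (ι → ℝ) → ℝ}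
    (hF : HasPD p F F') (hG : HasPD p G G') (hne : ∀ g, G g ≠ 0) :
    HasPD p (fun g => F g / G g) (fun g => (F' g * G g - F g * G' g) / G g ^ 2) := by
  intro g
  have h := (hF g).div (hG g) (by simpa using hne g)
  simp only [Function.update_eq_self] at h
  exact h

/-- The unnormalised weighted sum. -/
noncomputable def numer (β : ℝ) (f : Conf n → ℝ) (g : Pair n → ℝ) : ℝ :=
  ∑ x : Conf n, exp (gibbsExponent β g x) * f x

lemma gibbsMean_eq_div (β : ℝ) (f : Conf n → ℝ) (g : Pair n → ℝ) :
    gibbsMean β g f = numer β f g / partFn β g := by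
  unfold gibbsMean numer gibbs partFn
  rw [Finset.sum_div]
  exact Finset.sum_congr rfl fun _ _ => by ring

lemma hasPD_numer (β : ℝ) (f : Conf n → ℝ) (p : Pair n) :
    HasPD p (numer β f) (fun g => (β / √(n : ℝ)) * numer β (fun x => f x * pS p x) g) := by
  unfold numer
  simp_rw [Finset.mul_sum]
  refine HasPD.sum _ fun x _ => ?_
  have h1 := (hasPD_gibbsExponent β p x).exp'
  have h2 := h1.mul (HasPD.const p (f x))
  intro g
  have := h2 g
  convert this using 1
  ring

lemma partFn_eq_numer (β : ℝ) (g : Pair n → ℝ) : partFn β g = numer β (fun _ => 1) g := by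
  simp [partFn, numer]

/-- The derivative of a Gibbs mean. -/
theorem hasPD_gibbsMean (β : ℝ) (f : Conf n → ℝ) (p : Pair n) :
    HasPD p (fun g => gibbsMean β g f) (fun g => (β / √(n : ℝ)) *
      (gibbsMean β g (fun x => f x * pS p x) - gibbsMean β g f * gibbsMean β g (pS p))) := by
  have hZ : HasPD p (partFn (n := n) β) (fun g => (β / √(n : ℝ)) * numer β (pS p) g) := by
    have := hasPD_numer (n := n) β (fun _ => 1) p
    simp only [one_mul] at this
    intro g
    have h := this g
    simp only [← partFn_eq_numer] at h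
    exact h
  have h := (hasPD_numer β f p).div' hZ (fun g => (partFn_pos β g).ne')
  intro g
  have h' := h g
  simp only [← gibbsMean_eq_div] at h'
  convert h' using 1
  have hz := (partFn_pos β g).ne'
  simp only [gibbsMean_eq_div]
  field_simp

/-! ### The correlation matrix -/

/-- The correlation matrix `Σ_ab = ⟨σ_a σ_b⟩`. -/
noncomputable def sgm (β : ℝ) (g : Pair n → ℝ) : Mat n :=
  Matrix.of fun a b => gibbsMean β g (fun x => spin x a * spin x b)

lemma sgm_apply (β : ℝ) (g : Pair n → ℝ) (a b : Fin n) :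
    sgm β g a b = gibbsMean β g (fun x => spin x a * spin x b) := rfl

lemma sgm_symm (β : ℝ) (g : Pair n → ℝ) (a b : Fin n) : sgm β g a b = sgm β g b a := by
  simp only [sgm_apply, mul_comm]

lemma sgm_diag (β : ℝ) (g : Pair n → ℝ) (a : Fin n) : sgm β g a a = 1 := by
  rw [sgm_apply]
  simp_rw [spin_mul_self]
  exact gibbsMean_const β g 1

lemma abs_sgm_le (β : ℝ) (g : Pair n → ℝ) (a b : Fin n) : |sgm β g a b| ≤ 1 :=
  abs_gibbsMean_le β g fun x => by simp [abs_mul, abs_spin]

lemma gibbsMean_pS (β : ℝ) (g : Pair n → ℝ) (p : Pair n) :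
    gibbsMean β g (pS p) = sgm β g p.1.1 p.1.2 := rfl

lemma tameM_sgm (β : ℝ) : TameM (sgm (n := n) β) := fun a b => tame_gibbsMean β _

/-- Fourth moments. -/
noncomputable def gam (β : ℝ) (p : Pair n) (g : Pair n → ℝ) : Mat n :=
  Matrix.of fun a b => gibbsMean β g (fun x => spin x a * spin x b * pS p x)

/-- The derivative of the correlation matrix. -/
noncomputable def dSgm (β : ℝ) (p : Pair n) (g : Pair n → ℝ) : Mat n :=
  (β / √(n : ℝ)) • (gam β p g - sgm β g p.1.1 p.1.2 • sgm β g)

lemma hasPDM_sgm (β : ℝ) (p : Pair n) : HasPDM p (sgm β) (dSgm β p) := by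
  intro a b
  have := hasPD_gibbsMean (n := n) β (fun x => spin x a * spin x b) p
  intro g
  have h := this g
  simp only [dSgm, gam, Matrix.smul_apply, Matrix.sub_apply, Matrix.of_apply, smul_eq_mul,
    gibbsMean_pS] at h ⊢
  have e : sgm β g p.1.1 p.1.2 * sgm β g a b
      = gibbsMean β g (fun x => spin x a * spin x b) * sgm β g p.1.1 p.1.2 := by
    rw [sgm_apply β g a b]; ring
  rw [e]
  exact h

lemma tameM_gam (β : ℝ) (p : Pair n) : TameM (gam β p) := fun a b => tame_gibbsMean β _

lemma tameM_dSgm (β : ℝ) (p : Pair n) : TameM (dSgm β p) := by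
  refine ((tameM_gam β p).sub ?_).smul _
  intro a b
  simp only [Matrix.smul_apply, smul_eq_mul]
  exact (tameM_sgm β _ _).mul (tameM_sgm β _ _)

end Vale.Agent.Lib.P150
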