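import Vale.Agent.Lib.P150.Recur

open MeasureTheory ProbabilityTheory Real Matrix
open scoped BigOperators Matrix.Norms.L2Operator

set_option linter.unusedSectionVars false

namespace Vale.Agent.Lib.P150

variable {n : ℕ}

lemma sum_spin_sq (x : Conf n) : ∑ i, spin x i ^ 2 = n := by
  have : ∀ i, spin x i ^ 2 = 1 := fun i => by rw [sq, spin_mul_self]
  simp [this]

lemma elen_spin (x : Conf n) : elen (spin x) = √(n : ℝ) := by
  unfold elen; rw [sum_spin_sq]

/-- Quadratic form in a spin configuration. -/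
noncomputable def qf (K : Mat n) (x : Conf n) : ℝ := ∑ i, spin x i * (K *ᵥ spin x) i

lemma abs_qf_le (K : Mat n) (x : Conf n) : |qf K x| ≤ n * ‖K‖ := by
  have := abs_bilin_le K (spin x) (spin x)
  rw [elen_spin] at this
  have e : √(n : ℝ) * √(n : ℝ) = n := Real.mul_self_sqrt (Nat.cast_nonneg n)
  rw [e, mul_comm] at this
  exact this

/-- `qf` in terms of entries. -/
lemma qf_eq (K : Mat n) (x : Conf n) : qf K x = ∑ i, ∑ j, K i j * (spin x j * spin x i) := by
  unfold qf
  refine Finset.sum_congr rfl fun i _ => ?_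
  show spin x i * ∑ j, K i j * spin x j = _
  rw [Finset.mul_sum]
  exact Finset.sum_congr rfl fun j _ => by ring

lemma trace_mul_sgm (β : ℝ) (g : Pair n → ℝ) (K : Mat n) :
    Matrix.trace (K * sgm β g) = gibbsMean β g (qf K) := by
  have e : Matrix.trace (K * sgm β g) = ∑ i, ∑ j, K i j * sgm β g j i := rfl
  rw [e]
  have e2 : gibbsMean β g (qf K) = gibbsMean β g (fun x => ∑ i, ∑ j, K i j * (spin x j * spin x i)) := by
    unfold gibbsMean
    refine Finset.sum_congr rfl fun x _ => ?_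
    rw [qf_eq]
  rw [e2, gibbsMean_sum]
  refine Finset.sum_congr rfl fun i _ => ?_
  rw [gibbsMean_sum]
  refine Finset.sum_congr rfl fun j _ => ?_
  rw [gibbsMean_const_mul, sgm_apply]

lemma abs_trace_mul_sgm (β : ℝ) (g : Pair n → ℝ) (K : Mat n) :
    |Matrix.trace (K * sgm β g)| ≤ n * ‖K‖ := by
  rw [trace_mul_sgm]
  exact abs_gibbsMean_le β g fun x => abs_qf_le K x

/-- The overlap `X = ‖Σ‖_F² / n²`. -/
noncomputable def ovl (β : ℝ) (g : Pair n → ℝ) : ℝ :=
  (∑ a, ∑ b, sgm β g a b ^ 2) / n ^ 2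

lemma ovl_nonneg (β : ℝ) (g : Pair n → ℝ) : 0 ≤ ovl β g :=
  div_nonneg (Finset.sum_nonneg fun _ _ => Finset.sum_nonneg fun _ _ => sq_nonneg _) (sq_nonneg _)

/-- Weight of a configuration: `w(x) = xᵀ Σ x / n²`. -/
noncomputable def wt (β : ℝ) (g : Pair n → ℝ) (x : Conf n) : ℝ :=
  (∑ a, ∑ b, sgm β g a b * (spin x a * spin x b)) / n ^ 2

lemma wt_nonneg (β : ℝ) (g : Pair n → ℝ) (x : Conf n) : 0 ≤ wt β g x := by
  unfold wt
  refine div_nonneg ?_ (sq_nonneg _)
  have e : ∑ a, ∑ b, sgm β g a b * (spin x a * spin x b)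
      = gibbsMean β g (fun y => (∑ a, spin y a * spin x a) ^ 2) := by
    have e1 : ∀ y : Conf n, (∑ a, spin y a * spin x a) ^ 2
        = ∑ a, ∑ b, (spin x a * spin x b) * (spin y a * spin y b) := by
      intro y
      rw [sq, Finset.sum_mul_sum]
      exact Finset.sum_congr rfl fun a _ => Finset.sum_congr rfl fun b _ => by ring
    simp_rw [e1]
    rw [gibbsMean_sum]
    refine Finset.sum_congr rfl fun a _ => ?_
    rw [gibbsMean_sum]
    refine Finset.sum_congr rfl fun b _ => ?_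
    rw [gibbsMean_const_mul, sgm_apply]
    ring
  rw [e]
  exact gibbsMean_nonneg β g fun y => sq_nonneg _

lemma gibbsMean_wt_mul (β : ℝ) (g : Pair n → ℝ) (f : Conf n → ℝ) :
    gibbsMean β g (fun x => wt β g x * f x)
      = (∑ a, ∑ b, sgm β g a b * gibbsMean β g (fun x => spin x a * spin x b * f x)) / n ^ 2 := by
  have e : (fun x => wt β g x * f x)
      = fun x => (1 / (n : ℝ) ^ 2) * ∑ a, ∑ b, sgm β g a b * (spin x a * spin x b * f x) := by
    funext x
    unfold wt
    rw [div_mul_eq_mul_div, Finset.sum_mul, one_div, inv_mul_eq_div]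
    congr 1
    refine Finset.sum_congr rfl fun a _ => ?_
    rw [Finset.sum_mul]
    exact Finset.sum_congr rfl fun b _ => by ring
  rw [e, gibbsMean_const_mul, gibbsMean_sum, one_div, div_eq_inv_mul]
  congr 1
  refine Finset.sum_congr rfl fun a _ => ?_
  rw [gibbsMean_sum]
  refine Finset.sum_congr rfl fun b _ => ?_
  rw [gibbsMean_const_mul]

lemma gibbsMean_wt (β : ℝ) (g : Pair n → ℝ) : gibbsMean β g (wt β g) = ovl β g := by
  have := gibbsMean_wt_mul β g (fun _ => 1)
  simp only [mul_one] at this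
  rw [show wt β g = fun x => wt β g x from rfl, this]
  unfold ovl
  congr 1
  refine Finset.sum_congr rfl fun a _ => Finset.sum_congr rfl fun b _ => ?_
  rw [sgm_apply β g a b]; ring

/-- The exact term: derivative of `Σ` in the recursion. -/
theorem sum_symE_dSgm [NeZero n] (β : ℝ) (g : Pair n → ℝ) (A : Mat n) :
    (1 / (n * √(n : ℝ))) * ∑ p : Pair n, symE (A * dSgm β p g) p
      = β * (Matrix.trace (A * sgm β g) / n - Matrix.trace (A * sgm β g * sgm β g) / n ^ 2) := by
  set S := sgm β g with hS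
  set Y := A * S with hY
  have hSsymm : ∀ a b, S a b = S b a := sgm_symm β g
  have hSdiag : ∀ a, S a a = 1 := sgm_diag β g
  have hn := (nR_pos (n := n)).ne'
  have hs := sqrtn_ne (n := n)
  have hsq : (n : ℝ) = √(n : ℝ) * √(n : ℝ) := (Real.mul_self_sqrt (Nat.cast_nonneg n)).symm
  have hent : ∀ (p : Pair n) (r t : Fin n), (A * dSgm β p g) r t
      = (β / √(n : ℝ)) * ((A * gam β p g) r t - S p.1.1 p.1.2 * Y r t) := by
    intro p r t
    unfold dSgm
    rw [Matrix.mul_smul, Matrix.smul_apply, Matrix.mul_sub, Matrix.sub_apply, Matrix.mul_smul,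
      Matrix.smul_apply, smul_eq_mul, smul_eq_mul]
  have hgam1 : ∀ (p : Pair n), (A * gam β p g) p.1.1 p.1.2 = Y p.1.1 p.1.1 := by
    intro p
    simp only [hY, Matrix.mul_apply, gam, Matrix.of_apply, hS, sgm_apply]
    refine Finset.sum_congr rfl fun m _ => ?_
    congr 2
    funext x
    unfold pS
    calc spin x m * spin x p.1.2 * (spin x p.1.1 * spin x p.1.2)
        = spin x m * spin x p.1.1 * (spin x p.1.2 * spin x p.1.2) := by ring
      _ = _ := by rw [spin_mul_self, mul_one]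
  have hgam2 : ∀ (p : Pair n), (A * gam β p g) p.1.2 p.1.1 = Y p.1.2 p.1.2 := by
    intro p
    simp only [hY, Matrix.mul_apply, gam, Matrix.of_apply, hS, sgm_apply]
    refine Finset.sum_congr rfl fun m _ => ?_
    congr 2
    funext x
    unfold pS
    calc spin x m * spin x p.1.1 * (spin x p.1.1 * spin x p.1.2)
        = spin x m * spin x p.1.2 * (spin x p.1.1 * spin x p.1.1) := by ring
      _ = _ := by rw [spin_mul_self, mul_one]
  let F : Fin n → Fin n → ℝ := fun i j => Y i i - S i j * Y i j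
  have e1 : ∀ p : Pair n, symE (A * dSgm β p g) p
      = (β / √(n : ℝ)) * (F p.1.1 p.1.2 + F p.1.2 p.1.1) := by
    intro p
    unfold symE
    rw [hent, hent, hgam1, hgam2]
    simp only [F]
    rw [hSsymm p.1.2 p.1.1]
    ring
  simp_rw [e1]
  rw [← Finset.mul_sum, ← sum_offdiag]
  have h0 := sum_full F
  have hdiag : ∑ i, F i i = 0 := by
    refine Finset.sum_eq_zero fun i _ => ?_
    simp only [F]
    rw [hSdiag]; ring
  rw [hdiag, add_zero] at h0
  rw [← h0]
  have h1 : ∑ i, ∑ j, F i j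
      = n * Matrix.trace Y - Matrix.trace (Y * S) := by
    have e2 : Matrix.trace (Y * S) = ∑ i, ∑ j, S i j * Y i j := by
      show ∑ i, ∑ j, Y i j * S j i = _
      refine Finset.sum_congr rfl fun i _ => Finset.sum_congr rfl fun j _ => ?_
      rw [hSsymm j i]; ring
    rw [e2]
    simp only [F, Finset.sum_sub_distrib, Finset.sum_const, Finset.card_univ, Fintype.card_fin,
      nsmul_eq_mul]
    congr 1
    simp only [Matrix.trace, Matrix.diag, Finset.mul_sum]
  rw [h1]
  field_simp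
  rw [sq_sqrtn]

/-- Euclidean length of `Σ x` in terms of the overlap. -/
lemma elen_sgm_mulVec [NeZero n] (β : ℝ) (g : Pair n → ℝ) (x : Conf n) :
    elen (sgm β g *ᵥ spin x) ≤ n * √(n : ℝ) * √(ovl β g) := by
  have hn := nR_pos (n := n)
  unfold elen
  refine Real.sqrt_le_iff.2 ⟨by positivity, ?_⟩
  have hS : ∑ a, ∑ b, sgm β g a b ^ 2 = n ^ 2 * ovl β g := by
    unfold ovl; field_simp
  have h1 : ∀ i, (sgm β g *ᵥ spin x) i ^ 2 ≤ (∑ j, sgm β g i j ^ 2) * n := by
    intro i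
    have := Finset.sum_mul_sq_le_sq_mul_sq Finset.univ (fun j => sgm β g i j) (spin x)
    rwa [sum_spin_sq] at this
  calc ∑ i, (sgm β g *ᵥ spin x) i ^ 2 ≤ ∑ i, (∑ j, sgm β g i j ^ 2) * n :=
        Finset.sum_le_sum fun i _ => h1 i
    _ = n ^ 2 * ovl β g * n := by rw [← Finset.sum_mul, hS]
    _ = _ := by
        rw [mul_pow, mul_pow, Real.sq_sqrt (Nat.cast_nonneg n), Real.sq_sqrt (ovl_nonneg β g)]
        ring

/-- Bound for the quadratic form of `A Σ`. -/
lemma abs_qf_mul_sgm_le [NeZero n] (β : ℝ) (g : Pair n → ℝ) (A : Mat n) (x : Conf n) :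
    |qf (A * sgm β g) x| ≤ ‖A‖ * (n ^ 2 * √(ovl β g)) := by
  have h := abs_bilin_le A (spin x) (sgm β g *ᵥ spin x)
  have e : qf (A * sgm β g) x = ∑ i, spin x i * (A *ᵥ (sgm β g *ᵥ spin x)) i := by
    unfold qf
    rw [Matrix.mulVec_mulVec]
  rw [e]
  refine h.trans (mul_le_mul_of_nonneg_left ?_ (norm_nonneg _))
  rw [elen_spin]
  have hs := Real.sqrt_nonneg (n : ℝ)
  have h2 := elen_sgm_mulVec β g x
  calc √(n : ℝ) * elen (sgm β g *ᵥ spin x)
      ≤ √(n : ℝ) * (n * √(n : ℝ) * √(ovl β g)) := mul_le_mul_of_nonneg_left h2 hs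
    _ = (√(n : ℝ) * √(n : ℝ)) * n * √(ovl β g) := by ring
    _ = _ := by rw [Real.mul_self_sqrt (Nat.cast_nonneg n)]; ring

/-- Bound for `tr(A Σ²)`. -/
lemma abs_trace_mul_sgm_sq_le (β : ℝ) (g : Pair n → ℝ) (A : Mat n) :
    |Matrix.trace (A * sgm β g * sgm β g)| ≤ ‖A‖ * (n ^ 2 * ovl β g) := by
  set S := sgm β g with hS
  have e : Matrix.trace (A * S * S) = ∑ i, ∑ m, S i m * (A *ᵥ (S i)) m := by
    rw [← Matrix.trace_mul_comm, ← Matrix.mul_assoc]
    show ∑ i, (S * A * S) i i = _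
    refine Finset.sum_congr rfl fun i _ => ?_
    rw [Matrix.mul_apply]
    simp only [Matrix.mul_apply, Matrix.mulVec, dotProduct, Finset.mul_sum, Finset.sum_mul]
    rw [Finset.sum_comm]
    refine Finset.sum_congr rfl fun m _ => Finset.sum_congr rfl fun j _ => ?_
    rw [hS, sgm_symm β g j i]; ring
  rw [e]
  refine (Finset.abs_sum_le_sum_abs _ _).trans ?_
  have h1 : ∀ i, |∑ m, S i m * (A *ᵥ (S i)) m| ≤ ‖A‖ * ∑ m, S i m ^ 2 := by
    intro i
    have := abs_bilin_le A (S i) (S i)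
    refine this.trans (le_of_eq ?_)
    unfold elen
    rw [Real.mul_self_sqrt (Finset.sum_nonneg fun _ _ => sq_nonneg _)]
  refine (Finset.sum_le_sum fun i _ => h1 i).trans (le_of_eq ?_)
  rw [← Finset.mul_sum]
  congr 1
  unfold ovl
  by_cases hn : (n : ℝ) = 0
  · have : n = 0 := by exact_mod_cast hn
    subst this
    simp
  · field_simp
    rfl

/-- The remainder bound. -/
lemma abs_Rm_le {M : Mat n} (hM : ∀ K : Mat n, |Matrix.trace (K * M)| ≤ n * ‖K‖) (A C : Mat n) :
    |Rm A (C * M)| ≤ 3 * n * (‖A‖ * ‖C‖) := by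
  have hA : ‖Aᵀ‖ = ‖A‖ := by
    have := Matrix.l2_opNorm_conjTranspose A
    simpa [Matrix.conjTranspose_eq_transpose_of_trivial] using this
  have e1 : ∑ i, ∑ j, A i j * (C * M) i j = Matrix.trace (Aᵀ * C * M) := by
    rw [Matrix.mul_assoc]
    show _ = ∑ i, ∑ j, Aᵀ i j * (C * M) j i
    rw [Finset.sum_comm]
    exact Finset.sum_congr rfl fun i _ => Finset.sum_congr rfl fun j _ => rfl
  let D : Mat n := Matrix.diagonal fun i => A i i
  have hD : ‖D‖ ≤ ‖A‖ := by
    rw [Matrix.l2_opNorm_diagonal]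
    exact (pi_norm_le_iff_of_nonneg (norm_nonneg _)).2 fun i => by
      simpa using abs_entry_le A i i
  have e2 : ∑ i, A i i * (C * M) i i = Matrix.trace (D * C * M) := by
    rw [Matrix.mul_assoc]
    show _ = ∑ i, (D * (C * M)) i i
    refine Finset.sum_congr rfl fun i _ => ?_
    simp [D, Matrix.diagonal_mul]
  unfold Rm
  rw [e1, e2]
  have b1 := hM (Aᵀ * C)
  have b2 := hM (D * C)
  have hn : (0 : ℝ) ≤ n := Nat.cast_nonneg n
  have c1 : ‖Aᵀ * C‖ ≤ ‖A‖ * ‖C‖ := by
    rw [← hA]; exact norm_mul_le _ _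
  have c2 : ‖D * C‖ ≤ ‖A‖ * ‖C‖ :=
    (norm_mul_le _ _).trans (mul_le_mul_of_nonneg_right hD (norm_nonneg _))
  have d1 := mul_le_mul_of_nonneg_left c1 hn
  have d2 := mul_le_mul_of_nonneg_left c2 hn
  rw [abs_le] at b1 b2 ⊢
  constructor <;> nlinarith [b1.1, b1.2, b2.1, b2.2]

end Vale.Agent.Lib.P150
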