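import Mathlib

open Matrix NormedSpace
open scoped BigOperators

namespace Vale.Agent.Lib.P150

section SymExp

variable {N : Type*} [Fintype N] [DecidableEq N]

/-- Spectral form of a real symmetric matrix. -/
lemma exists_spectral (S : Matrix N N ℝ) (hS : S.IsHermitian) :
    ∃ (U : Matrix N N ℝ) (l : N → ℝ), IsUnit U ∧ S = U * diagonal l * U⁻¹ ∧ U⁻¹ = Uᵀ := by
  have hmul : (hS.eigenvectorUnitary : Matrix N N ℝ) * star (hS.eigenvectorUnitary : Matrix N N ℝ) = 1 :=
    Unitary.mul_star_self_of_mem hS.eigenvectorUnitary.2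
  have hstar : star (hS.eigenvectorUnitary : Matrix N N ℝ) = (hS.eigenvectorUnitary : Matrix N N ℝ)ᵀ := by
    rw [star_eq_conjTranspose, conjTranspose_eq_transpose_of_trivial]
  have hinv : (hS.eigenvectorUnitary : Matrix N N ℝ)⁻¹ = star (hS.eigenvectorUnitary : Matrix N N ℝ) :=
    Matrix.inv_eq_right_inv hmul
  refine ⟨hS.eigenvectorUnitary, hS.eigenvalues, ?_, ?_, ?_⟩
  · exact IsUnit.of_mul_eq_one _ hmul
  · have := hS.spectral_theorem
    rw [hinv]
    conv_lhs => rw [this]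
    simp [Unitary.conjStarAlgAut_apply]
  · rw [hinv, hstar]

/-- Functional calculus inequality `e^{τ λ} ≥ 1 + τ λ`. -/
theorem quad_exp_ge (S : Matrix N N ℝ) (hS : S.IsHermitian) (τ : ℝ) (v : N → ℝ) :
    v ⬝ᵥ v + τ * (v ⬝ᵥ (S *ᵥ v)) ≤ v ⬝ᵥ (exp (τ • S) *ᵥ v) := by
  obtain ⟨U, l, hU, hS', hinv⟩ := exists_spectral S hS
  set w := Uᵀ *ᵥ v with hw
  have key : ∀ h : N → ℝ, v ⬝ᵥ ((U * diagonal h * U⁻¹) *ᵥ v) = ∑ i, h i * w i ^ 2 := by
    intro h
    rw [hinv, ← mulVec_mulVec, ← mulVec_mulVec, dotProduct_mulVec, ← mulVec_transpose, ← hw]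
    unfold dotProduct
    refine Finset.sum_congr rfl fun i _ => ?_
    rw [mulVec_diagonal]
    ring
  have hone : U * diagonal (fun _ => (1 : ℝ)) * U⁻¹ = 1 := by
    rw [diagonal_one, mul_one]
    exact Matrix.mul_nonsing_inv U ((Matrix.isUnit_iff_isUnit_det U).1 hU)
  have h1 : v ⬝ᵥ v = ∑ i, 1 * w i ^ 2 := by
    have := key (fun _ => 1)
    rw [hone, one_mulVec] at this
    exact this
  have h2 : v ⬝ᵥ (S *ᵥ v) = ∑ i, l i * w i ^ 2 := by
    rw [← key l, ← hS']
  have h3 : exp (τ • S) = U * diagonal (fun i => Real.exp (τ * l i)) * U⁻¹ := by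
    have e : τ • S = U * diagonal (τ • l) * U⁻¹ := by
      rw [hS']
      rw [show diagonal (τ • l) = τ • diagonal l by ext i j; by_cases h : i = j <;> simp [diagonal_apply, h]]
      simp [Matrix.mul_smul, Matrix.smul_mul]
    rw [e, Matrix.exp_conj U _ hU, Matrix.exp_diagonal]
    congr 2
    congr 1
    funext i
    rw [Pi.coe_exp, Real.exp_eq_exp_ℝ]
    simp
  rw [h3, key, h1, h2, Finset.mul_sum, ← Finset.sum_add_distrib]
  refine Finset.sum_le_sum fun i _ => ?_
  have := Real.add_one_le_exp (τ * l i)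
  have h4 : 0 ≤ w i ^ 2 := sq_nonneg _
  nlinarith

/-- If `v ᵥ* A = 0` then `v ᵥ* exp A = v`. -/
lemma vecMul_exp_of_vecMul_eq_zero (A : Matrix N N ℝ) (v : N → ℝ) (h : v ᵥ* A = 0) :
    v ᵥ* exp A = v := by
  open scoped Matrix.Norms.Operator in
  have hs := NormedSpace.exp_series_hasSum_exp' (𝕂 := ℝ) A
  let F : Matrix N N ℝ →+ (N → ℝ) :=
    { toFun := fun M => v ᵥ* M
      map_zero' := by simp
      map_add' := fun M M' => by rw [vecMul_add] }
  have hF : Continuous F := by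
    show Continuous (fun M : Matrix N N ℝ => v ᵥ* M)
    exact continuous_const.matrix_vecMul continuous_id
  have h2 : HasSum (fun k : ℕ => F (((k.factorial : ℝ)⁻¹) • A ^ k)) (F (exp A)) := hs.map F hF
  have h3 : ∀ k : ℕ, F (((k.factorial : ℝ)⁻¹) • A ^ k) = if k = 0 then v else 0 := by
    intro k
    show v ᵥ* (((k.factorial : ℝ)⁻¹) • A ^ k) = _
    cases k with
    | zero => simp
    | succ k =>
      simp only [Nat.succ_ne_zero, if_false]
      rw [vecMul_smul, pow_succ', ← vecMul_vecMul, h, zero_vecMul, smul_zero]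
  simp_rw [h3] at h2
  have h4 : HasSum (fun k : ℕ => if k = 0 then v else 0) v := by
    convert hasSum_ite_eq (0 : ℕ) v using 1
  exact h2.unique h4

end SymExp

end Vale.Agent.Lib.P150
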