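import Vale.Agent.Lib.P150.GibbsBounds
import Vale.Agent.Lib.P150.SymExp

open Matrix Real
open scoped BigOperators

set_option linter.unusedSectionVars false

namespace Vale.Agent.Lib.P150

variable {n : ℕ}

lemma flipAt_flipAt (x : Conf n) (i : Fin n) : flipAt (flipAt x i) i = x := by
  unfold flipAt
  ext j
  by_cases h : j = i
  · subst h; simp
  · simp [Function.update, h]

lemma flipAt_ne (x : Conf n) (i : Fin n) : flipAt x i ≠ x := by
  intro h
  have := congrFun h i
  simp [flipAt] at this

/-- Flipping site `i` as a permutation of the configurations. -/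
def flipEquiv (i : Fin n) : Conf n ≃ Conf n :=
  Function.Involutive.toPerm (fun x => flipAt x i) fun x => flipAt_flipAt x i

lemma sum_flip (i : Fin n) (F : Conf n → ℝ) : ∑ x, F (flipAt x i) = ∑ x, F x :=
  Equiv.sum_comp (flipEquiv i) F

lemma spin_flipAt_self (x : Conf n) (i : Fin n) : spin (flipAt x i) i = - spin x i := by
  unfold spin flipAt
  cases h : x i <;> simp [h]

lemma spin_flipAt_ne (x : Conf n) {i a : Fin n} (h : a ≠ i) : spin (flipAt x i) a = spin x a := by
  unfold spin flipAt
  simp [Function.update, h]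

/-! ### Generator as a matrix -/

variable (β : ℝ) (g : Pair n → ℝ)

lemma generatorMatrix_apply (x y : Conf n) :
    generatorMatrix β g x y = ∑ i, ((gibbs β g x * (if x = y then 1 else 0)
        + gibbs β g (flipAt x i) * (if flipAt x i = y then 1 else 0))
          / (gibbs β g x + gibbs β g (flipAt x i)) - if x = y then 1 else 0) := rfl

/-- Detailed balance. -/
lemma gibbs_mul_generatorMatrix (x y : Conf n) :
    gibbs β g x * generatorMatrix β g x y = gibbs β g y * generatorMatrix β g y x := by
  rw [generatorMatrix_apply, generatorMatrix_apply, Finset.mul_sum, Finset.mul_sum]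
  refine Finset.sum_congr rfl fun i _ => ?_
  by_cases h : x = y
  · subst h; rfl
  · have h' : y ≠ x := fun e => h e.symm
    by_cases h2 : flipAt x i = y
    · subst h2
      have px := gibbs_pos β g x
      have py := gibbs_pos β g (flipAt x i)
      have hne : x ≠ flipAt x i := h
      simp only [h, if_false, flipAt_flipAt, if_true, hne.symm, mul_zero, mul_one, zero_add,
        add_zero, sub_zero]
      rw [add_comm (gibbs β g x)]
      ring
    · have h3 : flipAt y i ≠ x := by
        intro e
        apply h2
        rw [← e, flipAt_flipAt]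
      simp [h, h', h2, h3]

/-- `𝓛` is given by its matrix. -/
lemma generatorMatrix_mulVec (f : Conf n → ℝ) (x : Conf n) :
    (generatorMatrix β g *ᵥ f) x = generator β g f x := by
  simp only [mulVec, dotProduct, generatorMatrix_apply, generator, heatBath, Finset.sum_mul]
  rw [Finset.sum_comm]
  refine Finset.sum_congr rfl fun i _ => ?_
  set a := gibbs β g x
  set b := gibbs β g (flipAt x i)
  have e : ∀ y : Conf n, ((a * (if x = y then 1 else 0) + b * (if flipAt x i = y then 1 else 0)) / (a + b)
      - if x = y then 1 else 0) * f y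
      = (a / (a + b)) * (if x = y then f y else 0) + (b / (a + b)) * (if flipAt x i = y then f y else 0)
        - (if x = y then f y else 0) := by
    intro y
    split_ifs <;> ring
  simp_rw [e]
  rw [Finset.sum_sub_distrib, Finset.sum_add_distrib, ← Finset.mul_sum, ← Finset.mul_sum,
    Finset.sum_ite_eq, Finset.sum_ite_eq]
  simp only [Finset.mem_univ, if_true]
  ring

lemma generator_const (c : ℝ) (x : Conf n) : generator β g (fun _ => c) x = 0 := by
  unfold generator heatBath
  refine Finset.sum_eq_zero fun i _ => ?_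
  have : gibbs β g x + gibbs β g (flipAt x i) ≠ 0 :=
    (add_pos (gibbs_pos β g x) (gibbs_pos β g _)).ne'
  field_simp
  ring

/-- `μ 𝓛 = 0`. -/
lemma gibbs_vecMul_generatorMatrix : (fun x => gibbs β g x) ᵥ* generatorMatrix β g = 0 := by
  ext y
  simp only [vecMul, dotProduct, Pi.zero_apply]
  have e : ∀ x, gibbs β g x * generatorMatrix β g x y = gibbs β g y * (generatorMatrix β g y x * 1) :=
    fun x => by rw [gibbs_mul_generatorMatrix, mul_one]
  simp_rw [e]
  rw [← Finset.mul_sum]
  have := generatorMatrix_mulVec β g (fun _ => 1) y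
  rw [generator_const] at this
  simp only [mulVec, dotProduct] at this
  rw [this, mul_zero]

/-- Stationarity of the Gibbs measure for the heat kernel. -/
lemma gibbs_vecMul_heatKernel (t : ℝ) :
    (fun x => gibbs β g x) ᵥ* heatKernel β g t = fun x => gibbs β g x := by
  unfold heatKernel
  refine vecMul_exp_of_vecMul_eq_zero _ _ ?_
  rw [vecMul_smul, gibbs_vecMul_generatorMatrix, smul_zero]

lemma gibbsMean_heatKernel (t : ℝ) (h : Conf n → ℝ) :
    gibbsMean β g (heatKernel β g t *ᵥ h) = gibbsMean β g h := by
  have := gibbs_vecMul_heatKernel β g t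
  have e : gibbsMean β g (heatKernel β g t *ᵥ h)
      = (fun x => gibbs β g x) ⬝ᵥ (heatKernel β g t *ᵥ h) := rfl
  rw [e, dotProduct_mulVec, this]
  rfl

/-- The Cauchy-Schwarz-free lower bound on the autocorrelation, from `e^{τ λ} ≥ 1 + τ λ`. -/
theorem autocorr_ge (τ : ℝ) (f : Conf n → ℝ) :
    gibbsMean β g (fun x => f x ^ 2) + τ * gibbsMean β g (fun x => f x * generator β g f x)
      ≤ gibbsMean β g (fun x => f x * (heatKernel β g τ *ᵥ f) x) := by
  classical
  set d : Conf n → ℝ := fun x => √(gibbs β g x) with hd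
  have hdpos : ∀ x, 0 < d x := fun x => Real.sqrt_pos.2 (gibbs_pos β g x)
  have hdsq : ∀ x, d x * d x = gibbs β g x := fun x => Real.mul_self_sqrt (gibbs_pos β g x).le
  set D : Matrix (Conf n) (Conf n) ℝ := diagonal d with hD
  set Di : Matrix (Conf n) (Conf n) ℝ := diagonal fun x => (d x)⁻¹ with hDi
  have hDDi : D * Di = 1 := by
    rw [hD, hDi, diagonal_mul_diagonal, ← diagonal_one]
    congr 1
    funext x
    exact mul_inv_cancel₀ (hdpos x).ne'
  have hinv : D⁻¹ = Di := Matrix.inv_eq_right_inv hDDi
  have hU : IsUnit D := IsUnit.of_mul_eq_one _ hDDi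
  set L := generatorMatrix β g with hL
  set S : Matrix (Conf n) (Conf n) ℝ := D * L * D⁻¹ with hS
  have hSe : ∀ x y, S x y = d x * L x y * (d y)⁻¹ := by
    intro x y
    rw [hS, hinv, hD, hDi, mul_diagonal, diagonal_mul]
  have hSsymm : S.IsHermitian := by
    ext x y
    rw [conjTranspose_apply, star_trivial, hSe, hSe]
    have e := gibbs_mul_generatorMatrix β g x y
    rw [← hdsq, ← hdsq] at e
    have hx := (hdpos x).ne'
    have hy := (hdpos y).ne'
    field_simp
    linarith
  have hexp : NormedSpace.exp (τ • S) = D * heatKernel β g τ * D⁻¹ := by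
    have : τ • S = D * (τ • L) * D⁻¹ := by
      rw [hS]; simp [Matrix.mul_smul, Matrix.smul_mul]
    rw [this, Matrix.exp_conj D _ hU]
    rfl
  set v : Conf n → ℝ := fun x => d x * f x with hv
  have h := quad_exp_ge S hSsymm τ v
  rw [hexp] at h
  have e1 : v ⬝ᵥ v = gibbsMean β g (fun x => f x ^ 2) := by
    unfold gibbsMean dotProduct
    refine Finset.sum_congr rfl fun x _ => ?_
    simp only [hv]
    rw [← hdsq x]
    ring
  have e2 : ∀ (A : Matrix (Conf n) (Conf n) ℝ), v ⬝ᵥ ((D * A * D⁻¹) *ᵥ v)
      = gibbsMean β g (fun x => f x * (A *ᵥ f) x) := by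
    intro A
    unfold gibbsMean dotProduct
    refine Finset.sum_congr rfl fun x _ => ?_
    have e3 : ∀ y, (D * A * D⁻¹) x y = d x * A x y * (d y)⁻¹ := by
      intro y
      rw [hinv, hD, hDi, mul_diagonal, diagonal_mul]
    simp only [mulVec, dotProduct, e3, hv]
    rw [← hdsq x, Finset.mul_sum, Finset.mul_sum, Finset.mul_sum]
    refine Finset.sum_congr rfl fun y _ => ?_
    have hy := (hdpos y).ne'
    field_simp
  have e4 : v ⬝ᵥ (S *ᵥ v) = gibbsMean β g (fun x => f x * generator β g f x) := by
    rw [hS, e2]
    simp_rw [hL, generatorMatrix_mulVec]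
  rw [e1, e4, e2] at h
  exact h

end Vale.Agent.Lib.P150
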