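import Vale.Agent.Lib.P150.MatDeriv

open MeasureTheory ProbabilityTheory Real Matrix
open scoped BigOperators

set_option linter.unusedSectionVars false

namespace Vale.Agent.Lib.P150

variable {n : ℕ}

/-- The trace of `x Q` in terms of the disorder. -/
lemma trace_xm_mul (g : Pair n → ℝ) (Q : Mat n) :
    Matrix.trace (xm g * Q)
      = ∑ p : Pair n, (g p / √(n : ℝ)) * (Q p.1.2 p.1.1 + Q p.1.1 p.1.2) := by
  have e : Matrix.trace (xm g * Q) = ∑ i, ∑ j, xm g i j * Q j i := rfl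
  rw [e, sum_xm_mul g (fun i j => Q j i)]

/-- Symmetrised entries at a pair. -/
noncomputable def symE (Q : Mat n) (p : Pair n) : ℝ := Q p.1.2 p.1.1 + Q p.1.1 p.1.2

/-- Integration by parts for a trace. -/
theorem ibp_trace {φ : (Pair n → ℝ) → ℝ} {φ' : Pair n → (Pair n → ℝ) → ℝ}
    {Q : (Pair n → ℝ) → Mat n} {dQ : Pair n → (Pair n → ℝ) → Mat n}
    (hφ : ∀ p, HasPD p φ (φ' p)) (tφ : Tame φ) (tφ' : ∀ p, Tame (φ' p))
    (hQ : ∀ p, HasPDM p Q (dQ p)) (tQ : TameM Q) (tdQ : ∀ p, TameM (dQ p)) :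
    ∫ g, φ g * Matrix.trace (xm g * Q g) ∂(gm (Pair n))
      = ∫ g, (1 / √(n : ℝ)) * ∑ p : Pair n, (φ' p g * symE (Q g) p + φ g * symE (dQ p g) p)
          ∂(gm (Pair n)) := by
  have e1 : ∀ g, φ g * Matrix.trace (xm g * Q g)
      = ∑ p : Pair n, (1 / √(n : ℝ)) * (g p * (φ g * symE (Q g) p)) := by
    intro g
    rw [trace_xm_mul, Finset.mul_sum]
    refine Finset.sum_congr rfl fun p _ => ?_
    unfold symE
    ring
  have tF : ∀ p : Pair n, Tame (fun g => φ g * symE (Q g) p) := fun p =>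
    tφ.mul ((tQ _ _).add (tQ _ _))
  have tF' : ∀ p : Pair n, Tame (fun g => φ' p g * symE (Q g) p + φ g * symE (dQ p g) p) := fun p =>
    ((tφ' p).mul ((tQ _ _).add (tQ _ _))).add (tφ.mul ((tdQ p _ _).add (tdQ p _ _)))
  have hD : ∀ p : Pair n, HasPD p (fun g => φ g * symE (Q g) p)
      (fun g => φ' p g * symE (Q g) p + φ g * symE (dQ p g) p) := fun p =>
    (hφ p).mul ((hQ p _ _).add (hQ p _ _))
  simp_rw [e1]
  rw [integral_finsetSum _ fun p _ => ((Tame.coord p).mul (tF p)).const_mul _ |>.integrable]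
  have e2 : ∀ p : Pair n, ∫ g, (1 / √(n : ℝ)) * (g p * (φ g * symE (Q g) p)) ∂(gm (Pair n))
      = (1 / √(n : ℝ)) * ∫ g, (φ' p g * symE (Q g) p + φ g * symE (dQ p g) p) ∂(gm (Pair n)) := by
    intro p
    rw [integral_const_mul, gauss_ibp (tF p) (tF' p) (hD p)]
  simp_rw [e2]
  rw [← Finset.mul_sum, integral_const_mul, integral_finsetSum _ fun p _ => (tF' p).integrable]

/-- The convolution identity for the derivative of a Chebyshev matrix. -/
theorem sum_symE_wM (k : ℕ) (g : Pair n → ℝ) (M : Mat n) :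
    ∑ p : Pair n, symE (wM p k g * M) p
      = ∑ x ∈ Finset.HasAntidiagonal.antidiagonal k,
          (Matrix.trace (uM x.1 g) * Matrix.trace (uM x.2 g * M) + Rm (uM x.1 g) (uM x.2 g * M)) := by
  have e : ∀ p : Pair n, symE (wM p k g * M) p
      = ∑ x ∈ Finset.HasAntidiagonal.antidiagonal k,
          ((uM x.1 g * Ep p * (uM x.2 g * M)) p.1.2 p.1.1
            + (uM x.1 g * Ep p * (uM x.2 g * M)) p.1.1 p.1.2) := by
    intro p
    unfold symE wM
    rw [Finset.sum_mul, Matrix.sum_apply, Matrix.sum_apply, ← Finset.sum_add_distrib]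
    simp only [Matrix.mul_assoc]
  simp_rw [e]
  rw [Finset.sum_comm]
  exact Finset.sum_congr rfl fun x _ => sum_Ep _ _

/-- The matrix trace identity: general form with a matrix weight `M`. -/
theorem ibp_trace_cheb {φ : (Pair n → ℝ) → ℝ} {φ' : Pair n → (Pair n → ℝ) → ℝ}
    {M : (Pair n → ℝ) → Mat n} {dM : Pair n → (Pair n → ℝ) → Mat n}
    (hφ : ∀ p, HasPD p φ (φ' p)) (tφ : Tame φ) (tφ' : ∀ p, Tame (φ' p))
    (hM : ∀ p, HasPDM p M (dM p)) (tM : TameM M) (tdM : ∀ p, TameM (dM p)) (k : ℕ) :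
    ∫ g, φ g * Matrix.trace (xm g * (uM k g * M g)) ∂(gm (Pair n))
      = ∫ g, (1 / √(n : ℝ)) * ∑ p : Pair n, (φ' p g * symE (uM k g * M g) p
          + φ g * (symE (dU p k g * M g) p + symE (uM k g * dM p g) p)) ∂(gm (Pair n)) := by
  have hQ : ∀ p, HasPDM p (fun g => uM k g * M g) (fun g => dU p k g * M g + uM k g * dM p g) :=
    fun p => (hasPDM_uM p k).mul (hM p)
  have h := ibp_trace hφ tφ tφ' hQ ((tameM_uM k).mul tM)
    (fun p => ((tameM_dU p k).mul tM).add ((tameM_uM k).mul (tdM p)))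
  rw [h]
  refine integral_congr_ae (Filter.Eventually.of_forall fun g => ?_)
  simp only
  congr 1
  refine Finset.sum_congr rfl fun p _ => ?_
  unfold symE
  simp only [Matrix.add_apply]
  ring

end Vale.Agent.Lib.P150
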