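import Vale.Agent.Lib.P150.Gauss

open MeasureTheory ProbabilityTheory Real
open scoped BigOperators NNReal

set_option linter.unusedSectionVars false

namespace Vale.Agent.Lib.P150

variable {ι τ : Type*} [Fintype ι] [Fintype τ] [DecidableEq ι] [DecidableEq τ]

/-- Linear form. -/
noncomputable def lin (L : τ → ι → ℝ) (g : ι → ℝ) (u : τ) : ℝ := ∑ l, L u l * g l

lemma continuous_lin (L : τ → ι → ℝ) : Continuous (lin L) := by
  unfold lin
  fun_prop

/-- ℓ¹ size of a matrix. -/
noncomputable def sz (L : τ → ι → ℝ) : ℝ := ∑ u, ∑ l, |L u l|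

lemma sz_nonneg (L : τ → ι → ℝ) : 0 ≤ sz L :=
  Finset.sum_nonneg fun _ _ => Finset.sum_nonneg fun _ _ => abs_nonneg _

lemma sum_abs_nonneg (g : ι → ℝ) : 0 ≤ ∑ i, |g i| := Finset.sum_nonneg fun _ _ => abs_nonneg _

lemma abs_lin_le (L : τ → ι → ℝ) (g : ι → ℝ) (u : τ) :
    |lin L g u| ≤ sz L * ∑ i, |g i| := by
  unfold lin sz
  calc |∑ l, L u l * g l| ≤ ∑ l, |L u l * g l| := Finset.abs_sum_le_sum_abs _ _
    _ = ∑ l, |L u l| * |g l| := by simp [abs_mul]
    _ ≤ ∑ l, (∑ u', ∑ l', |L u' l'|) * |g l| := by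
        refine Finset.sum_le_sum fun l _ => mul_le_mul_of_nonneg_right ?_ (abs_nonneg _)
        calc |L u l| ≤ ∑ l', |L u l'| :=
              Finset.single_le_sum (f := fun l' => |L u l'|) (fun _ _ => abs_nonneg _) (Finset.mem_univ l)
          _ ≤ ∑ u', ∑ l', |L u' l'| :=
              Finset.single_le_sum (f := fun u' => ∑ l', |L u' l'|)
                (fun _ _ => Finset.sum_nonneg fun _ _ => abs_nonneg _) (Finset.mem_univ u)
    _ = _ := by rw [Finset.mul_sum]

lemma sum_abs_lin_le (L : τ → ι → ℝ) (g : ι → ℝ) :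
    ∑ u, |lin L g u| ≤ sz L * ∑ i, |g i| := by
  unfold lin sz
  calc ∑ u, |∑ l, L u l * g l| ≤ ∑ u, ∑ l, |L u l * g l| :=
        Finset.sum_le_sum fun u _ => Finset.abs_sum_le_sum_abs _ _
    _ = ∑ u, ∑ l, |L u l| * |g l| := by simp [abs_mul]
    _ ≤ ∑ u, ∑ l, |L u l| * ∑ i, |g i| := by
        refine Finset.sum_le_sum fun u _ => Finset.sum_le_sum fun l _ =>
          mul_le_mul_of_nonneg_left ?_ (abs_nonneg _)
        exact Finset.single_le_sum (f := fun i => |g i|) (fun _ _ => abs_nonneg _) (Finset.mem_univ l)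
    _ = _ := by simp only [Finset.sum_mul]

/-- Composition of a tame function with a linear map is tame. -/
lemma Tame.comp_lin {H : (τ → ℝ) → ℝ} (hH : Tame H) (L : τ → ι → ℝ) :
    Tame (fun g => H (lin L g)) := by
  obtain ⟨hc, C, a, hC, ha, hb⟩ := hH
  refine ⟨hc.comp (continuous_lin L), C, a * sz L, hC, mul_nonneg ha (sz_nonneg L), fun g => ?_⟩
  refine (hb _).trans (mul_le_mul_of_nonneg_left (exp_le_exp.2 ?_) hC)
  rw [mul_assoc]
  exact mul_le_mul_of_nonneg_left (sum_abs_lin_le L g) ha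

/-- Coordinate-gradient form of a Frechet derivative. -/
def HasGrad (H : (τ → ℝ) → ℝ) (dH : τ → (τ → ℝ) → ℝ) : Prop :=
  ∀ w, HasFDerivAt H (∑ u, dH u w • (ContinuousLinearMap.proj u : (τ → ℝ) →L[ℝ] ℝ)) w

lemma HasGrad.comp_curve {H : (τ → ℝ) → ℝ} {dH : τ → (τ → ℝ) → ℝ} (hH : HasGrad H dH)
    {c : ℝ → τ → ℝ} {c' : τ → ℝ} {s : ℝ} (hc : ∀ u, HasDerivAt (fun r => c r u) (c' u) s) :
    HasDerivAt (fun r => H (c r)) (∑ u, dH u (c s) * c' u) s := by
  have hc' : HasDerivAt c c' s := hasDerivAt_pi.2 hc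
  have := (hH (c s)).comp_hasDerivAt s hc'
  have e : (∑ u, dH u (c s) • (ContinuousLinearMap.proj u : (τ → ℝ) →L[ℝ] ℝ)) c'
      = ∑ u, dH u (c s) * c' u := by
    simp
  rw [e] at this
  exact this

lemma lin_update (L : τ → ι → ℝ) (g : ι → ℝ) (l : ι) (t : ℝ) (u : τ) :
    HasDerivAt (fun r => lin L (Function.update g l r) u) (L u l) t := by
  unfold lin
  have : (fun r => ∑ k, L u k * Function.update g l r k)
      = fun r => ∑ k, (if k = l then L u l * r else L u k * g k) := by
    funext r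
    refine Finset.sum_congr rfl fun k _ => ?_
    by_cases h : k = l
    · subst h; simp
    · simp [h]
  rw [this]
  have h2 : HasDerivAt (fun r => ∑ k, (if k = l then L u l * r else L u k * g k))
      (∑ k, (if k = l then L u l else 0)) t := by
    refine HasDerivAt.fun_sum fun k _ => ?_
    by_cases h : k = l
    · simp only [h, if_true]
      simpa using (hasDerivAt_id t).const_mul (L u l)
    · simp only [h, if_false]
      exact hasDerivAt_const _ _
  simpa using h2

/-- Integration by parts for a function of a linear image of a Gaussian vector. -/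
theorem ibp_lin {H : (τ → ℝ) → ℝ} {dH : τ → (τ → ℝ) → ℝ} (hH : HasGrad H dH)
    (tH : Tame H) (tdH : ∀ v, Tame (dH v)) (L : τ → ι → ℝ) (l : ι) :
    ∫ g, g l * H (lin L g) ∂(gm ι) = ∑ v, L v l * ∫ g, dH v (lin L g) ∂(gm ι) := by
  have key : HasPD l (fun g => H (lin L g)) (fun g => ∑ v, dH v (lin L g) * L v l) := by
    intro g
    have := hH.comp_curve (c := fun r => lin L (Function.update g l r)) (c' := fun v => L v l)
      (s := g l) (fun v => lin_update L g l (g l) v)
    simpa using this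
  have t1 : Tame (fun g => ∑ v, dH v (lin L g) * L v l) :=
    Tame.sum _ fun v _ => ((tdH v).comp_lin L).mul (Tame.const _)
  rw [gauss_ibp (tH.comp_lin L) t1 key, integral_finsetSum]
  · refine Finset.sum_congr rfl fun v _ => ?_
    rw [integral_mul_const, mul_comm]
  · exact fun v _ => (((tdH v).comp_lin L).mul (Tame.const _)).integrable

lemma Tame.expS {c : ℝ} (hc : 0 ≤ c) : Tame (fun g : ι → ℝ => exp (c * ∑ i, |g i|)) := by
  refine ⟨by fun_prop, 1, c, zero_le_one, hc, fun g => ?_⟩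
  rw [abs_of_pos (exp_pos _), one_mul]

lemma Tame.absCoord (p : ι) : Tame (fun g : ι → ℝ => |g p|) :=
  Tame.mono (by fun_prop) (Tame.coord p) (fun g => by simp)

lemma Tame.S : Tame (fun g : ι → ℝ => ∑ i, |g i|) :=
  Tame.sum _ fun p _ => Tame.absCoord p

/-- The interpolating matrix. -/
noncomputable def lerpM (A B : τ → ι → ℝ) (t : ℝ) : τ → ι → ℝ :=
  fun u l => sin t * A u l + cos t * B u l

/-- Its derivative. -/
noncomputable def lerpM' (A B : τ → ι → ℝ) (t : ℝ) : τ → ι → ℝ :=
  fun u l => cos t * A u l - sin t * B u l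

lemma sz_lerpM_le (A B : τ → ι → ℝ) (t : ℝ) : sz (lerpM A B t) ≤ sz A + sz B := by
  unfold sz lerpM
  rw [← Finset.sum_add_distrib]
  refine Finset.sum_le_sum fun u _ => ?_
  rw [← Finset.sum_add_distrib]
  refine Finset.sum_le_sum fun l _ => ?_
  calc |sin t * A u l + cos t * B u l| ≤ |sin t * A u l| + |cos t * B u l| := abs_add_le _ _
    _ = |sin t| * |A u l| + |cos t| * |B u l| := by rw [abs_mul, abs_mul]
    _ ≤ 1 * |A u l| + 1 * |B u l| :=
      add_le_add (mul_le_mul_of_nonneg_right (abs_sin_le_one t) (abs_nonneg _))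
        (mul_le_mul_of_nonneg_right (abs_cos_le_one t) (abs_nonneg _))
    _ = _ := by ring

lemma sz_lerpM'_le (A B : τ → ι → ℝ) (t : ℝ) : sz (lerpM' A B t) ≤ sz A + sz B := by
  unfold sz lerpM'
  rw [← Finset.sum_add_distrib]
  refine Finset.sum_le_sum fun u _ => ?_
  rw [← Finset.sum_add_distrib]
  refine Finset.sum_le_sum fun l _ => ?_
  calc |cos t * A u l - sin t * B u l| ≤ |cos t * A u l| + |sin t * B u l| := abs_sub _ _
    _ = |cos t| * |A u l| + |sin t| * |B u l| := by rw [abs_mul, abs_mul]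
    _ ≤ 1 * |A u l| + 1 * |B u l| :=
      add_le_add (mul_le_mul_of_nonneg_right (abs_cos_le_one t) (abs_nonneg _))
        (mul_le_mul_of_nonneg_right (abs_sin_le_one t) (abs_nonneg _))
    _ = _ := by ring

lemma lin_lerp_hasDerivAt (A B : τ → ι → ℝ) (g : ι → ℝ) (t : ℝ) (u : τ) :
    HasDerivAt (fun r => lin (lerpM A B r) g u) (lin (lerpM' A B t) g u) t := by
  unfold lin lerpM lerpM'
  refine HasDerivAt.fun_sum fun l _ => ?_
  have h1 := ((hasDerivAt_sin t).mul_const (A u l)).add ((hasDerivAt_cos t).mul_const (B u l))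
  have h2 := h1.mul_const (g l)
  have e : (cos t * A u l + -sin t * B u l) * g l = (cos t * A u l - sin t * B u l) * g l := by ring
  rw [e] at h2
  exact h2

/-- Gaussian interpolation: the derivative along the path `sin t A + cos t B`
for matrices `A`, `B` with orthogonal rows. -/
theorem interp {F : (τ → ℝ) → ℝ} {dF : τ → (τ → ℝ) → ℝ} {ddF : τ → τ → (τ → ℝ) → ℝ}
    (hF : HasGrad F dF) (hdF : ∀ u, HasGrad (dF u) (ddF u))
    (tF : Tame F) (tdF : ∀ u, Tame (dF u)) (tddF : ∀ u v, Tame (ddF u v))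
    (A B : τ → ι → ℝ) (hAB : ∀ u v, ∑ l, A u l * B v l = 0) (t : ℝ) :
    HasDerivAt (fun t => ∫ g, F (lin (lerpM A B t) g) ∂(gm ι))
      (sin t * cos t * ∑ u, ∑ v, ((∑ l, A u l * A v l) - (∑ l, B u l * B v l)) *
        ∫ g, ddF u v (lin (lerpM A B t) g) ∂(gm ι)) t := by
  set Λ : ℝ := sz A + sz B with hΛ
  have hΛ0 : 0 ≤ Λ := add_nonneg (sz_nonneg A) (sz_nonneg B)
  choose C a hC ha hb using fun u => (tdF u).2
  -- the bound
  let bound : (ι → ℝ) → ℝ := fun g =>
    ∑ u, C u * exp (a u * Λ * ∑ i, |g i|) * (Λ * ∑ i, |g i|)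
  have tbound : Tame bound := by
    refine Tame.sum _ fun u _ => ?_
    exact ((Tame.const (C u)).mul (Tame.expS (mul_nonneg (ha u) hΛ0))).mul
      ((Tame.const Λ).mul Tame.S)
  have hS : ∀ g : ι → ℝ, 0 ≤ ∑ i, |g i| := sum_abs_nonneg
  have hbd : ∀ (r : ℝ) (g : ι → ℝ),
      ‖∑ u, dF u (lin (lerpM A B r) g) * lin (lerpM' A B r) g u‖ ≤ bound g := by
    intro r g
    rw [Real.norm_eq_abs]
    refine (Finset.abs_sum_le_sum_abs _ _).trans (Finset.sum_le_sum fun u _ => ?_)
    rw [abs_mul]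
    have h1 : |dF u (lin (lerpM A B r) g)| ≤ C u * exp (a u * Λ * ∑ i, |g i|) := by
      refine (hb u _).trans (mul_le_mul_of_nonneg_left (exp_le_exp.2 ?_) (hC u))
      rw [mul_assoc]
      refine mul_le_mul_of_nonneg_left ?_ (ha u)
      exact (sum_abs_lin_le _ g).trans (mul_le_mul_of_nonneg_right (sz_lerpM_le A B r) (hS g))
    have h2 : |lin (lerpM' A B r) g u| ≤ Λ * ∑ i, |g i| :=
      (abs_lin_le _ g u).trans (mul_le_mul_of_nonneg_right (sz_lerpM'_le A B r) (hS g))
    exact mul_le_mul h1 h2 (abs_nonneg _) (mul_nonneg (hC u) (exp_pos _).le)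
  have hderiv : ∀ (r : ℝ) (g : ι → ℝ), HasDerivAt (fun r => F (lin (lerpM A B r) g))
      (∑ u, dF u (lin (lerpM A B r) g) * lin (lerpM' A B r) g u) r := fun r g =>
    hF.comp_curve (c := fun r => lin (lerpM A B r) g) (fun u => lin_lerp_hasDerivAt A B g r u)
  have tder : Continuous (fun g => ∑ u, dF u (lin (lerpM A B t) g) * lin (lerpM' A B t) g u) := by
    refine continuous_finsetSum _ fun u _ => ?_
    refine (((tdF u).1.comp (continuous_lin _))).mul ?_
    exact (continuous_apply u).comp (continuous_lin _)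
  have main := hasDerivAt_integral_of_dominated_loc_of_deriv_le (μ := gm ι) (𝕜 := ℝ)
    (F := fun r g => F (lin (lerpM A B r) g))
    (F' := fun r g => ∑ u, dF u (lin (lerpM A B r) g) * lin (lerpM' A B r) g u)
    (x₀ := t) (s := Set.univ) (bound := bound) Filter.univ_mem
    (Filter.Eventually.of_forall fun r => ((tF.comp_lin _).1).aestronglyMeasurable)
    ((tF.comp_lin _).integrable) tder.aestronglyMeasurable
    (Filter.Eventually.of_forall fun g r _ => hbd r g) tbound.integrable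
    (Filter.Eventually.of_forall fun g r _ => hderiv r g)
  refine main.2.congr_deriv ?_
  -- compute the integral of the derivative
  set L := lerpM A B t with hL
  have e1 : ∀ g : ι → ℝ, ∑ u, dF u (lin L g) * lin (lerpM' A B t) g u
      = ∑ u, ∑ l, lerpM' A B t u l * (g l * dF u (lin L g)) := by
    intro g
    refine Finset.sum_congr rfl fun u _ => ?_
    unfold lin
    rw [Finset.mul_sum]
    refine Finset.sum_congr rfl fun l _ => ?_
    ring
  have tg : ∀ u l, Tame (fun g : ι → ℝ => g l * dF u (lin L g)) := fun u l =>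
    (Tame.coord l).mul ((tdF u).comp_lin L)
  have e2 : ∫ g, ∑ u, dF u (lin L g) * lin (lerpM' A B t) g u ∂(gm ι)
      = ∑ u, ∑ l, lerpM' A B t u l * ∫ g, g l * dF u (lin L g) ∂(gm ι) := by
    simp_rw [e1]
    rw [integral_finsetSum _ fun u _ => ?_]
    · refine Finset.sum_congr rfl fun u _ => ?_
      rw [integral_finsetSum _ fun l _ => ?_]
      · refine Finset.sum_congr rfl fun l _ => ?_
        rw [integral_const_mul]
      · exact ((tg u l).const_mul _).integrable
    · exact (Tame.sum _ fun l _ => (tg u l).const_mul _).integrable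
  rw [e2]
  simp_rw [fun u l => ibp_lin (hdF u) (tdF u) (fun v => tddF u v) L l]
  rw [Finset.mul_sum]
  refine Finset.sum_congr rfl fun u _ => ?_
  simp_rw [Finset.mul_sum]
  rw [Finset.sum_comm]
  refine Finset.sum_congr rfl fun v _ => ?_
  have e3 : ∀ l, lerpM' A B t u l * L v l
      = sin t * cos t * (A u l * A v l - B u l * B v l)
        + cos t * cos t * (A u l * B v l) - sin t * sin t * (A v l * B u l) := by
    intro l
    simp only [hL, lerpM, lerpM']
    ring
  have e4 : ∑ l, lerpM' A B t u l * L v l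
      = sin t * cos t * ((∑ l, A u l * A v l) - ∑ l, B u l * B v l) := by
    simp_rw [e3]
    rw [Finset.sum_sub_distrib, Finset.sum_add_distrib, ← Finset.mul_sum, ← Finset.mul_sum,
      ← Finset.mul_sum, hAB u v, hAB v u, Finset.sum_sub_distrib]
    ring
  simp_rw [← mul_assoc]
  rw [← Finset.sum_mul, e4]

end Vale.Agent.Lib.P150
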