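import Vale.Agent.Lib.P150.TauVanish

open MeasureTheory ProbabilityTheory Real Matrix Filter Topology
open scoped BigOperators Matrix.Norms.L2Operator

set_option linter.unusedSectionVars false

namespace Vale.Agent.Lib.P150

variable {n : ℕ}

/-- The weighted moments. -/
noncomputable def aK (β δ : ℝ) (n k : ℕ) : ℝ := ∫ g, phiW β δ g * tM (sgm β) k g ∂(gm (Pair n))

/-- The main small term. -/
noncomputable def gTerm (β δ : ℝ) (k : ℕ) (g : Pair n → ℝ) : ℝ :=
  (1 / (n * √(n : ℝ))) * ∑ p : Pair n, dPhiW β δ p g * symE (uM k g * sgm β g) p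
    - β * (phiW β δ g * (Matrix.trace (uM k g * sgm β g * sgm β g) / n ^ 2))

variable [NeZero n]

lemma abs_gTerm_le {β δ : ℝ} (hβ : 0 ≤ β) (hδ : 0 < δ) (k : ℕ) (g : Pair n → ℝ) :
    |gTerm β δ k g| ≤ (4 * β * √δ + β * δ) * oneN g ^ k := by
  have hn := nR_pos (n := n)
  have h1 := abs_Dterm_le hβ hδ g (uM k g)
  have h2 := abs_phi_trace_sq_le (β := β) hδ g (uM k g)
  have h3 := norm_uM_le k g
  have hφ := phiW_pos β δ g
  have h4 : |β * (phiW β δ g * (Matrix.trace (uM k g * sgm β g * sgm β g) / n ^ 2))|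
      ≤ β * (δ * ‖uM k g‖) := by
    rw [abs_mul, abs_of_nonneg hβ, abs_mul, abs_of_pos hφ, abs_div,
      abs_of_pos (by positivity : (0 : ℝ) < (n : ℝ) ^ 2)]
    exact mul_le_mul_of_nonneg_left h2 hβ
  unfold gTerm
  have h5 := abs_sub ((1 / (n * √(n : ℝ))) * ∑ p : Pair n, dPhiW β δ p g * symE (uM k g * sgm β g) p)
    (β * (phiW β δ g * (Matrix.trace (uM k g * sgm β g * sgm β g) / n ^ 2)))
  have hs := Real.sqrt_nonneg δ
  have h6 : 4 * β * √δ * ‖uM k g‖ ≤ 4 * β * √δ * oneN g ^ k :=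
    mul_le_mul_of_nonneg_left h3 (by positivity)
  have h7 : β * (δ * ‖uM k g‖) ≤ β * (δ * oneN g ^ k) :=
    mul_le_mul_of_nonneg_left (mul_le_mul_of_nonneg_left h3 hδ.le) hβ
  have e : (4 * β * √δ + β * δ) * oneN g ^ k = 4 * β * √δ * oneN g ^ k + β * (δ * oneN g ^ k) := by
    ring
  rw [e]
  linarith

omit [NeZero n] in
lemma tame_gTerm {β δ : ℝ} (hδ : 0 < δ) (k : ℕ) : Tame (gTerm (n := n) β δ k) := by
  unfold gTerm
  refine Tame.sub ?_ ?_
  · refine (Tame.sum _ fun p _ => (tame_dPhiW hδ p).mul ?_).const_mul _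
    exact (((tameM_uM k).mul (tameM_sgm β)) _ _).add (((tameM_uM k).mul (tameM_sgm β)) _ _)
  · refine ((tame_phiW hδ).mul ?_).const_mul _
    have := (((((tameM_uM (n := n) k).mul (tameM_sgm β)).mul (tameM_sgm β)).trace)).const_mul (1 / (n : ℝ) ^ 2)
    convert this using 2 with g
    ring

omit [NeZero n] in
lemma tame_phi_tM {β δ : ℝ} (hδ : 0 < δ) (k : ℕ) :
    Tame (fun g : Pair n → ℝ => phiW β δ g * tM (sgm β) k g) :=
  (tame_phiW hδ).mul (tame_tM (tameM_sgm β) k)

lemma step_zero {β δ : ℝ} (hδ : 0 < δ) :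
    aK β δ n 1 - β * aK β δ n 0 = ∫ g, gTerm (n := n) β δ 0 g ∂(gm (Pair n)) := by
  have h := rec_zero (n := n) (φ := phiW β δ) (φ' := dPhiW β δ) (M := sgm β) (dM := dSgm β)
    (hasPD_phiW β δ) (tame_phiW hδ) (tame_dPhiW hδ) (hasPDM_sgm β) (tameM_sgm β) (tameM_dSgm β)
  unfold aK
  rw [h, ← integral_const_mul, ← integral_sub]
  · refine integral_congr_ae (Filter.Eventually.of_forall fun g => ?_)
    simp only
    rw [sum_symE_dSgm]
    unfold gTerm tM
    ring
  · have t1 : Tame (fun g : Pair n → ℝ => (1 / (n * √(n : ℝ))) *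
        ∑ p : Pair n, dPhiW β δ p g * symE (uM 0 g * sgm β g) p) := by
      refine (Tame.sum _ fun p _ => (tame_dPhiW hδ p).mul ?_).const_mul _
      exact (((tameM_uM 0).mul (tameM_sgm β)) _ _).add (((tameM_uM 0).mul (tameM_sgm β)) _ _)
    have t2 : Tame (fun g : Pair n → ℝ => phiW β δ g * ((1 / (n * √(n : ℝ))) *
        ∑ p : Pair n, symE (uM 0 g * dSgm β p g) p)) := by
      refine (tame_phiW hδ).mul ((Tame.sum _ fun p _ => ?_).const_mul _)
      exact (((tameM_uM 0).mul (tameM_dSgm β p)) _ _).add (((tameM_uM 0).mul (tameM_dSgm β p)) _ _)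
    exact (t1.add t2).integrable
  · exact ((tame_phi_tM hδ 0).const_mul β).integrable

/-- The correction terms of the recursion. -/
noncomputable def cTerm (β δ : ℝ) (k : ℕ) (g : Pair n → ℝ) : ℝ :=
  phiW β δ g * (∑ x ∈ Finset.HasAntidiagonal.antidiagonal k, tauT x.1 g * tM (sgm β) x.2 g - tM (sgm β) k g
    + ∑ x ∈ Finset.HasAntidiagonal.antidiagonal k, Rm (uM x.1 g) (uM x.2 g * sgm β g) / (n : ℝ) ^ 2)

omit [NeZero n] in
lemma tame_cTerm {β δ : ℝ} (hδ : 0 < δ) (k : ℕ) : Tame (cTerm (n := n) β δ k) := by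
  unfold cTerm
  refine (tame_phiW hδ).mul (((Tame.sum _ fun x _ => ?_).sub (tame_tM (tameM_sgm β) k)).add
    (Tame.sum _ fun x _ => ?_))
  · exact (tame_tauT x.1).mul (tame_tM (tameM_sgm β) x.2)
  · exact tame_Rm_div (tameM_uM x.1) ((tameM_uM x.2).mul (tameM_sgm β))

lemma step_succ {β δ : ℝ} (hδ : 0 < δ) (k : ℕ) :
    aK β δ n (k + 2) - β * aK β δ n (k + 1)
      = ∫ g, (gTerm (n := n) β δ (k + 1) g + cTerm β δ k g) ∂(gm (Pair n)) := by
  have h := rec_succ (n := n) (φ := phiW β δ) (φ' := dPhiW β δ) (M := sgm β) (dM := dSgm β)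
    (hasPD_phiW β δ) (tame_phiW hδ) (tame_dPhiW hδ) (hasPDM_sgm β) (tameM_sgm β) (tameM_dSgm β) k
  have t0 : Tame (fun g : Pair n → ℝ => phiW β δ g * (tM (sgm β) (k + 2) g + tM (sgm β) k g)) :=
    (tame_phiW hδ).mul ((tame_tM (tameM_sgm β) _).add (tame_tM (tameM_sgm β) _))
  have e0 : aK β δ n (k + 2) = ∫ g, phiW β δ g * (tM (sgm β) (k + 2) g + tM (sgm β) k g) ∂(gm (Pair n))
      - aK β δ n k := by
    unfold aK
    rw [← integral_sub t0.integrable (tame_phi_tM hδ k).integrable]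
    refine integral_congr_ae (Filter.Eventually.of_forall fun g => ?_)
    simp only
    ring
  rw [e0, h]
  unfold aK
  have t1 : Tame (fun g : Pair n → ℝ => (1 / (n * √(n : ℝ))) *
      ∑ p : Pair n, dPhiW β δ p g * symE (uM (k + 1) g * sgm β g) p
      + phiW β δ g * (∑ x ∈ Finset.HasAntidiagonal.antidiagonal k, (tauT x.1 g * tM (sgm β) x.2 g
            + Rm (uM x.1 g) (uM x.2 g * sgm β g) / (n : ℝ) ^ 2)
          + (1 / (n * √(n : ℝ))) * ∑ p : Pair n, symE (uM (k + 1) g * dSgm β p g) p)) := by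
    refine Tame.add ?_ ((tame_phiW hδ).mul (Tame.add (Tame.sum _ fun x _ => ?_) ?_))
    · refine (Tame.sum _ fun p _ => (tame_dPhiW hδ p).mul ?_).const_mul _
      exact (((tameM_uM _).mul (tameM_sgm β)) _ _).add (((tameM_uM _).mul (tameM_sgm β)) _ _)
    · exact ((tame_tauT x.1).mul (tame_tM (tameM_sgm β) x.2)).add
        (tame_Rm_div (tameM_uM x.1) ((tameM_uM x.2).mul (tameM_sgm β)))
    · refine (Tame.sum _ fun p _ => ?_).const_mul _
      exact (((tameM_uM _).mul (tameM_dSgm β p)) _ _).add (((tameM_uM _).mul (tameM_dSgm β p)) _ _)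
  rw [← integral_const_mul, ← integral_sub t1.integrable (tame_phi_tM hδ k).integrable,
    ← integral_sub (t1.sub (tame_phi_tM hδ k)).integrable ((tame_phi_tM hδ (k + 1)).const_mul β).integrable]
  refine integral_congr_ae (Filter.Eventually.of_forall fun g => ?_)
  simp only
  rw [sum_symE_dSgm]
  unfold gTerm cTerm
  rw [Finset.sum_add_distrib]
  simp only [tM]
  ring

/-- Bound for the correction term. -/
lemma abs_cTerm_le {β δ : ℝ} (hδ : 0 < δ) (k : ℕ) (g : Pair n → ℝ) :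
    |cTerm β δ k g| ≤ ∑ x ∈ (Finset.HasAntidiagonal.antidiagonal k).erase (0, k), |tauT x.1 g| * oneN g ^ x.2
      + (3 * (k + 1) / n) * oneN g ^ k := by
  unfold cTerm
  rw [conv_erase (fun b => tM (sgm β) b g) k g, abs_mul, abs_of_pos (phiW_pos β δ g)]
  have h1 : |∑ x ∈ (Finset.HasAntidiagonal.antidiagonal k).erase (0, k), tauT x.1 g * tM (sgm β) x.2 g|
      ≤ ∑ x ∈ (Finset.HasAntidiagonal.antidiagonal k).erase (0, k), |tauT x.1 g| * oneN g ^ x.2 := by
    refine (Finset.abs_sum_le_sum_abs _ _).trans (Finset.sum_le_sum fun x _ => ?_)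
    rw [abs_mul]
    exact mul_le_mul_of_nonneg_left (abs_tM_le (hM_sgm β) x.2 g) (abs_nonneg _)
  have h2 := abs_sum_Rm_le (M := sgm β) (hM_sgm β) k g
  have h3 := abs_add_le (∑ x ∈ (Finset.HasAntidiagonal.antidiagonal k).erase (0, k), tauT x.1 g * tM (sgm β) x.2 g)
    (∑ x ∈ Finset.HasAntidiagonal.antidiagonal k, Rm (uM x.1 g) (uM x.2 g * sgm β g) / (n : ℝ) ^ 2)
  have h4 := phiW_le_one (β := β) hδ g
  have h5 := phiW_pos β δ g
  have h6 := abs_nonneg (∑ x ∈ (Finset.HasAntidiagonal.antidiagonal k).erase (0, k), tauT x.1 g * tM (sgm β) x.2 g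
    + ∑ x ∈ Finset.HasAntidiagonal.antidiagonal k, Rm (uM x.1 g) (uM x.2 g * sgm β g) / (n : ℝ) ^ 2)
  nlinarith

/-- The vanishing part of the step bound. -/
noncomputable def eK (k n : ℕ) : ℝ :=
  match k with
  | 0 => 0
  | k + 1 => ∑ x ∈ (Finset.HasAntidiagonal.antidiagonal k).erase (0, k), Pn x.1 x.2 n
      + (3 * (k + 1) / n) * Cm k

/-- The step bound. -/
theorem abs_step_le {β δ : ℝ} (hβ : 0 ≤ β) (hδ : 0 < δ) (k : ℕ) :
    |aK β δ n (k + 1) - β * aK β δ n k| ≤ (4 * β * √δ + β * δ) * Cm k + eK k n := by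
  have hκ : 0 ≤ 4 * β * √δ + β * δ := by positivity
  have hn := nR_pos (n := n)
  cases k with
  | zero =>
    rw [step_zero hδ]
    refine (abs_integral_le_integral_abs).trans ?_
    have t2 : Tame (fun g : Pair n → ℝ => (4 * β * √δ + β * δ) * oneN g ^ 0) :=
      (tame_oneN_pow 0).const_mul _
    refine (integral_mono (tame_gTerm hδ 0).abs.integrable t2.integrable
      fun g => abs_gTerm_le hβ hδ 0 g).trans ?_
    rw [integral_const_mul]
    have := mul_le_mul_of_nonneg_left (integral_oneN_pow_le (n := n) 0) hκ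
    simp only [eK, add_zero]
    exact this
  | succ k =>
    rw [step_succ hδ]
    refine (abs_integral_le_integral_abs).trans ?_
    have t1 : Tame (fun g : Pair n → ℝ => gTerm β δ (k + 1) g + cTerm β δ k g) :=
      (tame_gTerm hδ _).add (tame_cTerm hδ k)
    have tP : ∀ x : ℕ × ℕ, Tame (fun g : Pair n → ℝ => |tauT x.1 g| * oneN g ^ x.2) :=
      fun x => (tame_tauT x.1).abs.mul (tame_oneN_pow _)
    have t2 : Tame (fun g : Pair n → ℝ => (4 * β * √δ + β * δ) * oneN g ^ (k + 1)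
        + (∑ x ∈ (Finset.HasAntidiagonal.antidiagonal k).erase (0, k), |tauT x.1 g| * oneN g ^ x.2
          + (3 * (k + 1) / n) * oneN g ^ k)) :=
      ((tame_oneN_pow _).const_mul _).add ((Tame.sum _ fun x _ => tP x).add ((tame_oneN_pow _).const_mul _))
    have hpt : ∀ g : Pair n → ℝ, |gTerm β δ (k + 1) g + cTerm β δ k g|
        ≤ (4 * β * √δ + β * δ) * oneN g ^ (k + 1)
        + (∑ x ∈ (Finset.HasAntidiagonal.antidiagonal k).erase (0, k), |tauT x.1 g| * oneN g ^ x.2
          + (3 * (k + 1) / n) * oneN g ^ k) := fun g =>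
      (abs_add_le _ _).trans (add_le_add (abs_gTerm_le hβ hδ (k + 1) g) (abs_cTerm_le hδ k g))
    refine (integral_mono t1.abs.integrable t2.integrable hpt).trans ?_
    rw [integral_add ((tame_oneN_pow _).const_mul _).integrable
      ((Tame.sum _ fun x _ => tP x).add ((tame_oneN_pow _).const_mul _)).integrable,
      integral_add (Tame.sum _ fun x _ => tP x).integrable ((tame_oneN_pow _).const_mul _).integrable,
      integral_const_mul, integral_const_mul, integral_finsetSum _ fun x _ => (tP x).integrable]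
    simp only [eK]
    refine add_le_add (mul_le_mul_of_nonneg_left (integral_oneN_pow_le _) hκ) (add_le_add le_rfl ?_)
    exact mul_le_mul_of_nonneg_left (integral_oneN_pow_le _) (by positivity)

end Vale.Agent.Lib.P150
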