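import Vale.Agent.Lib.P150.XNorm

open MeasureTheory ProbabilityTheory Real Matrix
open scoped BigOperators

set_option linter.unusedSectionVars false

namespace Vale.Agent.Lib.P150

variable {n : ℕ}

/-- The elementary symmetric matrix of a pair. -/
noncomputable def Ep (p : Pair n) : Mat n :=
  Matrix.single p.1.1 p.1.2 1 + Matrix.single p.1.2 p.1.1 1

lemma mul_single_mul (A B : Mat n) (i j r s : Fin n) :
    (A * Matrix.single i j (1 : ℝ) * B) r s = A r i * B j s := by
  rw [Matrix.mul_apply]
  simp only [Matrix.mul_apply, Matrix.single_apply]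
  have : ∀ k, (∑ l, A r l * (if i = l ∧ j = k then (1 : ℝ) else 0)) = if j = k then A r i else 0 := by
    intro k
    by_cases h : j = k
    · simp [h]
    · simp [h]
  simp_rw [this]
  simp

lemma mul_Ep_mul (A B : Mat n) (p : Pair n) (r s : Fin n) :
    (A * Ep p * B) r s = A r p.1.1 * B p.1.2 s + A r p.1.2 * B p.1.1 s := by
  unfold Ep
  rw [mul_add, add_mul, Matrix.add_apply, mul_single_mul, mul_single_mul]

/-- The remainder term. -/
noncomputable def Rm (A B : Mat n) : ℝ :=
  ∑ i, ∑ j, A i j * B i j - 2 * ∑ i, A i i * B i i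

lemma sum_Ep (A B : Mat n) :
    ∑ p : Pair n, ((A * Ep p * B) p.1.2 p.1.1 + (A * Ep p * B) p.1.1 p.1.2)
      = Matrix.trace A * Matrix.trace B + Rm A B := by
  let F : Fin n → Fin n → ℝ := fun i j => A i i * B j j + A i j * B i j
  have e : ∀ p : Pair n, (A * Ep p * B) p.1.2 p.1.1 + (A * Ep p * B) p.1.1 p.1.2
      = F p.1.1 p.1.2 + F p.1.2 p.1.1 := by
    intro p
    simp only [mul_Ep_mul, F]
    ring
  simp_rw [e]
  rw [← sum_offdiag]
  have h := sum_full F
  have h2 : ∑ i, ∑ j, F i j = Matrix.trace A * Matrix.trace B + ∑ i, ∑ j, A i j * B i j := by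
    simp only [F, Finset.sum_add_distrib]
    congr 1
    simp only [Matrix.trace, Matrix.diag]
    rw [Finset.sum_mul_sum]
  have h3 : ∑ i, F i i = 2 * ∑ i, A i i * B i i := by
    simp only [F]
    rw [two_mul, ← Finset.sum_add_distrib]
  unfold Rm
  linarith

lemma trace_mul_Ep_mul (A B : Mat n) (p : Pair n) :
    Matrix.trace (A * Ep p * B) = (B * A) p.1.2 p.1.1 + (B * A) p.1.1 p.1.2 := by
  have h : Matrix.trace (A * Ep p * B)
      = ∑ r, A r p.1.1 * B p.1.2 r + ∑ r, A r p.1.2 * B p.1.1 r := by
    rw [← Finset.sum_add_distrib]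
    exact Finset.sum_congr rfl fun r _ => mul_Ep_mul A B p r r
  rw [h]
  simp only [Matrix.mul_apply]
  congr 1 <;> exact Finset.sum_congr rfl fun r _ => mul_comm _ _

/-! ### Derivatives -/

lemma HasPD.mul {ι : Type*} [Fintype ι] [DecidableEq ι] {p : ι} {F F' G G' : (ι → ℝ) → ℝ}
    (hF : HasPD p F F') (hG : HasPD p G G') :
    HasPD p (fun g => F g * G g) (fun g => F' g * G g + F g * G' g) := by
  intro g
  have := (hF g).mul (hG g)
  simp only [Function.update_eq_self] at this
  exact this

lemma HasPD.add {ι : Type*} [Fintype ι] [DecidableEq ι] {p : ι} {F F' G G' : (ι → ℝ) → ℝ}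
    (hF : HasPD p F F') (hG : HasPD p G G') :
    HasPD p (fun g => F g + G g) (fun g => F' g + G' g) := fun g => (hF g).add (hG g)

lemma HasPD.sub {ι : Type*} [Fintype ι] [DecidableEq ι] {p : ι} {F F' G G' : (ι → ℝ) → ℝ}
    (hF : HasPD p F F') (hG : HasPD p G G') :
    HasPD p (fun g => F g - G g) (fun g => F' g - G' g) := fun g => (hF g).sub (hG g)

lemma HasPD.const {ι : Type*} [Fintype ι] [DecidableEq ι] (p : ι) (c : ℝ) :
    HasPD p (fun _ : ι → ℝ => c) (fun _ => 0) := fun _ => hasDerivAt_const _ _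

lemma HasPD.const_mul {ι : Type*} [Fintype ι] [DecidableEq ι] {p : ι} {F F' : (ι → ℝ) → ℝ}
    (c : ℝ) (hF : HasPD p F F') :
    HasPD p (fun g => c * F g) (fun g => c * F' g) := fun g => (hF g).const_mul c

lemma HasPD.sum {ι κ : Type*} [Fintype ι] [DecidableEq ι] {p : ι} (s : Finset κ)
    {F F' : κ → (ι → ℝ) → ℝ} (hF : ∀ k ∈ s, HasPD p (F k) (F' k)) :
    HasPD p (fun g => ∑ k ∈ s, F k g) (fun g => ∑ k ∈ s, F' k g) := by
  intro g
  exact HasDerivAt.fun_sum fun k hk => hF k hk g

/-- Matrix-valued tame functions. -/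
def TameM (M : (Pair n → ℝ) → Mat n) : Prop := ∀ r s, Tame fun g => M g r s

/-- Entrywise coordinate derivative. -/
def HasPDM (p : Pair n) (M dM : (Pair n → ℝ) → Mat n) : Prop :=
  ∀ r s, HasPD p (fun g => M g r s) (fun g => dM g r s)

lemma TameM.mul {M N : (Pair n → ℝ) → Mat n} (hM : TameM M) (hN : TameM N) :
    TameM (fun g => M g * N g) := by
  intro r s
  simp only [Matrix.mul_apply]
  exact Tame.sum _ fun t _ => (hM r t).mul (hN t s)

lemma TameM.add {M N : (Pair n → ℝ) → Mat n} (hM : TameM M) (hN : TameM N) :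
    TameM (fun g => M g + N g) := by
  intro r s
  simp only [Matrix.add_apply]
  exact (hM r s).add (hN r s)

lemma TameM.sub {M N : (Pair n → ℝ) → Mat n} (hM : TameM M) (hN : TameM N) :
    TameM (fun g => M g - N g) := by
  intro r s
  simp only [Matrix.sub_apply]
  exact (hM r s).sub (hN r s)

lemma TameM.const (A : Mat n) : TameM (fun _ => A) := fun r s => Tame.const (A r s)

lemma TameM.smul {M : (Pair n → ℝ) → Mat n} (c : ℝ) (hM : TameM M) :
    TameM (fun g => c • M g) := by
  intro r s
  simp only [Matrix.smul_apply, smul_eq_mul]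
  exact (hM r s).const_mul c

lemma TameM.sum {κ : Type*} (s : Finset κ) {M : κ → (Pair n → ℝ) → Mat n}
    (hM : ∀ k ∈ s, TameM (M k)) : TameM (fun g => ∑ k ∈ s, M k g) := by
  intro r t
  simp only [Matrix.sum_apply]
  exact Tame.sum _ fun k hk => hM k hk r t

lemma TameM.trace {M : (Pair n → ℝ) → Mat n} (hM : TameM M) :
    Tame (fun g => Matrix.trace (M g)) := by
  simp only [Matrix.trace, Matrix.diag]
  exact Tame.sum _ fun i _ => hM i i

lemma HasPDM.mul {p : Pair n} {M dM N dN : (Pair n → ℝ) → Mat n}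
    (hM : HasPDM p M dM) (hN : HasPDM p N dN) :
    HasPDM p (fun g => M g * N g) (fun g => dM g * N g + M g * dN g) := by
  intro r s
  simp only [Matrix.mul_apply, Matrix.add_apply, ← Finset.sum_add_distrib]
  exact HasPD.sum _ fun t _ => (hM r t).mul (hN t s)

lemma HasPDM.sub {p : Pair n} {M dM N dN : (Pair n → ℝ) → Mat n}
    (hM : HasPDM p M dM) (hN : HasPDM p N dN) :
    HasPDM p (fun g => M g - N g) (fun g => dM g - dN g) := by
  intro r s
  simp only [Matrix.sub_apply]
  exact (hM r s).sub (hN r s)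

lemma HasPDM.const (p : Pair n) (A : Mat n) : HasPDM p (fun _ => A) (fun _ => 0) := by
  intro r s
  simpa using HasPD.const p (A r s)

lemma tameM_xm : TameM (xm (n := n)) := by
  intro r s
  simp only [xm, Matrix.of_apply]
  split_ifs with h h'
  · have := (Tame.coord (⟨(r, s), h⟩ : Pair n)).const_mul (1 / √(n : ℝ))
    simpa [div_eq_inv_mul] using this
  · have := (Tame.coord (⟨(s, r), h'⟩ : Pair n)).const_mul (1 / √(n : ℝ))
    simpa [div_eq_inv_mul] using this
  · exact Tame.const 0

lemma hasPD_coord_div (p q : Pair n) (c : ℝ) :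
    HasPD p (fun g : Pair n → ℝ => g q * c) (fun _ => if q = p then c else 0) := by
  intro g
  by_cases h : q = p
  · subst h
    simp only [Function.update_self, if_true]
    simpa using (hasDerivAt_id (g q)).mul_const c
  · simp only [Function.update_of_ne h, if_neg h]
    exact hasDerivAt_const _ _

lemma hasPDM_xm (p : Pair n) :
    HasPDM p (xm (n := n)) (fun _ => (1 / √(n : ℝ)) • Ep p) := by
  intro r s
  have hp := p.2
  simp only [Matrix.smul_apply, smul_eq_mul, Ep, Matrix.add_apply, Matrix.single_apply]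
  simp only [xm, Matrix.of_apply]
  by_cases h : r < s
  · simp only [h, dif_pos]
    have := hasPD_coord_div p ⟨(r, s), h⟩ (1 / √(n : ℝ))
    have e : (fun g : Pair n → ℝ => g ⟨(r, s), h⟩ / √(n : ℝ))
        = fun g => g ⟨(r, s), h⟩ * (1 / √(n : ℝ)) := by
      funext g; ring
    rw [e]
    refine cast (by
      congr 1
      funext _
      by_cases hq : (⟨(r, s), h⟩ : Pair n) = p
      · subst hq
        simp [not_lt.2 h.le, h.ne']
      · have h1 : ¬ (p.1.1 = r ∧ p.1.2 = s) := by
          rintro ⟨a, b⟩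
          apply hq
          apply Subtype.ext
          simp [← a, ← b]
        have h2 : ¬ (p.1.2 = r ∧ p.1.1 = s) := by
          rintro ⟨a, b⟩
          have : p.1.2 < p.1.1 := by rw [a, b]; exact h
          exact absurd hp (not_lt.2 this.le)
        simp [hq, h1, h2]) this
  · simp only [h, dif_neg, not_false_eq_true]
    by_cases h' : s < r
    · simp only [h', dif_pos]
      have := hasPD_coord_div p ⟨(s, r), h'⟩ (1 / √(n : ℝ))
      have e : (fun g : Pair n → ℝ => g ⟨(s, r), h'⟩ / √(n : ℝ))
          = fun g => g ⟨(s, r), h'⟩ * (1 / √(n : ℝ)) := by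
        funext g; ring
      rw [e]
      refine cast (by
        congr 1
        funext _
        by_cases hq : (⟨(s, r), h'⟩ : Pair n) = p
        · subst hq
          simp [not_lt.2 h'.le, h'.ne']
        · have h1 : ¬ (p.1.2 = r ∧ p.1.1 = s) := by
            rintro ⟨a, b⟩
            apply hq
            apply Subtype.ext
            simp [← a, ← b]
          have h2 : ¬ (p.1.1 = r ∧ p.1.2 = s) := by
            rintro ⟨a, b⟩
            have : p.1.2 < p.1.1 := by rw [a, b]; exact h'
            exact absurd hp (not_lt.2 this.le)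
          simp [hq, h1, h2]) this
    · simp only [h', dif_neg, not_false_eq_true]
      have hrs : r = s := le_antisymm (not_lt.1 h') (not_lt.1 h)
      subst hrs
      have h1 : ¬ (p.1.1 = r ∧ p.1.2 = r) := by
        rintro ⟨a, b⟩
        rw [a, b] at hp
        exact lt_irrefl _ hp
      have h2 : ¬ (p.1.2 = r ∧ p.1.1 = r) := by
        rintro ⟨a, b⟩
        rw [a, b] at hp
        exact lt_irrefl _ hp
      simp only [h1, h2, if_false, add_zero, mul_zero]
      exact HasPD.const p 0

/-! ### Derivatives of Chebyshev matrices -/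

/-- `U_k` as a function of the disorder. -/
noncomputable def uM (k : ℕ) (g : Pair n → ℝ) : Mat n := cheb (xm g) k

@[simp] lemma uM_zero (g : Pair n → ℝ) : uM 0 g = 1 := rfl
@[simp] lemma uM_one (g : Pair n → ℝ) : uM 1 g = xm g := rfl
lemma uM_succ_succ (k : ℕ) (g : Pair n → ℝ) : uM (k + 2) g = xm g * uM (k + 1) g - uM k g := rfl

lemma tameM_uM (k : ℕ) : TameM (uM (n := n) k) := by
  induction k using Nat.twoStepInduction with
  | zero => exact TameM.const 1
  | one => exact tameM_xm
  | more k h1 h2 => exact (tameM_xm.mul h2).sub h1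

/-- The convolution appearing in the derivative of `U_{k+1}`. -/
noncomputable def wM (p : Pair n) (k : ℕ) (g : Pair n → ℝ) : Mat n :=
  ∑ x ∈ Finset.HasAntidiagonal.antidiagonal k, uM x.1 g * Ep p * uM x.2 g

lemma tameM_wM (p : Pair n) (k : ℕ) : TameM (wM p k) :=
  TameM.sum _ fun x _ => ((tameM_uM x.1).mul (TameM.const (Ep p))).mul (tameM_uM x.2)

lemma wM_succ_succ (p : Pair n) (k : ℕ) (g : Pair n → ℝ) :
    wM p (k + 2) g = Ep p * uM (k + 2) g + xm g * wM p (k + 1) g - wM p k g := by
  unfold wM
  rw [Finset.Nat.sum_antidiagonal_succ, Finset.Nat.sum_antidiagonal_succ,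
    Finset.Nat.sum_antidiagonal_succ (n := k), mul_add, Matrix.mul_sum]
  simp only [zero_add, uM_zero, uM_one, one_mul, uM_succ_succ, sub_mul, Matrix.mul_assoc,
    Finset.sum_sub_distrib]
  abel

/-- The derivative of `U_k`. -/
noncomputable def dU (p : Pair n) : ℕ → (Pair n → ℝ) → Mat n
  | 0 => fun _ => 0
  | k + 1 => fun g => (1 / √(n : ℝ)) • wM p k g

lemma tameM_dU (p : Pair n) (k : ℕ) : TameM (dU p k) := by
  cases k with
  | zero => exact TameM.const 0
  | succ k => exact (tameM_wM p k).smul _

/-- The derivative formula for Chebyshev matrices. -/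
theorem hasPDM_uM (p : Pair n) (k : ℕ) : HasPDM p (uM k) (dU p k) := by
  induction k using Nat.twoStepInduction with
  | zero => exact HasPDM.const p 1
  | one =>
    have e : dU p 1 = fun _ => (1 / √(n : ℝ)) • Ep p := by
      funext g; simp [dU, wM]
    rw [e]
    exact hasPDM_xm p
  | more k h1 h2 =>
    have h3 := ((hasPDM_xm p).mul h2).sub h1
    have e1 : uM (k + 2) = fun g : Pair n → ℝ => xm g * uM (k + 1) g - uM k g := rfl
    have e2 : dU p (k + 2) = fun g => (1 / √(n : ℝ)) • Ep p * uM (k + 1) g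
        + xm g * dU p (k + 1) g - dU p k g := by
      funext g
      cases k with
      | zero =>
        simp only [dU]
        have : wM p 1 g = Ep p * uM 1 g + xm g * wM p 0 g := by
          unfold wM
          rw [Finset.Nat.sum_antidiagonal_succ]
          simp
        rw [this]
        simp only [zero_add, uM_one, Matrix.mul_smul, Matrix.smul_mul, smul_add, sub_zero]
      | succ k =>
        simp only [dU]
        rw [wM_succ_succ]
        simp only [Matrix.mul_smul, Matrix.smul_mul, smul_add, smul_sub]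
    rw [e1, e2]
    exact h3

end Vale.Agent.Lib.P150
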