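import Vale.Agent.Lib.P150.Pairs

open MeasureTheory ProbabilityTheory Real Matrix
open scoped BigOperators Matrix.Norms.L2Operator

set_option linter.unusedSectionVars false

namespace Vale.Agent.Lib.P150

variable {n : ℕ}

/-- Real square matrices. -/
abbrev Mat (n : ℕ) := Matrix (Fin n) (Fin n) ℝ

/-- Euclidean length of a plain vector. -/
noncomputable def elen (v : Fin n → ℝ) : ℝ := √(∑ i, v i ^ 2)

lemma elen_nonneg (v : Fin n → ℝ) : 0 ≤ elen v := Real.sqrt_nonneg _

lemma norm_toLp (v : Fin n → ℝ) : ‖WithLp.toLp 2 v‖ = elen v := by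
  rw [EuclideanSpace.norm_eq]
  simp [elen]

lemma elen_mulVec_le (A : Mat n) (w : Fin n → ℝ) : elen (A *ᵥ w) ≤ ‖A‖ * elen w := by
  have := Matrix.l2_opNorm_mulVec A (WithLp.toLp 2 w)
  rw [norm_toLp] at this
  have e : (EuclideanSpace.equiv (Fin n) ℝ).symm (A *ᵥ (WithLp.toLp 2 w).ofLp) = WithLp.toLp 2 (A *ᵥ w) := rfl
  rw [e, norm_toLp] at this
  exact this

lemma abs_dot_le (v w : Fin n → ℝ) : |∑ i, v i * w i| ≤ elen v * elen w := by
  have h := Finset.sum_mul_sq_le_sq_mul_sq Finset.univ v w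
  unfold elen
  rw [← Real.sqrt_mul (Finset.sum_nonneg fun _ _ => sq_nonneg _)]
  exact Real.abs_le_sqrt h

lemma abs_bilin_le (A : Mat n) (v w : Fin n → ℝ) :
    |∑ i, v i * (A *ᵥ w) i| ≤ ‖A‖ * (elen v * elen w) := by
  refine (abs_dot_le v _).trans ?_
  have := mul_le_mul_of_nonneg_left (elen_mulVec_le A w) (elen_nonneg v)
  calc elen v * elen (A *ᵥ w) ≤ elen v * (‖A‖ * elen w) := this
    _ = _ := by ring

lemma norm_le_of_elen {A : Mat n} {M : ℝ} (hM : 0 ≤ M) (h : ∀ w, elen (A *ᵥ w) ≤ M * elen w) :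
    ‖A‖ ≤ M := by
  rw [Matrix.cstar_norm_def]
  refine ContinuousLinearMap.opNorm_le_bound _ hM fun x => ?_
  have := h x.ofLp
  rw [← norm_toLp, ← norm_toLp] at this
  have e : (toEuclideanCLM (n := Fin n) (𝕜 := ℝ) A) x = WithLp.toLp 2 (A *ᵥ x.ofLp) := rfl
  rw [e]
  simpa using this

lemma elen_single (i : Fin n) : elen (Pi.single i (1 : ℝ)) = 1 := by
  unfold elen
  have : ∀ j, (Pi.single i (1 : ℝ) : Fin n → ℝ) j ^ 2 = if j = i then 1 else 0 := by
    intro j
    by_cases h : j = i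
    · subst h; simp
    · simp [Pi.single_apply, h]
  simp [this]

lemma abs_entry_le (A : Mat n) (i j : Fin n) : |A i j| ≤ ‖A‖ := by
  have := abs_bilin_le A (Pi.single i 1) (Pi.single j 1)
  rw [elen_single, elen_single] at this
  have e : ∑ k, (Pi.single i (1 : ℝ) : Fin n → ℝ) k * (A *ᵥ (Pi.single j 1)) k = A i j := by
    simp [Pi.single_apply, Matrix.mulVec_single_one]
  rw [e] at this
  simpa using this

lemma abs_trace_le (A : Mat n) : |Matrix.trace A| ≤ n * ‖A‖ := by
  unfold Matrix.trace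
  calc |∑ i, Matrix.diag A i| ≤ ∑ i, |A i i| := Finset.abs_sum_le_sum_abs _ _
    _ ≤ ∑ _i : Fin n, ‖A‖ := Finset.sum_le_sum fun i _ => abs_entry_le A i i
    _ = _ := by simp

lemma elen_le_sum_abs (v : Fin n → ℝ) : elen v ≤ ∑ i, |v i| := by
  unfold elen
  refine Real.sqrt_le_iff.2 ⟨Finset.sum_nonneg fun _ _ => abs_nonneg _, ?_⟩
  have := Finset.sum_sq_le_sq_sum_of_nonneg (s := Finset.univ) (f := fun i => |v i|) (fun _ _ => abs_nonneg _)
  simpa using this

lemma norm_le_sum_abs (A : Mat n) : ‖A‖ ≤ ∑ i, ∑ j, |A i j| := by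
  have h0 : 0 ≤ ∑ i, ∑ j, |A i j| := Finset.sum_nonneg fun _ _ => Finset.sum_nonneg fun _ _ => abs_nonneg _
  refine norm_le_of_elen h0 fun w => ?_
  refine (elen_le_sum_abs _).trans ?_
  rw [Finset.sum_mul]
  refine Finset.sum_le_sum fun i _ => ?_
  have h1 : (A *ᵥ w) i = ∑ j, A i j * w j := rfl
  rw [h1, Finset.sum_mul]
  refine (Finset.abs_sum_le_sum_abs _ _).trans (Finset.sum_le_sum fun j _ => ?_)
  rw [abs_mul]
  refine mul_le_mul_of_nonneg_left ?_ (abs_nonneg _)
  have := abs_dot_le w (Pi.single j 1)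
  rw [elen_single, mul_one] at this
  have e : ∑ k, w k * (Pi.single j (1 : ℝ) : Fin n → ℝ) k = w j := by
    simp [Pi.single_apply]
  rwa [e] at this

/-! ### Chebyshev polynomials -/

/-- Matrix Chebyshev polynomials of the second kind, `U_k(A / 2)`. -/
noncomputable def cheb (A : Mat n) : ℕ → Mat n
  | 0 => 1
  | 1 => A
  | k + 2 => A * cheb A (k + 1) - cheb A k

/-- Scalar Chebyshev polynomials of the second kind, `U_k(y / 2)`. -/
noncomputable def chebS (y : ℝ) : ℕ → ℝ
  | 0 => 1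
  | 1 => y
  | k + 2 => y * chebS y (k + 1) - chebS y k

lemma cheb_diag (v : Fin n → ℝ) (k : ℕ) :
    cheb (Matrix.diagonal v) k = Matrix.diagonal fun i => chebS (v i) k := by
  induction k using Nat.twoStepInduction with
  | zero => simp [cheb, chebS]
  | one => simp [cheb, chebS]
  | more k h1 h2 =>
    simp only [cheb, chebS]
    rw [h1, h2, Matrix.diagonal_mul_diagonal, Matrix.diagonal_sub]

/-- Operator norm of a Chebyshev polynomial of a symmetric matrix. -/
theorem norm_cheb_le_of_eigs {A : Mat n} (hA : A.IsHermitian) (k : ℕ) {M : ℝ} (hM : 0 ≤ M)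
    (h : ∀ i, |chebS (hA.eigenvalues i) k| ≤ M) : ‖cheb A k‖ ≤ M := by
  set U := hA.eigenvectorUnitary with hU
  let φ := Unitary.conjStarAlgAut ℝ (Mat n) U
  have hφ : ∀ j, cheb A j = φ (cheb (Matrix.diagonal hA.eigenvalues) j) := by
    have h0 : A = φ (Matrix.diagonal hA.eigenvalues) := by
      have := hA.spectral_theorem
      simp only [φ, Unitary.conjStarAlgAut_apply]
      simpa using this
    intro j
    induction j using Nat.twoStepInduction with
    | zero => simp [cheb]
    | one => simpa [cheb] using h0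
    | more j h1 h2 =>
      simp only [cheb]
      rw [map_sub, map_mul, ← h1, ← h2, ← h0]
  rw [hφ, cheb_diag]
  have e : ∀ M' : Mat n, ‖φ M'‖ = ‖M'‖ := by
    intro M'
    simp only [φ, Unitary.conjStarAlgAut_apply]
    have h5 := CStarRing.norm_mul_coe_unitary M' (star (U : unitary (Mat n)))
    rw [mul_assoc, CStarRing.norm_coe_unitary_mul]
    simpa using h5
  rw [e, Matrix.l2_opNorm_diagonal]
  refine (pi_norm_le_iff_of_nonneg hM).2 fun i => ?_
  simpa using h i

/-- Eigenvalues lie within the norm of the quadratic form on unit vectors. -/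
lemma abs_eig_le {A : Mat n} (hA : A.IsHermitian) (i : Fin n) {Q : ℝ}
    (hQ : ∀ v : Fin n → ℝ, elen v = 1 → |∑ k, v k * (A *ᵥ v) k| ≤ Q) :
    |hA.eigenvalues i| ≤ Q := by
  let v : Fin n → ℝ := ⇑(hA.eigenvectorBasis i)
  have hv : elen v = 1 := by
    rw [← norm_toLp]
    exact hA.eigenvectorBasis.orthonormal.1 i
  have h1 := hQ v hv
  have h2 : A *ᵥ v = hA.eigenvalues i • v := hA.mulVec_eigenvectorBasis i
  rw [h2] at h1
  have h3 : ∑ k, v k * (hA.eigenvalues i • v) k = hA.eigenvalues i * elen v ^ 2 := by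
    unfold elen
    rw [Real.sq_sqrt (Finset.sum_nonneg fun _ _ => sq_nonneg _), Finset.mul_sum]
    refine Finset.sum_congr rfl fun k _ => ?_
    simp only [Pi.smul_apply, smul_eq_mul]
    ring
  rw [h3, hv] at h1
  simpa using h1

/-- The norm of a symmetric matrix is bounded by its quadratic form on unit vectors. -/
theorem norm_le_of_quad {A : Mat n} (hA : A.IsHermitian) {Q : ℝ} (hQ0 : 0 ≤ Q)
    (hQ : ∀ v : Fin n → ℝ, elen v = 1 → |∑ k, v k * (A *ᵥ v) k| ≤ Q) : ‖A‖ ≤ Q := by
  have := norm_cheb_le_of_eigs hA 1 hQ0 (fun i => by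
    simpa [chebS] using abs_eig_le hA i hQ)
  simpa [cheb] using this

/-- `‖cheb A k‖` bound from a spectral bound for the scalar polynomial. -/
theorem norm_cheb_le {A : Mat n} (hA : A.IsHermitian) (k : ℕ) {M : ℝ} (hM : 0 ≤ M)
    (h : ∀ y, |y| ≤ ‖A‖ → |chebS y k| ≤ M) : ‖cheb A k‖ ≤ M := by
  refine norm_cheb_le_of_eigs hA k hM fun i => h _ ?_
  refine abs_eig_le hA i fun v hv => ?_
  have := abs_bilin_le A v v
  rw [hv] at this
  simpa using this

/-- Crude bound. -/
lemma norm_cheb_le_pow [Nonempty (Fin n)] (A : Mat n) (k : ℕ) : ‖cheb A k‖ ≤ (1 + ‖A‖) ^ k := by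
  induction k using Nat.twoStepInduction with
  | zero => simp [cheb]
  | one => simp [cheb]
  | more k h1 h2 =>
    simp only [cheb]
    have h0 : 0 ≤ ‖A‖ := norm_nonneg _
    calc ‖A * cheb A (k + 1) - cheb A k‖ ≤ ‖A‖ * ‖cheb A (k + 1)‖ + ‖cheb A k‖ :=
          (norm_sub_le _ _).trans (add_le_add (norm_mul_le _ _) le_rfl)
      _ ≤ ‖A‖ * (1 + ‖A‖) ^ (k + 1) + (1 + ‖A‖) ^ k :=
          add_le_add (mul_le_mul_of_nonneg_left h2 h0) h1
      _ ≤ (1 + ‖A‖) ^ (k + 2) := by
          have h3 : (1 : ℝ) ≤ (1 + ‖A‖) ^ (k + 1) := one_le_pow₀ (by linarith)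
          have h4 : (1 + ‖A‖) ^ k ≤ (1 + ‖A‖) ^ (k + 1) :=
            pow_le_pow_right₀ (by linarith) (by omega)
          rw [pow_succ (1 + ‖A‖) (k + 1)]
          nlinarith

/-- The convolution of powers of two complex numbers. -/
noncomputable def chebC (z w : ℂ) : ℕ → ℂ
  | 0 => 1
  | k + 1 => z * chebC z w k + w ^ (k + 1)

lemma chebC_eq {y : ℝ} {z w : ℂ} (hzw : z * w = 1) (hy : z + w = (y : ℂ)) (k : ℕ) :
    ((chebS y k : ℝ) : ℂ) = chebC z w k := by
  induction k using Nat.twoStepInduction with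
  | zero => simp [chebS, chebC]
  | one =>
    simp only [chebS, chebC]
    rw [← hy]; ring
  | more k h1 h2 =>
    simp only [chebS]
    push_cast
    rw [h1, h2, ← hy]
    show (z + w) * chebC z w (k + 1) - chebC z w k = z * chebC z w (k + 1) + w ^ (k + 1 + 1)
    have e : chebC z w (k + 1) = z * chebC z w k + w ^ (k + 1) := rfl
    have e2 : (z + w) * chebC z w (k + 1) - chebC z w k
        = z * chebC z w (k + 1) + (w * chebC z w (k + 1) - chebC z w k) := by ring
    rw [e2]
    congr 1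
    rw [e]
    have : w * (z * chebC z w k + w ^ (k + 1)) = (z * w) * chebC z w k + w ^ (k + 1 + 1) := by ring
    rw [this, hzw]
    ring

lemma norm_chebC_le {z w : ℂ} {r : ℝ} (hr : 1 ≤ r) (hz : ‖z‖ ≤ r) (hw : ‖w‖ ≤ r) (k : ℕ) :
    ‖chebC z w k‖ ≤ (k + 1) * r ^ k := by
  induction k with
  | zero => simp [chebC]
  | succ k ih =>
    simp only [chebC]
    have hr0 : 0 ≤ r := by linarith
    calc ‖z * chebC z w k + w ^ (k + 1)‖ ≤ ‖z‖ * ‖chebC z w k‖ + ‖w‖ ^ (k + 1) := by
          refine (norm_add_le _ _).trans ?_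
          rw [norm_mul, norm_pow]
      _ ≤ r * ((k + 1) * r ^ k) + r ^ (k + 1) :=
          add_le_add (mul_le_mul hz ih (norm_nonneg _) hr0) (pow_le_pow_left₀ (norm_nonneg _) hw _)
      _ = _ := by
          push_cast
          ring

/-- Growth of scalar Chebyshev polynomials: if `|y| ≤ r + 1/r`, then `|U_k(y/2)| ≤ (k+1) r^k`. -/
theorem abs_chebS_le {r y : ℝ} (hr : 1 ≤ r) (hy : |y| ≤ r + 1 / r) (k : ℕ) :
    |chebS y k| ≤ (k + 1) * r ^ k := by
  have hr0 : 0 < r := by linarith
  by_cases hcase : y ^ 2 ≤ 4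
  · -- complex conjugate roots on the unit circle
    set d := √(4 - y ^ 2) with hd
    have hd2 : d ^ 2 = 4 - y ^ 2 := Real.sq_sqrt (by linarith)
    let z : ℂ := ⟨y / 2, d / 2⟩
    let w : ℂ := ⟨y / 2, -d / 2⟩
    have hzw : z * w = 1 := by
      apply Complex.ext
      · simp [z, w]; nlinarith
      · simp [z, w]; ring
    have hsum : z + w = (y : ℂ) := by
      apply Complex.ext
      · simp [z, w]
      · simp [z, w]; ring
    have hz : ‖z‖ ≤ r := by
      have : ‖z‖ = 1 := by
        rw [Complex.norm_def, Complex.normSq_mk, Real.sqrt_eq_one]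
        nlinarith
      rw [this]; exact hr
    have hw : ‖w‖ ≤ r := by
      have : ‖w‖ = 1 := by
        rw [Complex.norm_def, Complex.normSq_mk, Real.sqrt_eq_one]
        nlinarith
      rw [this]; exact hr
    have := norm_chebC_le hr hz hw k
    rw [← chebC_eq hzw hsum, Complex.norm_real, Real.norm_eq_abs] at this
    exact this
  · -- real roots
    have hcase := not_le.1 hcase
    set d := √(y ^ 2 - 4) with hd
    have hd0 : 0 ≤ d := Real.sqrt_nonneg _
    have hd2 : d ^ 2 = y ^ 2 - 4 := Real.sq_sqrt (by linarith)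
    have hr1 : 0 ≤ r - 1 / r := by
      have : 1 / r ≤ 1 := by
        rw [div_le_one hr0]; exact hr
      linarith
    have hdle : d ≤ r - 1 / r := by
      have h1 : y ^ 2 ≤ (r + 1 / r) ^ 2 := by
        rw [← sq_abs y]
        exact pow_le_pow_left₀ (abs_nonneg y) hy 2
      have h2 : (r + 1 / r) ^ 2 - 4 = (r - 1 / r) ^ 2 := by
        field_simp
        ring
      rw [hd]
      refine Real.sqrt_le_iff.2 ⟨hr1, ?_⟩
      linarith
    have habs : |y| + d ≤ 2 * r := by linarith
    let z : ℂ := (((y + d) / 2 : ℝ) : ℂ)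
    let w : ℂ := (((y - d) / 2 : ℝ) : ℂ)
    have hzw : z * w = 1 := by
      simp only [z, w]
      rw [← Complex.ofReal_mul]
      have : (y + d) / 2 * ((y - d) / 2) = 1 := by nlinarith
      rw [this]; simp
    have hsum : z + w = (y : ℂ) := by
      simp only [z, w]
      rw [← Complex.ofReal_add]
      congr 1; ring
    have hz : ‖z‖ ≤ r := by
      simp only [z]
      rw [Complex.norm_real, Real.norm_eq_abs, abs_le]
      have := neg_abs_le y
      have := le_abs_self y
      constructor <;> linarith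
    have hw : ‖w‖ ≤ r := by
      simp only [w]
      rw [Complex.norm_real, Real.norm_eq_abs, abs_le]
      have := neg_abs_le y
      have := le_abs_self y
      constructor <;> linarith
    have := norm_chebC_le hr hz hw k
    rw [← chebC_eq hzw hsum, Complex.norm_real, Real.norm_eq_abs] at this
    exact this

end Vale.Agent.Lib.P150
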