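import Vale.Agent.Lib.P150.Weight

open MeasureTheory ProbabilityTheory Real Matrix
open scoped BigOperators Matrix.Norms.L2Operator

set_option linter.unusedSectionVars false

namespace Vale.Agent.Lib.P150

variable {n : ℕ}

lemma Tame.pow {ι : Type*} [Fintype ι] {F : (ι → ℝ) → ℝ} (hF : Tame F) (m : ℕ) :
    Tame (fun g => F g ^ m) := by
  induction m with
  | zero => simpa using Tame.const 1
  | succ m ih =>
    simp only [pow_succ]
    exact ih.mul hF

lemma Tame.abs {ι : Type*} [Fintype ι] {F : (ι → ℝ) → ℝ} (hF : Tame F) :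
    Tame (fun g => |F g|) :=
  Tame.mono hF.1.abs hF fun g => by simp

/-- The basic polynomial majorant. -/
noncomputable def oneN (g : Pair n → ℝ) : ℝ := 1 + ‖xm g‖

lemma oneN_ge_one (g : Pair n → ℝ) : 1 ≤ oneN g := by
  unfold oneN; linarith [norm_nonneg (xm g)]

lemma oneN_pos (g : Pair n → ℝ) : 0 < oneN g := by linarith [oneN_ge_one g]

variable [NeZero n]

lemma tame_oneN : Tame (oneN (n := n)) := (Tame.const 1).add tame_norm_xm

lemma tame_oneN_pow (m : ℕ) : Tame (fun g : Pair n → ℝ => oneN g ^ m) := tame_oneN.pow m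

/-- The universal moment constants. -/
noncomputable def Cm (m : ℕ) : ℝ := m.factorial * exp 1 * (2 * exp 14)

lemma Cm_nonneg (m : ℕ) : 0 ≤ Cm m := by unfold Cm; positivity

lemma integral_oneN_pow_le (m : ℕ) : ∫ g, oneN g ^ m ∂(gm (Pair n)) ≤ Cm m := by
  have hpt : ∀ g : Pair n → ℝ, oneN g ^ m ≤ (m.factorial * exp 1) * exp ‖xm g‖ := by
    intro g
    have h := Real.pow_div_factorial_le_exp (oneN g) (oneN_pos g).le m
    have hf : (0 : ℝ) < m.factorial := by exact_mod_cast Nat.factorial_pos m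
    rw [div_le_iff₀ hf] at h
    calc oneN g ^ m ≤ exp (oneN g) * m.factorial := h
      _ = _ := by
        unfold oneN
        rw [Real.exp_add]
        ring
  have tE : Tame (fun g : Pair n → ℝ => exp ‖xm g‖) := by
    refine ⟨(tame_norm_xm (n := n)).1.rexp, ?_⟩
    -- use the linear bound on the norm through the sum of coordinates
    have hN : ∀ g : Pair n → ℝ, ‖xm g‖ ≤ (n : ℝ) ^ 2 * ∑ p, |g p| := by
      intro g
      refine (norm_le_sum_abs (xm g)).trans ?_
      have hr := sqrtn_pos (n := n)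
      have hr1 : 1 ≤ √(n : ℝ) := by
        rw [Real.one_le_sqrt]
        exact_mod_cast (NeZero.pos n)
      have hS : 0 ≤ ∑ p, |g p| := Finset.sum_nonneg fun _ _ => abs_nonneg _
      have hent : ∀ i j, |xm g i j| ≤ ∑ p, |g p| := by
        intro i j
        rcases lt_trichotomy i j with h | h | h
        · have : xm g i j = g ⟨(i, j), h⟩ / √(n : ℝ) := xm_pair g ⟨(i, j), h⟩
          rw [this, abs_div, abs_of_pos hr]
          refine (div_le_self (abs_nonneg _) hr1).trans ?_
          exact Finset.single_le_sum (f := fun p => |g p|) (fun _ _ => abs_nonneg _) (Finset.mem_univ _)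
        · subst h; rw [xm_diag]; simpa using hS
        · have : xm g j i = g ⟨(j, i), h⟩ / √(n : ℝ) := xm_pair g ⟨(j, i), h⟩
          rw [xm_symm, this, abs_div, abs_of_pos hr]
          refine (div_le_self (abs_nonneg _) hr1).trans ?_
          exact Finset.single_le_sum (f := fun p => |g p|) (fun _ _ => abs_nonneg _) (Finset.mem_univ _)
      calc ∑ i, ∑ j, |xm g i j| ≤ ∑ _i : Fin n, ∑ _j : Fin n, ∑ p, |g p| :=
            Finset.sum_le_sum fun i _ => Finset.sum_le_sum fun j _ => hent i j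
        _ = _ := by simp; ring
    refine ⟨1, (n : ℝ) ^ 2, zero_le_one, by positivity, fun g => ?_⟩
    rw [abs_of_pos (exp_pos _), one_mul]
    exact exp_le_exp.2 (hN g)
  have := integral_mono (tame_oneN_pow m).integrable (tE.const_mul _).integrable hpt
  refine this.trans ?_
  rw [integral_const_mul]
  unfold Cm
  exact mul_le_mul_of_nonneg_left integral_exp_norm_xm (by positivity)

lemma norm_uM_le (k : ℕ) (g : Pair n → ℝ) : ‖uM k g‖ ≤ oneN g ^ k := by
  have : Nonempty (Fin n) := ⟨⟨0, NeZero.pos n⟩⟩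
  exact norm_cheb_le_pow (xm g) k

lemma abs_tauT_le (k : ℕ) (g : Pair n → ℝ) : |tauT k g| ≤ oneN g ^ k := by
  have hn := nR_pos (n := n)
  unfold tauT
  rw [abs_div, abs_of_pos hn, div_le_iff₀ hn]
  refine (abs_trace_le _).trans ?_
  have := mul_le_mul_of_nonneg_left (norm_uM_le k g) hn.le
  linarith

lemma tauT_zero (g : Pair n → ℝ) : tauT 0 g = 1 := by
  have hn := nR_pos (n := n)
  simp [tauT, Matrix.trace_one, hn.ne']

omit [NeZero n] in
lemma tauT_one (g : Pair n → ℝ) : tauT 1 g = 0 := by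
  simp [tauT, Matrix.trace, xm_diag]

lemma abs_tM_le {M : (Pair n → ℝ) → Mat n}
    (hM : ∀ g (K : Mat n), |Matrix.trace (K * M g)| ≤ n * ‖K‖) (k : ℕ) (g : Pair n → ℝ) :
    |tM M k g| ≤ oneN g ^ k := by
  have hn := nR_pos (n := n)
  unfold tM
  rw [abs_div, abs_of_pos hn, div_le_iff₀ hn]
  refine (hM g _).trans ?_
  have := mul_le_mul_of_nonneg_left (norm_uM_le k g) hn.le
  linarith

lemma hM_one (g : Pair n → ℝ) (K : Mat n) :
    |Matrix.trace (K * (fun _ : Pair n → ℝ => (1 : Mat n)) g)| ≤ n * ‖K‖ := by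
  simpa using abs_trace_le K

lemma hM_sgm (β : ℝ) (g : Pair n → ℝ) (K : Mat n) :
    |Matrix.trace (K * sgm β g)| ≤ n * ‖K‖ := abs_trace_mul_sgm β g K

/-- The remainder sum in the recursion. -/
lemma abs_sum_Rm_le {M : (Pair n → ℝ) → Mat n}
    (hM : ∀ g (K : Mat n), |Matrix.trace (K * M g)| ≤ n * ‖K‖) (k : ℕ) (g : Pair n → ℝ) :
    |∑ x ∈ Finset.HasAntidiagonal.antidiagonal k, Rm (uM x.1 g) (uM x.2 g * M g) / (n : ℝ) ^ 2|
      ≤ (3 * (k + 1) / n) * oneN g ^ k := by
  have hn := nR_pos (n := n)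
  refine (Finset.abs_sum_le_sum_abs _ _).trans ?_
  have h1 : ∀ x ∈ Finset.HasAntidiagonal.antidiagonal k,
      |Rm (uM x.1 g) (uM x.2 g * M g) / (n : ℝ) ^ 2| ≤ (3 / n) * oneN g ^ k := by
    intro x hx
    have hk : x.1 + x.2 = k := Finset.HasAntidiagonal.mem_antidiagonal.1 hx
    rw [abs_div, abs_of_pos (by positivity : (0 : ℝ) < (n : ℝ) ^ 2), div_le_iff₀ (by positivity)]
    refine (abs_Rm_le (hM g) _ _).trans ?_
    have hu := norm_uM_le x.1 g
    have hv := norm_uM_le x.2 g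
    have hmul : ‖uM x.1 g‖ * ‖uM x.2 g‖ ≤ oneN g ^ k := by
      rw [← hk, pow_add]
      exact mul_le_mul hu hv (norm_nonneg _) (pow_nonneg (oneN_pos g).le _)
    calc 3 * (n : ℝ) * (‖uM x.1 g‖ * ‖uM x.2 g‖) ≤ 3 * (n : ℝ) * oneN g ^ k :=
          mul_le_mul_of_nonneg_left hmul (by positivity)
      _ = _ := by field_simp
  refine (Finset.sum_le_sum h1).trans (le_of_eq ?_)
  rw [Finset.sum_const, Finset.Nat.card_antidiagonal, nsmul_eq_mul]
  push_cast
  ring

/-- The convolution, with the leading term removed. -/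
lemma conv_erase (f : ℕ → ℝ) (k : ℕ) (g : Pair n → ℝ) :
    ∑ x ∈ Finset.HasAntidiagonal.antidiagonal k, tauT x.1 g * f x.2 - f k
      = ∑ x ∈ (Finset.HasAntidiagonal.antidiagonal k).erase (0, k), tauT x.1 g * f x.2 := by
  have hmem : ((0 : ℕ), k) ∈ Finset.HasAntidiagonal.antidiagonal k := by simp
  rw [← Finset.add_sum_erase _ _ hmem]
  simp only [tauT_zero, one_mul]
  ring

lemma mem_erase_fst_ne {k : ℕ} {x : ℕ × ℕ}
    (hx : x ∈ (Finset.HasAntidiagonal.antidiagonal k).erase (0, k)) : 1 ≤ x.1 ∧ x.1 ≤ k := by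
  have h1 := Finset.mem_of_mem_erase hx
  have h2 := Finset.ne_of_mem_erase hx
  have h3 : x.1 + x.2 = k := Finset.HasAntidiagonal.mem_antidiagonal.1 h1
  refine ⟨?_, by omega⟩
  by_contra h
  have h0 : x.1 = 0 := by omega
  apply h2
  ext
  · simp [h0]
  · simp; omega

/-- Cauchy-Schwarz for tame functions. -/
lemma sq_integral_mul_le {ι : Type*} [Fintype ι] {F G : (ι → ℝ) → ℝ} (hF : Tame F) (hG : Tame G) :
    (∫ g, F g * G g ∂(gm ι)) ^ 2 ≤ (∫ g, F g ^ 2 ∂(gm ι)) * ∫ g, G g ^ 2 ∂(gm ι) := by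
  set A := ∫ g, F g ^ 2 ∂(gm ι)
  set I := ∫ g, F g * G g ∂(gm ι)
  set B := ∫ g, G g ^ 2 ∂(gm ι)
  have key : ∀ s : ℝ, 0 ≤ A * (s * s) + (-(2 * I)) * s + B := by
    intro s
    have t1 : Tame (fun g => F g ^ 2) := hF.pow 2
    have t2 : Tame (fun g => F g * G g) := hF.mul hG
    have t3 : Tame (fun g => G g ^ 2) := hG.pow 2
    have e : ∀ g, (s * F g - G g) ^ 2
        = (s * s) * F g ^ 2 + (-(2 * s)) * (F g * G g) + G g ^ 2 := fun g => by ring
    have h0 : 0 ≤ ∫ g, (s * F g - G g) ^ 2 ∂(gm ι) := integral_nonneg fun g => sq_nonneg _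
    simp_rw [e] at h0
    rw [integral_add ((t1.const_mul _).add (t2.const_mul _)).integrable t3.integrable,
      integral_add (t1.const_mul _).integrable (t2.const_mul _).integrable,
      integral_const_mul, integral_const_mul] at h0
    have : A * (s * s) + (-(2 * I)) * s + B = (s * s) * A + (-(2 * s)) * I + B := by ring
    rw [this]
    exact h0
  have := discrim_le_zero key
  unfold discrim at this
  nlinarith

end Vale.Agent.Lib.P150
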