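import Vale.Agent.Lib.P150.Defs

open MeasureTheory ProbabilityTheory Real
open scoped BigOperators

set_option linter.unusedSectionVars false

namespace Vale.Agent.Lib.P150

variable {n : ℕ}

/-- A double sum restricted to `i < j` is a sum over pairs. -/
lemma sum_pair (F : Fin n → Fin n → ℝ) :
    ∑ i, ∑ j, (if i < j then F i j else 0) = ∑ p : Pair n, F p.1.1 p.1.2 := by
  rw [← Finset.sum_product' (f := fun i j => if i < j then F i j else 0)]
  rw [Finset.univ_product_univ, ← Finset.sum_filter]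
  exact (Finset.sum_subtype _ (by simp) (fun q : Fin n × Fin n => F q.1 q.2))

lemma sum_pair_swap (F : Fin n → Fin n → ℝ) :
    ∑ i, ∑ j, (if j < i then F i j else 0) = ∑ p : Pair n, F p.1.2 p.1.1 := by
  rw [Finset.sum_comm]
  exact sum_pair (fun i j => F j i)

/-- An off-diagonal sum in terms of pairs. -/
lemma sum_offdiag (F : Fin n → Fin n → ℝ) :
    ∑ i, ∑ j, (if i ≠ j then F i j else 0)
      = ∑ p : Pair n, (F p.1.1 p.1.2 + F p.1.2 p.1.1) := by
  rw [Finset.sum_add_distrib, ← sum_pair, ← sum_pair_swap, ← Finset.sum_add_distrib]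
  refine Finset.sum_congr rfl fun i _ => ?_
  rw [← Finset.sum_add_distrib]
  refine Finset.sum_congr rfl fun j _ => ?_
  rcases lt_trichotomy i j with h | h | h
  · simp [h, h.ne, h.le, not_lt.2 h.le]
  · simp [h]
  · simp [h, h.ne', h.le, not_lt.2 h.le]

/-- Full double sum: off-diagonal plus diagonal. -/
lemma sum_full (F : Fin n → Fin n → ℝ) :
    ∑ i, ∑ j, F i j = ∑ i, ∑ j, (if i ≠ j then F i j else 0) + ∑ i, F i i := by
  rw [← Finset.sum_add_distrib]
  refine Finset.sum_congr rfl fun i _ => ?_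
  rw [Finset.sum_ite, Finset.sum_const_zero, add_zero]
  have : Finset.filter (fun j => ¬ i ≠ j) Finset.univ = {i} := by
    ext j; simp [eq_comm]
  rw [← Finset.sum_filter_add_sum_filter_not Finset.univ (fun j => i ≠ j) (F i), this]
  simp

/-- The symmetric matrix of the disorder normalised by `√n`, with zero diagonal. -/
noncomputable def xm (g : Pair n → ℝ) : Matrix (Fin n) (Fin n) ℝ :=
  Matrix.of fun i j =>
    if h : i < j then g ⟨(i, j), h⟩ / √(n : ℝ)
    else if h' : j < i then g ⟨(j, i), h'⟩ / √(n : ℝ) else 0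

lemma xm_symm (g : Pair n → ℝ) (i j : Fin n) : xm g i j = xm g j i := by
  unfold xm
  simp only [Matrix.of_apply]
  rcases lt_trichotomy i j with h | h | h
  · simp [h, not_lt.2 h.le]
  · subst h; rfl
  · simp [h, not_lt.2 h.le]

lemma xm_diag (g : Pair n → ℝ) (i : Fin n) : xm g i i = 0 := by
  simp [xm]

lemma xm_pair (g : Pair n → ℝ) (p : Pair n) : xm g p.1.1 p.1.2 = g p / √(n : ℝ) := by
  simp [xm, p.2]

lemma xm_pair' (g : Pair n → ℝ) (p : Pair n) : xm g p.1.2 p.1.1 = g p / √(n : ℝ) := by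
  rw [xm_symm, xm_pair]

/-- `∑_{i,j} x_ij F_ij` in terms of pairs. -/
lemma sum_xm_mul (g : Pair n → ℝ) (F : Fin n → Fin n → ℝ) :
    ∑ i, ∑ j, xm g i j * F i j
      = ∑ p : Pair n, (g p / √(n : ℝ)) * (F p.1.1 p.1.2 + F p.1.2 p.1.1) := by
  rw [sum_full, add_comm]
  have h0 : ∑ i, xm g i i * F i i = 0 := by simp [xm_diag]
  rw [h0, zero_add]
  have : ∀ i j, (if i ≠ j then xm g i j * F i j else 0) = if i ≠ j then xm g i j * F i j else 0 :=
    fun _ _ => rfl
  rw [sum_offdiag (fun i j => xm g i j * F i j)]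
  refine Finset.sum_congr rfl fun p _ => ?_
  rw [xm_pair, xm_pair']
  ring

end Vale.Agent.Lib.P150
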