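import Vale.Agent.Lib.P150.Gibbs

open MeasureTheory ProbabilityTheory Real Matrix
open scoped BigOperators Matrix.Norms.L2Operator

set_option linter.unusedSectionVars false

namespace Vale.Agent.Lib.P150

variable {n : ℕ}

/-- Normalised trace of `U_k`. -/
noncomputable def tauT (k : ℕ) (g : Pair n → ℝ) : ℝ := Matrix.trace (uM k g) / n

/-- Normalised trace of `U_k M`. -/
noncomputable def tM (M : (Pair n → ℝ) → Mat n) (k : ℕ) (g : Pair n → ℝ) : ℝ :=
  Matrix.trace (uM k g * M g) / n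

lemma tame_tauT (k : ℕ) : Tame (tauT (n := n) k) := by
  have := ((tameM_uM (n := n) k).trace).const_mul (1 / (n : ℝ))
  convert this using 2 with g
  simp only [tauT]; ring

lemma tame_tM {M : (Pair n → ℝ) → Mat n} (tM' : TameM M) (k : ℕ) : Tame (tM M k) := by
  have := (((tameM_uM (n := n) k).mul tM').trace).const_mul (1 / (n : ℝ))
  convert this using 2 with g
  simp only [tM]; ring

lemma alg1 (n r D C E φ : ℝ) (hr : r ≠ 0) (hn : n = r * r) :
    (1 / n) * ((1 / r) * (D + φ * ((1 / r) * C + E)))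
      = (1 / (n * r)) * D + φ * ((1 / n ^ 2) * C + (1 / (n * r)) * E) := by
  subst hn
  field_simp

lemma alg2 {κ : Type*} (s : Finset κ) (a b c : κ → ℝ) (φ r : ℝ) :
    ∑ p ∈ s, (a p + φ * (r * b p + c p))
      = ∑ p ∈ s, a p + φ * (r * ∑ p ∈ s, b p + ∑ p ∈ s, c p) := by
  simp only [Finset.mul_sum, mul_add, Finset.sum_add_distrib]

variable [NeZero n]

lemma nR_pos : (0 : ℝ) < n := by exact_mod_cast (NeZero.pos n)

lemma sqrtn_ne : √(n : ℝ) ≠ 0 := (sqrtn_pos (n := n)).ne'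

/-- Identity for `k = 0`. -/
theorem rec_zero {φ : (Pair n → ℝ) → ℝ} {φ' : Pair n → (Pair n → ℝ) → ℝ}
    {M : (Pair n → ℝ) → Mat n} {dM : Pair n → (Pair n → ℝ) → Mat n}
    (hφ : ∀ p, HasPD p φ (φ' p)) (tφ : Tame φ) (tφ' : ∀ p, Tame (φ' p))
    (hM : ∀ p, HasPDM p M (dM p)) (tM' : TameM M) (tdM : ∀ p, TameM (dM p)) :
    ∫ g, φ g * tM M 1 g ∂(gm (Pair n))
      = ∫ g, (1 / (n * √(n : ℝ))) * ∑ p : Pair n, φ' p g * symE (uM 0 g * M g) p
        + φ g * ((1 / (n * √(n : ℝ))) * ∑ p : Pair n, symE (uM 0 g * dM p g) p) ∂(gm (Pair n)) := by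
  have h := ibp_trace_cheb hφ tφ tφ' hM tM' tdM 0
  have e : ∀ g, φ g * tM M 1 g = (1 / (n : ℝ)) * (φ g * Matrix.trace (xm g * (uM 0 g * M g))) := by
    intro g
    simp only [tM, uM_one, uM_zero, one_mul]
    ring
  simp_rw [e]
  rw [integral_const_mul, h, ← integral_const_mul]
  refine integral_congr_ae (Filter.Eventually.of_forall fun g => ?_)
  simp only
  have : ∀ p : Pair n, symE (dU p 0 g * M g) p = 0 := by
    intro p; simp [dU, symE]
  simp only [this, zero_add]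
  rw [Finset.sum_add_distrib, ← Finset.mul_sum]
  have hn := (nR_pos (n := n)).ne'
  have hs := sqrtn_ne (n := n)
  field_simp

/-- Identity for `k + 2`. -/
theorem rec_succ {φ : (Pair n → ℝ) → ℝ} {φ' : Pair n → (Pair n → ℝ) → ℝ}
    {M : (Pair n → ℝ) → Mat n} {dM : Pair n → (Pair n → ℝ) → Mat n}
    (hφ : ∀ p, HasPD p φ (φ' p)) (tφ : Tame φ) (tφ' : ∀ p, Tame (φ' p))
    (hM : ∀ p, HasPDM p M (dM p)) (tM' : TameM M) (tdM : ∀ p, TameM (dM p)) (k : ℕ) :
    ∫ g, φ g * (tM M (k + 2) g + tM M k g) ∂(gm (Pair n))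
      = ∫ g, (1 / (n * √(n : ℝ))) * ∑ p : Pair n, φ' p g * symE (uM (k + 1) g * M g) p
        + φ g * (∑ x ∈ Finset.HasAntidiagonal.antidiagonal k, (tauT x.1 g * tM M x.2 g
              + Rm (uM x.1 g) (uM x.2 g * M g) / n ^ 2)
            + (1 / (n * √(n : ℝ))) * ∑ p : Pair n, symE (uM (k + 1) g * dM p g) p) ∂(gm (Pair n)) := by
  have h := ibp_trace_cheb hφ tφ tφ' hM tM' tdM (k + 1)
  have e : ∀ g, φ g * (tM M (k + 2) g + tM M k g)
      = (1 / (n : ℝ)) * (φ g * Matrix.trace (xm g * (uM (k + 1) g * M g))) := by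
    intro g
    simp only [tM, uM_succ_succ, Matrix.sub_mul, Matrix.trace_sub, Matrix.mul_assoc]
    ring
  simp_rw [e]
  rw [integral_const_mul, h, ← integral_const_mul]
  refine integral_congr_ae (Filter.Eventually.of_forall fun g => ?_)
  simp only
  have hn := (nR_pos (n := n)).ne'
  have hs := sqrtn_ne (n := n)
  have hsq : (n : ℝ) = √(n : ℝ) * √(n : ℝ) := (Real.mul_self_sqrt (Nat.cast_nonneg n)).symm
  have e1 : ∀ p : Pair n, symE (dU p (k + 1) g * M g) p
      = (1 / √(n : ℝ)) * symE (wM p k g * M g) p := by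
    intro p
    simp only [dU, symE, Matrix.smul_mul, Matrix.smul_apply, smul_eq_mul]
    ring
  simp only [e1]
  rw [alg2, sum_symE_wM]
  have e3 : ∑ x ∈ Finset.HasAntidiagonal.antidiagonal k, (tauT x.1 g * tM M x.2 g
        + Rm (uM x.1 g) (uM x.2 g * M g) / n ^ 2)
      = (1 / (n : ℝ) ^ 2) * ∑ x ∈ Finset.HasAntidiagonal.antidiagonal k,
        (Matrix.trace (uM x.1 g) * Matrix.trace (uM x.2 g * M g)
          + Rm (uM x.1 g) (uM x.2 g * M g)) := by
    rw [Finset.mul_sum]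
    refine Finset.sum_congr rfl fun x _ => ?_
    simp only [tauT, tM]
    field_simp
  rw [e3]
  exact alg1 _ _ _ _ _ _ hs hsq

end Vale.Agent.Lib.P150
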