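import Vale.Agent.Lib.P150.Main

open MeasureTheory ProbabilityTheory Real Matrix Filter Topology
open scoped BigOperators Matrix.Norms.L2Operator

set_option linter.unusedSectionVars false

namespace Vale.Agent.Lib.P150

variable {n : ℕ}

/-- Coefficient sums. -/
noncomputable def LK (β : ℝ) : ℕ → ℝ
  | 0 => 0
  | K + 1 => β * LK β K + Cm K

/-- The vanishing error sums. -/
noncomputable def FK (β : ℝ) (n : ℕ) : ℕ → ℝ
  | 0 => 0
  | K + 1 => β * FK β n K + eK K n

lemma LK_nonneg {β : ℝ} (hβ : 0 ≤ β) (K : ℕ) : 0 ≤ LK β K := by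
  induction K with
  | zero => simp [LK]
  | succ K ih =>
    simp only [LK]
    exact add_nonneg (mul_nonneg hβ ih) (Cm_nonneg K)

lemma aK_lower {β δ : ℝ} (hβ : 0 ≤ β) (hδ : 0 < δ) [NeZero n] (K : ℕ) :
    β ^ K * aK β δ n 0 - ((4 * β * √δ + β * δ) * LK β K + FK β n K) ≤ aK β δ n K := by
  induction K with
  | zero => simp [LK, FK]
  | succ K ih =>
    have h := abs_step_le (n := n) hβ hδ K
    have h2 := (abs_le.1 h).1
    simp only [LK, FK]
    have h3 := mul_le_mul_of_nonneg_left ih hβ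
    have e : β ^ (K + 1) * aK β δ n 0 - ((4 * β * √δ + β * δ) * (β * LK β K + Cm K) + (β * FK β n K + eK K n))
        = β * (β ^ K * aK β δ n 0 - ((4 * β * √δ + β * δ) * LK β K + FK β n K))
          - ((4 * β * √δ + β * δ) * Cm K + eK K n) := by ring
    rw [e]
    linarith

lemma eK_tendsto (k : ℕ) : Tendsto (fun n => eK k n) atTop (𝓝 0) := by
  cases k with
  | zero => simp [eK]
  | succ k =>
    simp only [eK]
    have hx : ∀ x ∈ (Finset.HasAntidiagonal.antidiagonal k).erase ((0 : ℕ), k),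
        Tendsto (fun n => Pn x.1 x.2 n) atTop (𝓝 0) := fun x hx =>
      Pn_tendsto (Tn_tendsto x.1 (mem_erase_fst_ne hx).1) x.2
    have h1 : Tendsto (fun n => ∑ x ∈ (Finset.HasAntidiagonal.antidiagonal k).erase ((0 : ℕ), k), Pn x.1 x.2 n)
        atTop (𝓝 (∑ x ∈ (Finset.HasAntidiagonal.antidiagonal k).erase ((0 : ℕ), k), (0 : ℝ))) :=
      tendsto_finsetSum _ hx
    rw [Finset.sum_const_zero] at h1
    have h2 : Tendsto (fun n : ℕ => (3 * ((k : ℝ) + 1) / n) * Cm k) atTop (𝓝 0) := by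
      have := (tendsto_const_div_atTop_nhds_zero_nat (3 * ((k : ℝ) + 1))).mul_const (Cm k)
      rw [zero_mul] at this
      exact this
    have := h1.add h2
    rw [add_zero] at this
    exact this

lemma FK_tendsto (β : ℝ) (K : ℕ) : Tendsto (fun n => FK β n K) atTop (𝓝 0) := by
  induction K with
  | zero => simp [FK]
  | succ K ih =>
    simp only [FK]
    have := (ih.const_mul β).add (eK_tendsto K)
    simpa using this

lemma aK_zero {β δ : ℝ} [NeZero n] :
    aK β δ n 0 = ∫ g, phiW β δ g ∂(gm (Pair n)) := by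
  unfold aK
  refine integral_congr_ae (Filter.Eventually.of_forall fun g => ?_)
  simp only [tM, uM_zero, one_mul]
  have hn := nR_pos (n := n)
  have : Matrix.trace (sgm β g) = n := by
    simp [Matrix.trace, sgm_diag]
  rw [this, div_self hn.ne', mul_one]

lemma abs_tM_sgm_le [NeZero n] (β : ℝ) (K : ℕ) (g : Pair n → ℝ) :
    |tM (sgm β) K g| ≤ ‖uM K g‖ := by
  have hn := nR_pos (n := n)
  unfold tM
  rw [abs_div, abs_of_pos hn, div_le_iff₀ hn, mul_comm]
  exact abs_trace_mul_sgm β g _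

/-- Spectral-edge bound on the top Chebyshev matrix. -/
lemma norm_uM_edge [NeZero n] {r : ℝ} (hr : 1 ≤ r) (K : ℕ) {W : (Pair n → ℝ) → ℝ}
    (hW0 : ∀ g, 0 ≤ W g) (hW1 : ∀ g, r + 1 / r < ‖xm g‖ → 1 ≤ W g) (g : Pair n → ℝ) :
    ‖uM K g‖ ≤ (K + 1) * r ^ K + oneN g ^ K * W g := by
  have hr0 : 0 < r := by linarith
  have hω : (0 : ℝ) ≤ (K + 1) * r ^ K := by positivity
  have hO : 0 ≤ oneN g ^ K := pow_nonneg (oneN_pos g).le _
  by_cases hc : r + 1 / r < ‖xm g‖
  · have h1 := norm_uM_le K g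
    have h2 := mul_le_mul_of_nonneg_left (hW1 g hc) hO
    linarith
  · push Not at hc
    have h1 : ‖uM K g‖ ≤ (K + 1) * r ^ K := by
      refine norm_cheb_le (xm_isHermitian g) K hω fun y hy => ?_
      exact abs_chebS_le hr (hy.trans hc) K
    have h2 := mul_nonneg hO (hW0 g)
    linarith

/-- Upper bound on the `K`-th weighted moment. -/
lemma aK_upper {β δ : ℝ} [NeZero n] (hδ : 0 < δ) {r : ℝ} (hr : 1 ≤ r) (K : ℕ)
    {W : (Pair n → ℝ) → ℝ} (tW : Tame W)
    (hW0 : ∀ g, 0 ≤ W g) (hW1 : ∀ g, r + 1 / r < ‖xm g‖ → 1 ≤ W g) :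
    aK β δ n K ≤ (K + 1) * r ^ K * aK β δ n 0 + ∫ g, oneN g ^ K * W g ∂(gm (Pair n)) := by
  have hr0 : 0 < r := by linarith
  have hω : (0 : ℝ) ≤ (K + 1) * r ^ K := by positivity
  have t1 : Tame (fun g : Pair n → ℝ => ((K : ℝ) + 1) * r ^ K * phiW β δ g + oneN g ^ K * W g) :=
    ((tame_phiW hδ).const_mul _).add ((tame_oneN_pow K).mul tW)
  have hpt : ∀ g : Pair n → ℝ, phiW β δ g * tM (sgm β) K g
      ≤ ((K : ℝ) + 1) * r ^ K * phiW β δ g + oneN g ^ K * W g := by
    intro g
    have h1 := le_trans (le_abs_self _) (abs_tM_sgm_le β K g)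
    have h2 := norm_uM_edge hr K hW0 hW1 g
    have hφ := phiW_pos β δ g
    have hφ1 := phiW_le_one (β := β) hδ g
    have h3 := mul_le_mul_of_nonneg_left (h1.trans h2) hφ.le
    have hO : 0 ≤ oneN g ^ K * W g := mul_nonneg (pow_nonneg (oneN_pos g).le _) (hW0 g)
    have h4 : phiW β δ g * (oneN g ^ K * W g) ≤ oneN g ^ K * W g := by nlinarith
    nlinarith
  unfold aK at *
  refine (integral_mono (tame_phi_tM hδ K).integrable t1.integrable hpt).trans ?_
  rw [integral_add ((tame_phiW hδ).const_mul _).integrable ((tame_oneN_pow K).mul tW).integrable,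
    integral_const_mul]
  refine le_of_eq ?_
  congr 2
  refine integral_congr_ae (Filter.Eventually.of_forall fun g => ?_)
  simp only [tM, uM_zero, one_mul]
  have hn := nR_pos (n := n)
  have : Matrix.trace (sgm β g) = n := by
    simp [Matrix.trace, sgm_diag]
  rw [this, div_self hn.ne', mul_one]

lemma exists_K {r β : ℝ} (h1 : 0 < r) (h : r < β) : ∃ K : ℕ, ((K : ℝ) + 1) * r ^ K < β ^ K := by
  have hq : 1 < β / r := (one_lt_div h1).2 h
  have hlim := tendsto_pow_const_div_const_pow_of_one_lt 1 hq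
  have hev := hlim.eventually (gt_mem_nhds (show (0 : ℝ) < 1 / 2 by norm_num))
  obtain ⟨K, hK, hK1⟩ := (hev.and (eventually_ge_atTop 1)).exists
  refine ⟨K, ?_⟩
  have hqpos : 0 < (β / r) ^ K := by positivity
  have hrpos : 0 < r ^ K := by positivity
  rw [pow_one, div_lt_iff₀ hqpos] at hK
  have hK1' : (1 : ℝ) ≤ K := by exact_mod_cast hK1
  have e : β ^ K = (β / r) ^ K * r ^ K := by
    rw [div_pow, div_mul_cancel₀ _ hrpos.ne']
  rw [e]
  refine mul_lt_mul_of_pos_right ?_ hrpos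
  linarith

/-- Markov: the probability of small overlap is controlled by `aK 0`. -/
lemma prob_ovl_le {β δ : ℝ} [NeZero n] (hδ : 0 < δ) :
    ((gm (Pair n)).real {g | ovl β g ≤ δ}) ≤ exp 1 * aK β δ n 0 := by
  have hmeas : MeasurableSet {g : Pair n → ℝ | ovl β g ≤ δ} :=
    measurableSet_le (tame_ovl β).1.measurable measurable_const
  have hnn : 0 ≤ᵐ[gm (Pair n)] fun g => phiW β δ g :=
    Filter.Eventually.of_forall fun g => (phiW_pos β δ g).le
  have h := mul_meas_ge_le_integral_of_nonneg (μ := gm (Pair n)) hnn (tame_phiW hδ).integrable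
    (exp (-1))
  have hsub : {g : Pair n → ℝ | ovl β g ≤ δ} ⊆ {g | exp (-1) ≤ phiW β δ g} := by
    intro g hg
    simp only [Set.mem_setOf_eq] at hg ⊢
    unfold phiW
    rw [Real.exp_le_exp, le_div_iff₀ hδ]
    linarith
  have h2 : (gm (Pair n)).real {g | ovl β g ≤ δ} ≤ (gm (Pair n)).real {g | exp (-1) ≤ phiW β δ g} :=
    measureReal_mono hsub (measure_ne_top _ _)
  rw [aK_zero]
  have h3 : (gm (Pair n)).real {g | ovl β g ≤ δ} * exp (-1) ≤ ∫ g, phiW β δ g ∂(gm (Pair n)) := by
    have := mul_le_mul_of_nonneg_left h2 (exp_pos (-1)).le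
    nlinarith
  have h4 : exp 1 * exp (-1) = 1 := by rw [← Real.exp_add]; simp
  have h5 := mul_le_mul_of_nonneg_left h3 (exp_pos 1).le
  have e : exp 1 * ((gm (Pair n)).real {g | ovl β g ≤ δ} * exp (-1)) = (gm (Pair n)).real {g | ovl β g ≤ δ} := by
    calc _ = (gm (Pair n)).real {g | ovl β g ≤ δ} * (exp 1 * exp (-1)) := by ring
      _ = _ := by rw [h4, mul_one]
  rw [e] at h5
  exact h5

/-- The overlap lower bound: in the whole low-temperature phase, `X = ‖Σ‖_F²/n²` stays away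
from `0` with high probability. -/
theorem ovl_lower (β : ℝ) (hβ : 1 < β) (ε : ℝ) (hε : 0 < ε) :
    ∃ δ : ℝ, 0 < δ ∧ ∀ᶠ n : ℕ in atTop, (gm (Pair n)) {g | ovl β g ≤ δ} ≤ ENNReal.ofReal ε := by
  have hβ0 : 0 < β := by linarith
  set r := (1 + β) / 2 with hr
  have hr1 : 1 < r := by rw [hr]; linarith
  have hrβ : r < β := by rw [hr]; linarith
  have hy0 : 2 < r + 1 / r := by
    have : 0 < r := by linarith
    have h : r + 1 / r - 2 = (r - 1) ^ 2 / r := by
      field_simp
      ring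
    have : 0 < (r - 1) ^ 2 / r := by
      have : 0 < r - 1 := by linarith
      positivity
    linarith
  obtain ⟨c, hc, hW⟩ := xm_tail hy0
  obtain ⟨K, hK⟩ := exists_K (by linarith : 0 < r) hrβ
  set γ := β ^ K - ((K : ℝ) + 1) * r ^ K with hγ
  have hγ0 : 0 < γ := by rw [hγ]; linarith
  set L := LK β K with hL
  have hL0 : 0 ≤ L := LK_nonneg hβ0.le K
  set e1 := exp 1 with he1
  have he1pos : 0 < e1 := exp_pos 1
  set s := min 1 (ε * γ / (10 * e1 * β * (L + 1))) with hs
  have hs0 : 0 < s := by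
    rw [hs]
    refine lt_min one_pos ?_
    positivity
  have hs1 : s ≤ 1 := min_le_left _ _
  have hs2 : s ≤ ε * γ / (10 * e1 * β * (L + 1)) := min_le_right _ _
  refine ⟨s ^ 2, by positivity, ?_⟩
  -- error term
  set Err : ℕ → ℝ := fun n => FK β n K + √(Cm (2 * K) * (4 * exp (-c * n))) with hErr
  have hErrLim : Tendsto Err atTop (𝓝 0) := by
    have h1 := FK_tendsto β K
    have h2 : Tendsto (fun n : ℕ => √(Cm (2 * K) * (4 * exp (-c * n)))) atTop (𝓝 0) := by
      have h3 : Tendsto (fun n : ℕ => exp (-c * n)) atTop (𝓝 0) := by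
        have h4 : Tendsto (fun n : ℕ => c * (n : ℝ)) atTop atTop :=
          tendsto_natCast_atTop_atTop.const_mul_atTop hc
        have := Real.tendsto_exp_neg_atTop_nhds_zero.comp h4
        refine this.congr fun n => ?_
        simp [Function.comp, neg_mul]
      have h5 := ((h3.const_mul 4).const_mul (Cm (2 * K))).sqrt
      simp only [mul_zero, Real.sqrt_zero] at h5
      exact h5
    have := h1.add h2
    rw [add_zero] at this
    exact this
  have hev := hErrLim.eventually (gt_mem_nhds (show 0 < ε * γ / (2 * e1) by positivity))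
  filter_upwards [hev, eventually_ge_atTop 1] with n hn1 hn2
  have : NeZero n := ⟨by omega⟩
  obtain ⟨W, tW, hW0, hW1, hW2⟩ := hW n
  set δ := s ^ 2 with hδdef
  have hδ : 0 < δ := by positivity
  have hsq : √δ = s := by rw [hδdef]; exact Real.sqrt_sq hs0.le
  -- lower and upper
  have h1 := aK_lower (n := n) hβ0.le hδ K
  have h2 := aK_upper (β := β) (n := n) hδ hr1.le K tW hW0 hW1
  have h3 : ∫ g, oneN g ^ K * W g ∂(gm (Pair n)) ≤ √(Cm (2 * K) * (4 * exp (-c * n))) := by
    refine Real.le_sqrt_of_sq_le ?_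
    refine (sq_integral_mul_le (tame_oneN_pow K) tW).trans ?_
    have e1' : ∀ g : Pair n → ℝ, (oneN g ^ K) ^ 2 = oneN g ^ (2 * K) := fun g => by
      rw [← pow_mul, mul_comm]
    simp_rw [e1']
    refine mul_le_mul (integral_oneN_pow_le _) hW2 (integral_nonneg fun g => sq_nonneg _) (Cm_nonneg _)
  have h4 : γ * aK β δ n 0 ≤ (4 * β * √δ + β * δ) * L + Err n := by
    simp only [hErr, hγ, hL] at *
    nlinarith
  have h5 : (4 * β * √δ + β * δ) ≤ 5 * β * s := by
    rw [hsq, hδdef]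
    have : s ^ 2 ≤ s := by nlinarith
    nlinarith
  have h6 : e1 * aK β δ n 0 ≤ ε := by
    have h7 : γ * (e1 * aK β δ n 0) ≤ e1 * (5 * β * s * L + Err n) := by
      have := mul_le_mul_of_nonneg_left h5 hL0
      have h8 : γ * aK β δ n 0 ≤ 5 * β * s * L + Err n := by linarith
      have := mul_le_mul_of_nonneg_left h8 he1pos.le
      nlinarith
    have h9 : s * (10 * e1 * β * (L + 1)) ≤ ε * γ := by
      rwa [le_div_iff₀ (by positivity)] at hs2
    have h10 : Err n * (2 * e1) < ε * γ := by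
      rwa [lt_div_iff₀ (by positivity)] at hn1
    have h11 : e1 * (5 * β * s * L + Err n) ≤ γ * ε := by
      have : 0 ≤ s * (10 * e1 * β) := by positivity
      nlinarith
    have := le_of_mul_le_mul_left (h7.trans h11) hγ0
    exact this
  have h12 := prob_ovl_le (β := β) (n := n) hδ
  have h13 : (gm (Pair n)).real {g | ovl β g ≤ δ} ≤ ε := h12.trans h6
  rw [Measure.real] at h13
  exact (ENNReal.le_ofReal_iff_toReal_le (measure_ne_top _ _) hε.le).2 h13

end Vale.Agent.Lib.P150
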