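import Vale.Agent.Lib.P150.Glauber
import Vale.Agent.Lib.P150.Tail

open MeasureTheory Matrix Real Filter Topology
open scoped BigOperators

set_option linter.unusedSectionVars false

namespace Vale.Agent.Lib.P150

variable {n : ℕ}
variable (β : ℝ) (g : Pair n → ℝ)

/-! ### The Dirichlet form at a site -/

/-- Conductance of the edge `x`, `x^i`. -/
noncomputable def cond (i : Fin n) (x : Conf n) : ℝ :=
  gibbs β g x * gibbs β g (flipAt x i) / (gibbs β g x + gibbs β g (flipAt x i))

lemma cond_flip (i : Fin n) (x : Conf n) : cond β g i (flipAt x i) = cond β g i x := by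
  unfold cond
  rw [flipAt_flipAt, mul_comm, add_comm]

lemma cond_nonneg (i : Fin n) (x : Conf n) : 0 ≤ cond β g i x := by
  unfold cond
  have := gibbs_pos β g x
  have := gibbs_pos β g (flipAt x i)
  positivity

lemma cond_le (i : Fin n) (x : Conf n) :
    cond β g i x ≤ (gibbs β g x + gibbs β g (flipAt x i)) / 4 := by
  unfold cond
  have px := gibbs_pos β g x
  have py := gibbs_pos β g (flipAt x i)
  rw [div_le_div_iff₀ (by positivity) (by norm_num)]
  nlinarith [sq_nonneg (gibbs β g x - gibbs β g (flipAt x i))]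

lemma sum_cond_le (i : Fin n) : ∑ x, cond β g i x ≤ 1 / 2 := by
  refine (Finset.sum_le_sum fun x _ => cond_le β g i x).trans ?_
  rw [← Finset.sum_div, Finset.sum_add_distrib, sum_flip i (fun x => gibbs β g x), sum_gibbs]
  norm_num

lemma dirichlet_site (f : Conf n → ℝ) (i : Fin n) :
    gibbsMean β g (fun x => f x * (f x - heatBath β g i f x))
      = (1 / 2) * ∑ x, cond β g i x * (f x - f (flipAt x i)) ^ 2 := by
  unfold gibbsMean
  have e1 : ∀ x, gibbs β g x * (f x * (f x - heatBath β g i f x))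
      = cond β g i x * (f x * (f x - f (flipAt x i))) := by
    intro x
    unfold heatBath cond
    have px := gibbs_pos β g x
    have py := gibbs_pos β g (flipAt x i)
    field_simp
    ring
  simp_rw [e1]
  have e2 := sum_flip i (fun x => cond β g i x * (f x * (f x - f (flipAt x i))))
  simp only [cond_flip, flipAt_flipAt] at e2
  have e3 : ∑ x, cond β g i x * (f x - f (flipAt x i)) ^ 2
      = ∑ x, cond β g i x * (f x * (f x - f (flipAt x i)))
        + ∑ x, cond β g i x * (f (flipAt x i) * (f (flipAt x i) - f x)) := by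
    rw [← Finset.sum_add_distrib]
    exact Finset.sum_congr rfl fun x _ => by ring
  rw [e3, e2]
  ring

lemma neg_generator_eq (f : Conf n → ℝ) (x : Conf n) :
    f x * (- generator β g f x) = ∑ i, f x * (f x - heatBath β g i f x) := by
  unfold generator
  rw [← Finset.mul_sum, ← Finset.sum_neg_distrib]
  congr 2
  funext i
  ring

/-- The Dirichlet form as a sum over sites. -/
lemma dirichlet_eq (f : Conf n → ℝ) :
    gibbsMean β g (fun x => f x * (- generator β g f x))
      = ∑ i, (1 / 2) * ∑ x, cond β g i x * (f x - f (flipAt x i)) ^ 2 := by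
  simp_rw [neg_generator_eq]
  rw [gibbsMean_sum]
  exact Finset.sum_congr rfl fun i _ => dirichlet_site β g f i

/-! ### Spin-flip symmetry and the test function -/

/-- The global spin flip. -/
def negConf (x : Conf n) : Conf n := fun i => !x i

lemma negConf_negConf (x : Conf n) : negConf (negConf x) = x := by
  funext i; simp [negConf]

lemma spin_negConf (x : Conf n) (i : Fin n) : spin (negConf x) i = - spin x i := by
  unfold spin negConf
  cases h : x i <;> simp [h]

lemma gibbsExponent_negConf (x : Conf n) : gibbsExponent β g (negConf x) = gibbsExponent β g x := by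
  unfold gibbsExponent
  congr 1
  refine Finset.sum_congr rfl fun p _ => ?_
  rw [spin_negConf, spin_negConf]
  ring

lemma gibbs_negConf (x : Conf n) : gibbs β g (negConf x) = gibbs β g x := by
  unfold gibbs
  rw [gibbsExponent_negConf]

/-- The global flip as a permutation. -/
def negEquiv (n : ℕ) : Conf n ≃ Conf n :=
  Function.Involutive.toPerm negConf negConf_negConf

lemma gibbsMean_spin (a : Fin n) : gibbsMean β g (fun x => spin x a) = 0 := by
  unfold gibbsMean
  have e := Equiv.sum_comp (negEquiv n) (fun x => gibbs β g x * spin x a)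
  have e2 : ∀ x, gibbs β g (negEquiv n x) * spin (negEquiv n x) a = - (gibbs β g x * spin x a) := by
    intro x
    show gibbs β g (negConf x) * spin (negConf x) a = _
    rw [gibbs_negConf, spin_negConf]
    ring
  simp_rw [e2] at e
  rw [Finset.sum_neg_distrib] at e
  linarith

/-- The test function `f_y(x) = ∑_a y_a x_a`. -/
noncomputable def linF (y x : Conf n) : ℝ := ∑ a, spin y a * spin x a

lemma gibbsMean_linF (y : Conf n) : gibbsMean β g (linF y) = 0 := by
  have : linF y = fun x => ∑ a, spin y a * spin x a := rfl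
  rw [this, gibbsMean_sum]
  refine Finset.sum_eq_zero fun a _ => ?_
  rw [gibbsMean_const_mul, gibbsMean_spin, mul_zero]

lemma abs_linF_le (y x : Conf n) : |linF y x| ≤ n := by
  unfold linF
  refine (Finset.abs_sum_le_sum_abs _ _).trans ?_
  simp [abs_mul, abs_spin]

lemma gibbsMean_linF_sq (y : Conf n) :
    gibbsMean β g (fun x => linF y x ^ 2) = n ^ 2 * wt β g y := by
  have e1 : ∀ x : Conf n, linF y x ^ 2 = ∑ a, ∑ b, (spin y a * spin y b) * (spin x a * spin x b) := by
    intro x
    unfold linF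
    rw [sq, Finset.sum_mul_sum]
    exact Finset.sum_congr rfl fun a _ => Finset.sum_congr rfl fun b _ => by ring
  simp_rw [e1]
  rw [gibbsMean_sum]
  unfold wt
  by_cases hn : (n : ℝ) = 0
  · have : n = 0 := by exact_mod_cast hn
    subst this
    simp
  rw [mul_div_cancel₀ _ (pow_ne_zero 2 hn)]
  refine Finset.sum_congr rfl fun a _ => ?_
  rw [gibbsMean_sum]
  refine Finset.sum_congr rfl fun b _ => ?_
  rw [gibbsMean_const_mul, sgm_apply]
  ring

lemma gibbsVar_linF (y : Conf n) : gibbsVar β g (linF y) = n ^ 2 * wt β g y := by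
  unfold gibbsVar
  rw [gibbsMean_linF, gibbsMean_linF_sq]
  ring

lemma linF_sub_flip (y x : Conf n) (i : Fin n) : (linF y x - linF y (flipAt x i)) ^ 2 = 4 := by
  have e : linF y x - linF y (flipAt x i) = 2 * (spin y i * spin x i) := by
    unfold linF
    rw [← Finset.sum_sub_distrib, Finset.sum_eq_single i]
    · rw [spin_flipAt_self]; ring
    · intro a _ h
      rw [spin_flipAt_ne x h]; ring
    · simp
  rw [e, mul_pow, mul_pow, sq (spin y i), sq (spin x i), spin_mul_self, spin_mul_self]
  norm_num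

/-- The Dirichlet form of the test function is at most `n`. -/
lemma dirichlet_linF_le (y : Conf n) :
    gibbsMean β g (fun x => linF y x * (- generator β g (linF y) x)) ≤ n := by
  rw [dirichlet_eq]
  simp_rw [linF_sub_flip]
  have : ∀ i : Fin n, (1 / 2) * ∑ x, cond β g i x * (4 : ℝ) ≤ 1 := by
    intro i
    rw [← Finset.sum_mul]
    have := sum_cond_le β g i
    linarith
  refine (Finset.sum_le_sum fun i _ => this i).trans ?_
  simp

lemma dirichlet_linF_nonneg (y : Conf n) :
    0 ≤ gibbsMean β g (fun x => linF y x * (- generator β g (linF y) x)) := by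
  rw [dirichlet_eq]
  refine Finset.sum_nonneg fun i _ => mul_nonneg (by norm_num) (Finset.sum_nonneg fun x _ => ?_)
  exact mul_nonneg (cond_nonneg β g i x) (sq_nonneg _)

/-- Some spin vector `y` has at least the average weight. -/
lemma exists_wt_ge : ∃ y : Conf n, ovl β g ≤ wt β g y := by
  have e : ∑ y : Conf n, gibbs β g y * ovl β g ≤ ∑ y : Conf n, gibbs β g y * wt β g y := by
    rw [← Finset.sum_mul, sum_gibbs, one_mul]
    have := gibbsMean_wt β g
    unfold gibbsMean at this
    rw [this]
  obtain ⟨y, -, hy⟩ := Finset.exists_le_of_sum_le Finset.univ_nonempty e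
  exact ⟨y, le_of_mul_le_mul_left hy (gibbs_pos β g y)⟩

/-! ### The spectral gap -/

lemma spectralGap_le {f : Conf n → ℝ} (hf : gibbsVar β g f ≠ 0)
    (h0 : 0 ≤ gibbsMean β g (fun x => f x * (- generator β g f x)) / gibbsVar β g f) :
    spectralGap β g ≤ gibbsMean β g (fun x => f x * (- generator β g f x)) / gibbsVar β g f := by
  unfold spectralGap
  by_cases h : BddBelow {r : ℝ | ∃ f : Conf n → ℝ, gibbsVar β g f ≠ 0 ∧
      r = gibbsMean β g (fun x => f x * (- generator β g f x)) / gibbsVar β g f}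
  · exact csInf_le h ⟨f, hf, rfl⟩
  · rw [Real.sInf_of_not_bddBelow h]
    exact h0

/-- Deterministic: the gap is at most `1 / (n X)`. -/
theorem spectralGap_le_ovl [NeZero n] (hX : 0 < ovl β g) :
    spectralGap β g ≤ 1 / (n * ovl β g) := by
  have hn := nR_pos (n := n)
  obtain ⟨y, hy⟩ := exists_wt_ge β g
  have hwt : 0 < wt β g y := lt_of_lt_of_le hX hy
  have hV : gibbsVar β g (linF y) = n ^ 2 * wt β g y := gibbsVar_linF β g y
  have hVpos : 0 < gibbsVar β g (linF y) := by rw [hV]; positivity
  refine (spectralGap_le β g hVpos.ne' (div_nonneg (dirichlet_linF_nonneg β g y) hVpos.le)).trans ?_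
  rw [hV, div_le_div_iff₀ (by positivity) (by positivity)]
  have h1 := dirichlet_linF_le β g y
  have h2 := dirichlet_linF_nonneg β g y
  have h3 : (0 : ℝ) < n * ovl β g := by positivity
  calc gibbsMean β g (fun x => linF y x * (- generator β g (linF y) x)) * (n * ovl β g)
      ≤ n * (n * ovl β g) := mul_le_mul_of_nonneg_right h1 h3.le
    _ ≤ 1 * (n ^ 2 * wt β g y) := by
      have : (n : ℝ) ^ 2 * ovl β g ≤ n ^ 2 * wt β g y := mul_le_mul_of_nonneg_left hy (by positivity)
      nlinarith

/-! ### The mixing time -/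

/-- One step of the kernel contracts mean-zero functions by `2 * TV`. -/
lemma heat_contract {t : ℝ} (htv : ∀ x, tvToGibbs β g t x ≤ 1 / 4) {h : Conf n → ℝ} {M : ℝ}
    (hmean : gibbsMean β g h = 0) (hM : ∀ x, |h x| ≤ M) (x : Conf n) :
    |(heatKernel β g t *ᵥ h) x| ≤ M / 2 := by
  have e : (heatKernel β g t *ᵥ h) x = ∑ y, (heatKernel β g t x y - gibbs β g y) * h y := by
    have : ∑ y, (heatKernel β g t x y - gibbs β g y) * h y
        = ∑ y, heatKernel β g t x y * h y - gibbsMean β g h := by
      unfold gibbsMean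
      rw [← Finset.sum_sub_distrib]
      exact Finset.sum_congr rfl fun y _ => by ring
    rw [this, hmean, sub_zero]
    rfl
  rw [e]
  refine (Finset.abs_sum_le_sum_abs _ _).trans ?_
  have h1 : ∀ y, |(heatKernel β g t x y - gibbs β g y) * h y| ≤ |heatKernel β g t x y - gibbs β g y| * M :=
    fun y => by
      rw [abs_mul]
      exact mul_le_mul_of_nonneg_left (hM y) (abs_nonneg _)
  refine (Finset.sum_le_sum fun y _ => h1 y).trans ?_
  rw [← Finset.sum_mul]
  have h2 := htv x
  unfold tvToGibbs at h2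
  have hM0 : 0 ≤ M := (abs_nonneg _).trans (hM x)
  have h3 : ∑ y, |heatKernel β g t x y - gibbs β g y| ≤ 1 / 2 := by linarith
  have := mul_le_mul_of_nonneg_right h3 hM0
  linarith

/-- Iterated contraction. -/
lemma heat_iter {t : ℝ} (htv : ∀ x, tvToGibbs β g t x ≤ 1 / 4) {h : Conf n → ℝ} {M : ℝ}
    (hmean : gibbsMean β g h = 0) (hM : ∀ x, |h x| ≤ M) (k : ℕ) :
    gibbsMean β g (heatKernel β g (k * t) *ᵥ h) = 0 ∧
      ∀ x, |(heatKernel β g (k * t) *ᵥ h) x| ≤ M * (1 / 2) ^ k := by
  have hpow : ∀ k : ℕ, heatKernel β g (k * t) = heatKernel β g t ^ k := by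
    intro k
    unfold heatKernel
    rw [← Matrix.exp_nsmul, ← Nat.cast_smul_eq_nsmul ℝ, smul_smul]
  induction k with
  | zero =>
    have : heatKernel β g ((0 : ℕ) * t) = 1 := by rw [hpow, pow_zero]
    rw [this, one_mulVec]
    exact ⟨hmean, fun x => by simpa using hM x⟩
  | succ k ih =>
    have e : heatKernel β g ((k + 1 : ℕ) * t) *ᵥ h
        = heatKernel β g t *ᵥ (heatKernel β g (k * t) *ᵥ h) := by
      rw [hpow, hpow, pow_succ', mulVec_mulVec]
    rw [e]
    refine ⟨?_, fun x => ?_⟩
    · rw [gibbsMean_heatKernel]; exact ih.1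
    · have := heat_contract β g htv ih.1 ih.2 x
      refine this.trans (le_of_eq ?_)
      rw [pow_succ]
      ring

/-- Deterministic: if the kernel at time `t ≥ 0` is within TV `1/4` of Gibbs from every start, then
`n (wt y - 2^{-k}) ≤ k t` for every `y` and `k`. -/
theorem mixing_lower [NeZero n] {t : ℝ} (ht : 0 ≤ t) (htv : ∀ x, tvToGibbs β g t x ≤ 1 / 4)
    (y : Conf n) (k : ℕ) : n * (wt β g y - (1 / 2) ^ k) ≤ k * t := by
  have hn := nR_pos (n := n)
  have h1 := autocorr_ge β g (k * t) (linF y)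
  obtain ⟨-, h2⟩ := heat_iter β g htv (gibbsMean_linF β g y) (abs_linF_le y) k
  have h3 : gibbsMean β g (fun x => linF y x * (heatKernel β g (k * t) *ᵥ linF y) x)
      ≤ (n : ℝ) * (n * (1 / 2) ^ k) := by
    refine (le_abs_self _).trans ?_
    refine abs_gibbsMean_le β g fun x => ?_
    rw [abs_mul]
    exact mul_le_mul (abs_linF_le y x) (h2 x) (abs_nonneg _) hn.le
  have h4 : gibbsMean β g (fun x => linF y x * generator β g (linF y) x)
      = - gibbsMean β g (fun x => linF y x * (- generator β g (linF y) x)) := by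
    rw [neg_eq_neg_one_mul (gibbsMean β g _), ← gibbsMean_const_mul]
    congr 1
    funext x
    ring
  rw [h4, gibbsMean_linF_sq] at h1
  have h5 := dirichlet_linF_le β g y
  have hkt : (0 : ℝ) ≤ k * t := by positivity
  have h6 := mul_le_mul_of_nonneg_left h5 hkt
  have h7 : (n : ℝ) * (n * (wt β g y - (1 / 2) ^ k)) ≤ n * (k * t) := by nlinarith
  exact le_of_mul_le_mul_left h7 hn

/-- Deterministic bound on a fixed disorder. -/
theorem det_bound [NeZero n] {δ : ℝ} (hδ : 0 < δ) (hX : δ < ovl β g) {k : ℕ} (hk1 : 1 ≤ k)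
    (hk : ((1 : ℝ) / 2) ^ k ≤ δ / 2) :
    spectralGap β g ≤ 1 / ((δ / (2 * k)) * n) ∧
      ∀ t : ℝ, 0 ≤ t → t < (δ / (2 * k)) * n → ∃ x, 1 / 4 < tvToGibbs β g t x := by
  have hn := nR_pos (n := n)
  have hk0 : (0 : ℝ) < k := by exact_mod_cast hk1
  have hk1' : (1 : ℝ) ≤ k := by exact_mod_cast hk1
  constructor
  · refine (spectralGap_le_ovl β g (hδ.trans hX)).trans ?_
    refine one_div_le_one_div_of_le (by positivity) ?_
    have h1 : δ / (2 * k) ≤ δ := div_le_self hδ.le (by linarith)
    calc (δ / (2 * k)) * n ≤ ovl β g * n := mul_le_mul_of_nonneg_right (h1.trans hX.le) hn.le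
      _ = n * ovl β g := mul_comm _ _
  · intro t ht htlt
    by_contra hcon
    push Not at hcon
    obtain ⟨y, hy⟩ := exists_wt_ge β g
    have h1 := mixing_lower β g ht hcon y k
    have h2 : δ / 2 ≤ wt β g y - (1 / 2) ^ k := by linarith
    have h3 : n * (δ / 2) ≤ k * t := h1.trans' (mul_le_mul_of_nonneg_left h2 hn.le)
    have h4 : k * t < k * ((δ / (2 * k)) * n) := mul_lt_mul_of_pos_left htlt hk0
    have h5 : k * ((δ / (2 * k)) * n) = n * (δ / 2) := by
      field_simp
    linarith

/-- The main theorem: at every fixed `β > 1`, with probability at least `1 - ε`, the relaxation time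
and the mixing time are at least linear in `n`. -/
theorem slow_main (β : ℝ) (hβ : 1 < β) (ε : ℝ) (hε : 0 < ε) :
    ∃ c : ℝ, 0 < c ∧ ∀ᶠ n : ℕ in atTop,
      (disorder n) {g | ¬ (spectralGap β g ≤ 1 / (c * n) ∧
        ∀ t : ℝ, 0 ≤ t → t < c * n → ∃ x, 1 / 4 < tvToGibbs β g t x)} ≤ ENNReal.ofReal ε := by
  obtain ⟨δ, hδ, hev⟩ := ovl_lower β hβ ε hε
  have hlim : Tendsto (fun k : ℕ => ((1 : ℝ) / 2) ^ k) atTop (𝓝 0) :=
    tendsto_pow_atTop_nhds_zero_of_lt_one (by norm_num) (by norm_num)
  obtain ⟨k, hk, hk1⟩ := ((hlim.eventually (gt_mem_nhds (show 0 < δ / 2 by positivity))).and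
    (eventually_ge_atTop 1)).exists
  have hk0 : (0 : ℝ) < k := by exact_mod_cast hk1
  refine ⟨δ / (2 * k), by positivity, ?_⟩
  filter_upwards [hev, eventually_ge_atTop 1] with n hn hn1
  have : NeZero n := ⟨by omega⟩
  refine (measure_mono ?_).trans hn
  intro g hg
  by_contra hcon
  have hX : δ < ovl β g := not_le.1 hcon
  exact hg (det_bound β g hδ hX hk1 hk.le)

/-- The gap part alone. -/
theorem gap_main (β : ℝ) (hβ : 1 < β) (ε : ℝ) (hε : 0 < ε) :
    ∃ c : ℝ, 0 < c ∧ ∀ᶠ n : ℕ in atTop,
      (disorder n) {g | ¬ spectralGap β g ≤ 1 / (c * n)} ≤ ENNReal.ofReal ε := by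
  obtain ⟨c, hc, h⟩ := slow_main β hβ ε hε
  refine ⟨c, hc, ?_⟩
  filter_upwards [h] with n hn
  refine (measure_mono ?_).trans hn
  intro g hg hcon
  exact hg hcon.1

end Vale.Agent.Lib.P150
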