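import Vale.Agent.Lib.P150.Interp

open MeasureTheory ProbabilityTheory Real
open scoped BigOperators NNReal

set_option linter.unusedSectionVars false

namespace Vale.Agent.Lib.P150

variable {T : Type*} [Fintype T] [DecidableEq T]

/-- Sum of exponentials. -/
noncomputable def sumExp (s : ℝ) (w : T → ℝ) : ℝ := ∑ v, exp (s * w v)

/-- Soft maximum. -/
noncomputable def smax (s : ℝ) (w : T → ℝ) : ℝ := (1 / s) * log (sumExp s w)

/-- Soft maximum weights. -/
noncomputable def pr (s : ℝ) (u : T) (w : T → ℝ) : ℝ := exp (s * w u) * (sumExp s w)⁻¹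

/-- Derivative of the weights. -/
noncomputable def dpr (s : ℝ) (u v : T) (w : T → ℝ) : ℝ :=
  s * ((if u = v then pr s u w else 0) - pr s u w * pr s v w)

lemma sumExp_pos [Nonempty T] (s : ℝ) (w : T → ℝ) : 0 < sumExp s w :=
  Finset.sum_pos (fun _ _ => exp_pos _) Finset.univ_nonempty

lemma continuous_sumExp (s : ℝ) : Continuous (sumExp (T := T) s) := by
  unfold sumExp; fun_prop

lemma continuous_pr [Nonempty T] (s : ℝ) (u : T) : Continuous (pr s u) := by
  unfold pr
  refine Continuous.mul (by fun_prop) ((continuous_sumExp s).inv₀ fun w => (sumExp_pos s w).ne')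

lemma continuous_smax [Nonempty T] (s : ℝ) : Continuous (smax (T := T) s) := by
  unfold smax
  exact continuous_const.mul ((continuous_sumExp s).log fun w => (sumExp_pos s w).ne')

lemma continuous_dpr [Nonempty T] (s : ℝ) (u v : T) : Continuous (dpr s u v) := by
  unfold dpr
  by_cases h : u = v
  · simp only [h, if_true]
    exact continuous_const.mul ((continuous_pr s v).sub ((continuous_pr s v).mul (continuous_pr s v)))
  · simp only [h, if_false]
    exact continuous_const.mul (continuous_const.sub ((continuous_pr s u).mul (continuous_pr s v)))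

lemma pr_pos [Nonempty T] (s : ℝ) (u : T) (w : T → ℝ) : 0 < pr s u w :=
  mul_pos (exp_pos _) (inv_pos.2 (sumExp_pos s w))

lemma sum_pr [Nonempty T] (s : ℝ) (w : T → ℝ) : ∑ u, pr s u w = 1 := by
  unfold pr
  rw [← Finset.sum_mul]
  exact mul_inv_cancel₀ (sumExp_pos s w).ne'

lemma pr_le_one [Nonempty T] (s : ℝ) (u : T) (w : T → ℝ) : pr s u w ≤ 1 := by
  rw [← sum_pr s w]
  exact Finset.single_le_sum (f := fun u => pr s u w) (fun v _ => (pr_pos s v w).le) (Finset.mem_univ u)

lemma abs_pr_le [Nonempty T] (s : ℝ) (u : T) (w : T → ℝ) : |pr s u w| ≤ 1 := by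
  rw [abs_of_pos (pr_pos s u w)]; exact pr_le_one s u w

lemma abs_dpr_le [Nonempty T] (s : ℝ) (u v : T) (w : T → ℝ) : |dpr s u v w| ≤ 2 * |s| := by
  unfold dpr
  rw [abs_mul, mul_comm]
  refine mul_le_mul_of_nonneg_right ?_ (abs_nonneg _)
  have h1 := pr_pos s u w
  have h2 := pr_le_one s u w
  have h3 := pr_pos s v w
  have h4 := pr_le_one s v w
  have h5 : pr s u w * pr s v w ≤ 1 := by nlinarith
  have h6 : 0 ≤ pr s u w * pr s v w := by positivity
  by_cases h : u = v
  · simp only [h, if_true]
    rw [abs_le]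
    have := pr_pos s v w
    have := pr_le_one s v w
    constructor <;> nlinarith
  · simp only [h, if_false]
    rw [abs_le]
    constructor <;> nlinarith

lemma hasFDerivAt_sumExp (s : ℝ) (w : T → ℝ) :
    HasFDerivAt (sumExp s) (∑ v, (exp (s * w v) * s) •
      (ContinuousLinearMap.proj v : (T → ℝ) →L[ℝ] ℝ)) w := by
  unfold sumExp
  refine HasFDerivAt.fun_sum fun v _ => ?_
  have h1 : HasFDerivAt (fun w : T → ℝ => s * w v) (s • (ContinuousLinearMap.proj v : (T → ℝ) →L[ℝ] ℝ)) w :=
    (hasFDerivAt_apply v w).const_mul s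
  have h2 := h1.exp
  rw [smul_smul] at h2
  exact h2

lemma sum_smul_proj_apply (a : T → ℝ) (y : T → ℝ) :
    (∑ u, a u • (ContinuousLinearMap.proj u : (T → ℝ) →L[ℝ] ℝ)) y = ∑ u, a u * y u := by
  simp

lemma hasGrad_smax [Nonempty T] {s : ℝ} (hs : s ≠ 0) : HasGrad (smax (T := T) s) (fun u => pr s u) := by
  intro w
  have h1 := ((hasFDerivAt_sumExp s w).log (sumExp_pos s w).ne').const_mul (1 / s)
  refine h1.congr_fderiv (ContinuousLinearMap.ext fun y => ?_)
  rw [sum_smul_proj_apply]
  simp only [smul_apply, smul_eq_mul, sum_smul_proj_apply]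
  rw [Finset.mul_sum, Finset.mul_sum]
  refine Finset.sum_congr rfl fun u _ => ?_
  unfold pr
  field_simp

lemma hasGrad_pr [Nonempty T] (s : ℝ) (u : T) : HasGrad (pr s u) (dpr s u) := by
  intro w
  have h1 : HasFDerivAt (fun w : T → ℝ => s * w u) (s • (ContinuousLinearMap.proj u : (T → ℝ) →L[ℝ] ℝ)) w :=
    (hasFDerivAt_apply u w).const_mul s
  have h2 := h1.exp
  have h3 : HasFDerivAt (fun w : T → ℝ => (sumExp s w)⁻¹) _ w :=
    (hasDerivAt_inv (sumExp_pos s w).ne').comp_hasFDerivAt w (hasFDerivAt_sumExp s w)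
  have h4 := h2.mul h3
  refine h4.congr_fderiv (ContinuousLinearMap.ext fun y => ?_)
  rw [sum_smul_proj_apply]
  simp only [add_apply, smul_apply, smul_eq_mul, sum_smul_proj_apply, ContinuousLinearMap.proj_apply]
  have hE := (sumExp_pos s w).ne'
  have eR : ∑ v, dpr s u v w * y v
      = s * pr s u w * y u - s * pr s u w * ∑ v, pr s v w * y v := by
    unfold dpr
    have : ∀ v, s * ((if u = v then pr s u w else 0) - pr s u w * pr s v w) * y v
        = (if u = v then s * pr s u w * y v else 0) - s * pr s u w * (pr s v w * y v) := by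
      intro v; split_ifs <;> ring
    simp_rw [this]
    rw [Finset.sum_sub_distrib, Finset.sum_ite_eq, ← Finset.mul_sum]
    simp
  have eL : ∑ v, exp (s * w v) * s * y v = s * sumExp s w * ∑ v, pr s v w * y v := by
    rw [Finset.mul_sum]
    refine Finset.sum_congr rfl fun v _ => ?_
    unfold pr
    field_simp
  rw [eR, eL]
  unfold pr
  field_simp
  ring

lemma le_smax [Nonempty T] {s : ℝ} (hs : 0 < s) (w : T → ℝ) (u : T) : w u ≤ smax s w := by
  unfold smax sumExp
  have h1 : exp (s * w u) ≤ ∑ v, exp (s * w v) :=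
    Finset.single_le_sum (f := fun v => exp (s * w v)) (fun _ _ => (exp_pos _).le) (Finset.mem_univ u)
  have h2 := log_le_log (exp_pos _) h1
  rw [log_exp] at h2
  rw [one_div, ← div_eq_inv_mul, le_div_iff₀ hs]
  linarith

lemma smax_le [Nonempty T] {s : ℝ} (hs : 0 < s) (w : T → ℝ) (M : ℝ) (hM : ∀ u, w u ≤ M) :
    smax s w ≤ M + log (Fintype.card T) / s := by
  unfold smax sumExp
  have hT : (0 : ℝ) < Fintype.card T := by exact_mod_cast Fintype.card_pos
  have h1 : ∑ v, exp (s * w v) ≤ Fintype.card T * exp (s * M) := by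
    calc ∑ v, exp (s * w v) ≤ ∑ _v : T, exp (s * M) :=
          Finset.sum_le_sum fun v _ => exp_le_exp.2 (mul_le_mul_of_nonneg_left (hM v) hs.le)
      _ = _ := by simp
  have h2 := log_le_log (Finset.sum_pos (fun _ _ => exp_pos _) Finset.univ_nonempty) h1
  rw [log_mul hT.ne' (exp_pos _).ne', log_exp] at h2
  rw [one_div, ← div_eq_inv_mul, div_le_iff₀ hs, add_mul, div_mul_cancel₀ _ hs.ne']
  linarith

lemma abs_smax_le [Nonempty T] {s : ℝ} (hs : 0 < s) (w : T → ℝ) :
    |smax s w| ≤ ∑ u, |w u| + log (Fintype.card T) / s := by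
  have hT : (1 : ℝ) ≤ Fintype.card T := by exact_mod_cast Fintype.card_pos
  have hl : 0 ≤ log (Fintype.card T) / s := div_nonneg (log_nonneg hT) hs.le
  have hu : ∀ u, |w u| ≤ ∑ v, |w v| := fun u =>
    Finset.single_le_sum (f := fun v => |w v|) (fun _ _ => abs_nonneg _) (Finset.mem_univ u)
  rw [abs_le]
  constructor
  · obtain ⟨u⟩ := ‹Nonempty T›
    have h1 := le_smax hs w u
    have h2 := neg_abs_le (w u)
    have h3 := hu u
    linarith
  · exact smax_le hs w _ fun u => (le_abs_self _).trans (hu u)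

lemma tame_smax [Nonempty T] {s : ℝ} (hs : 0 < s) : Tame (smax (T := T) s) := by
  have hT : (1 : ℝ) ≤ Fintype.card T := by exact_mod_cast Fintype.card_pos
  have hl : 0 ≤ log (Fintype.card T) / s := div_nonneg (log_nonneg hT) hs.le
  have : Tame (fun w : T → ℝ => ∑ u, |w u| + log (Fintype.card T) / s) :=
    Tame.S.add (Tame.const _)
  refine Tame.mono (continuous_smax s) this fun w => ?_
  refine (abs_smax_le hs w).trans (le_abs_self _)

lemma tame_pr [Nonempty T] (s : ℝ) (u : T) : Tame (pr s u) :=
  Tame.of_bound (continuous_pr s u) 1 (abs_pr_le s u)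

lemma tame_dpr [Nonempty T] (s : ℝ) (u v : T) : Tame (dpr s u v) :=
  Tame.of_bound (continuous_dpr s u v) _ (abs_dpr_le s u v)

/-- Sudakov-Fernique comparison for the soft maximum. -/
theorem sf_compare_aux [Nonempty T] {ι : Type*} [Fintype ι] [DecidableEq ι] {s : ℝ} (hs : 0 < s)
    (A B : T → ι → ℝ) (hAB : ∀ u v, ∑ l, A u l * B v l = 0)
    (h : ∀ u v, ∑ l, (A u l - A v l) ^ 2 ≤ ∑ l, (B u l - B v l) ^ 2) :
    ∫ g, smax s (lin A g) ∂(gm ι) ≤ ∫ g, smax s (lin B g) ∂(gm ι) := by
  have hd := fun t => interp (F := smax s) (dF := fun u => pr s u) (ddF := fun u v => dpr s u v)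
    (hasGrad_smax hs.ne') (fun u => hasGrad_pr s u) (tame_smax hs) (fun u => tame_pr s u)
    (fun u v => tame_dpr s u v) A B hAB t
  set φ : ℝ → ℝ := fun t => ∫ g, smax s (lin (lerpM A B t) g) ∂(gm ι) with hφ
  -- sign of the derivative
  have hsign : ∀ t ∈ Set.Icc 0 (π / 2), sin t * cos t * ∑ u, ∑ v,
      ((∑ l, A u l * A v l) - (∑ l, B u l * B v l)) *
        ∫ g, dpr s u v (lin (lerpM A B t) g) ∂(gm ι) ≤ 0 := by
    intro t ht
    have hsc : 0 ≤ sin t * cos t :=
      mul_nonneg (sin_nonneg_of_nonneg_of_le_pi ht.1 (by linarith [ht.2, pi_pos]))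
        (cos_nonneg_of_mem_Icc ⟨by linarith [ht.1, pi_pos], ht.2⟩)
    refine mul_nonpos_of_nonneg_of_nonpos hsc ?_
    have e : ∑ u, ∑ v, ((∑ l, A u l * A v l) - (∑ l, B u l * B v l)) *
        ∫ g, dpr s u v (lin (lerpM A B t) g) ∂(gm ι)
        = ∫ g, ∑ u, ∑ v, ((∑ l, A u l * A v l) - (∑ l, B u l * B v l)) *
          dpr s u v (lin (lerpM A B t) g) ∂(gm ι) := by
      rw [integral_finsetSum _ fun u _ => ?_]
      · refine Finset.sum_congr rfl fun u _ => ?_
        rw [integral_finsetSum _ fun v _ => ?_]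
        · refine Finset.sum_congr rfl fun v _ => ?_
          rw [integral_const_mul]
        · exact (((tame_dpr s u v).comp_lin _).const_mul _).integrable
      · exact (Tame.sum _ fun v _ => ((tame_dpr s u v).comp_lin _).const_mul _).integrable
    rw [e]
    refine integral_nonpos fun g => ?_
    -- pointwise
    set w := lin (lerpM A B t) g with hw
    let C : T → T → ℝ := fun u v => (∑ l, A u l * A v l) - (∑ l, B u l * B v l)
    have hC : ∀ u v, C u u + C v v - 2 * C u v ≤ 0 := by
      intro u v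
      have := h u v
      have e1 : ∑ l, (A u l - A v l) ^ 2
          = (∑ l, A u l * A u l) + (∑ l, A v l * A v l) - 2 * ∑ l, A u l * A v l := by
        rw [Finset.mul_sum, ← Finset.sum_add_distrib, ← Finset.sum_sub_distrib]
        exact Finset.sum_congr rfl fun l _ => by ring
      have e2 : ∑ l, (B u l - B v l) ^ 2
          = (∑ l, B u l * B u l) + (∑ l, B v l * B v l) - 2 * ∑ l, B u l * B v l := by
        rw [Finset.mul_sum, ← Finset.sum_add_distrib, ← Finset.sum_sub_distrib]
        exact Finset.sum_congr rfl fun l _ => by ring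
      simp only [C]
      rw [e1, e2] at this
      linarith
    have key : ∑ u, ∑ v, C u v * dpr s u v w
        = (s / 2) * ∑ u, ∑ v, pr s u w * pr s v w * (C u u + C v v - 2 * C u v) := by
      have a1 : ∑ u, ∑ v, C u v * dpr s u v w
          = s * (∑ u, C u u * pr s u w - ∑ u, ∑ v, C u v * (pr s u w * pr s v w)) := by
        rw [← Finset.sum_sub_distrib, Finset.mul_sum]
        refine Finset.sum_congr rfl fun u _ => ?_
        unfold dpr
        have : ∀ v, C u v * (s * ((if u = v then pr s u w else 0) - pr s u w * pr s v w))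
            = (if u = v then s * (C u v * pr s u w) else 0)
              - s * (C u v * (pr s u w * pr s v w)) := by
          intro v; split_ifs <;> ring
        simp_rw [this]
        rw [Finset.sum_sub_distrib, Finset.sum_ite_eq, ← Finset.mul_sum]
        simp
        ring
      have a2 : ∑ u, ∑ v, pr s u w * pr s v w * (C u u + C v v - 2 * C u v)
          = 2 * (∑ u, C u u * pr s u w) - 2 * ∑ u, ∑ v, C u v * (pr s u w * pr s v w) := by
        have b1 : ∑ u, ∑ v, pr s u w * pr s v w * C u u = ∑ u, C u u * pr s u w := by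
          refine Finset.sum_congr rfl fun u _ => ?_
          have : ∀ v, pr s u w * pr s v w * C u u = (C u u * pr s u w) * pr s v w := fun v => by ring
          simp_rw [this]
          rw [← Finset.mul_sum, sum_pr, mul_one]
        have b2 : ∑ u, ∑ v, pr s u w * pr s v w * C v v = ∑ v, C v v * pr s v w := by
          rw [Finset.sum_comm]
          refine Finset.sum_congr rfl fun v _ => ?_
          have : ∀ u, pr s u w * pr s v w * C v v = (C v v * pr s v w) * pr s u w := fun u => by ring
          simp_rw [this]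
          rw [← Finset.mul_sum, sum_pr, mul_one]
        have b3 : ∑ u, ∑ v, pr s u w * pr s v w * (C u u + C v v - 2 * C u v)
            = ∑ u, ∑ v, pr s u w * pr s v w * C u u + ∑ u, ∑ v, pr s u w * pr s v w * C v v
              - 2 * ∑ u, ∑ v, C u v * (pr s u w * pr s v w) := by
          rw [Finset.mul_sum, ← Finset.sum_add_distrib, ← Finset.sum_sub_distrib]
          refine Finset.sum_congr rfl fun u _ => ?_
          rw [Finset.mul_sum, ← Finset.sum_add_distrib, ← Finset.sum_sub_distrib]
          exact Finset.sum_congr rfl fun v _ => by ring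
        rw [b3, b1, b2]
        ring
      rw [a1, a2]
      ring
    show ∑ u, ∑ v, C u v * dpr s u v w ≤ 0
    rw [key]
    refine mul_nonpos_of_nonneg_of_nonpos (by positivity) ?_
    refine Finset.sum_nonpos fun u _ => Finset.sum_nonpos fun v _ => ?_
    exact mul_nonpos_of_nonneg_of_nonpos
      (mul_nonneg (pr_pos s u w).le (pr_pos s v w).le) (hC u v)
  have hanti : AntitoneOn φ (Set.Icc 0 (π / 2)) := by
    refine antitoneOn_of_deriv_nonpos (convex_Icc _ _)
      (fun t _ => (hd t).continuousAt.continuousWithinAt) (fun t _ => (hd t).differentiableAt.differentiableWithinAt) ?_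
    intro t ht
    rw [(hd t).deriv]
    exact hsign t (interior_subset ht)
  have h0 : (0 : ℝ) ∈ Set.Icc 0 (π / 2) := ⟨le_rfl, by positivity⟩
  have h1 : π / 2 ∈ Set.Icc 0 (π / 2) := ⟨by positivity, le_rfl⟩
  have := hanti h0 h1 (by positivity)
  simp only [hφ] at this
  have e0 : lerpM A B 0 = B := by
    funext u l; simp [lerpM]
  have e1 : lerpM A B (π / 2) = A := by
    funext u l; simp [lerpM]
  rw [e0, e1] at this
  exact this

end Vale.Agent.Lib.P150
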