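import Vale.Agent.Lib.P150.Moments

open MeasureTheory ProbabilityTheory Real Matrix Filter Topology
open scoped BigOperators Matrix.Norms.L2Operator

set_option linter.unusedSectionVars false

namespace Vale.Agent.Lib.P150

variable {n : ℕ}

/-- Derivative of the normalised trace. -/
noncomputable def dTau (p : Pair n) (k : ℕ) (g : Pair n → ℝ) : ℝ := Matrix.trace (dU p k g) / n

lemma hasPD_tauT (p : Pair n) (k : ℕ) : HasPD p (tauT k) (dTau p k) := by
  have h := (HasPD.sum (p := p) (Finset.univ : Finset (Fin n))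
    (F := fun i g => uM k g i i) (F' := fun i g => dU p k g i i)
    (fun i _ => hasPDM_uM p k i i)).const_mul (1 / (n : ℝ))
  intro g
  have h2 := h g
  have e1 : (fun t => tauT k (Function.update g p t))
      = fun t => (1 / (n : ℝ)) * ∑ i, uM k (Function.update g p t) i i := by
    funext t
    simp only [tauT, Matrix.trace, Matrix.diag]
    ring
  have e2 : dTau p k g = (1 / (n : ℝ)) * ∑ i, dU p k g i i := by
    simp only [dTau, Matrix.trace, Matrix.diag]
    ring
  rw [e1, e2]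
  exact h2

lemma tame_dTau (p : Pair n) (k : ℕ) : Tame (dTau p k) := by
  have := ((tameM_dU p k).trace).const_mul (1 / (n : ℝ))
  convert this using 2 with g
  simp only [dTau]; ring

variable [NeZero n]

lemma abs_dTau_le (p : Pair n) (k : ℕ) (g : Pair n → ℝ) :
    |dTau p (k + 1) g| ≤ (1 / (n * √(n : ℝ))) * ((k + 1) * (2 * oneN g ^ k)) := by
  have hn := nR_pos (n := n)
  have hs := sqrtn_pos (n := n)
  have e : dTau p (k + 1) g
      = (1 / (n * √(n : ℝ))) * ∑ x ∈ Finset.HasAntidiagonal.antidiagonal k,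
          ((uM x.2 g * uM x.1 g) p.1.2 p.1.1 + (uM x.2 g * uM x.1 g) p.1.1 p.1.2) := by
    simp only [dTau, dU, wM, Matrix.trace_smul, Matrix.trace_sum, trace_mul_Ep_mul, smul_eq_mul]
    field_simp
  rw [e, abs_mul, abs_of_pos (by positivity : 0 < 1 / (n * √(n : ℝ)))]
  refine mul_le_mul_of_nonneg_left ?_ (by positivity)
  refine (Finset.abs_sum_le_sum_abs _ _).trans ?_
  have h1 : ∀ x ∈ Finset.HasAntidiagonal.antidiagonal k,
      |(uM x.2 g * uM x.1 g) p.1.2 p.1.1 + (uM x.2 g * uM x.1 g) p.1.1 p.1.2| ≤ 2 * oneN g ^ k := by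
    intro x hx
    have hk : x.1 + x.2 = k := Finset.HasAntidiagonal.mem_antidiagonal.1 hx
    have hn1 : ‖uM x.2 g * uM x.1 g‖ ≤ oneN g ^ k := by
      refine (norm_mul_le _ _).trans ?_
      rw [← hk, add_comm, pow_add]
      exact mul_le_mul (norm_uM_le _ g) (norm_uM_le _ g) (norm_nonneg _) (pow_nonneg (oneN_pos g).le _)
    have a1 := (abs_entry_le (uM x.2 g * uM x.1 g) p.1.2 p.1.1).trans hn1
    have a2 := (abs_entry_le (uM x.2 g * uM x.1 g) p.1.1 p.1.2).trans hn1
    have := abs_add_le ((uM x.2 g * uM x.1 g) p.1.2 p.1.1) ((uM x.2 g * uM x.1 g) p.1.1 p.1.2)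
    linarith
  refine (Finset.sum_le_sum h1).trans (le_of_eq ?_)
  rw [Finset.sum_const, Finset.Nat.card_antidiagonal, nsmul_eq_mul]
  push_cast
  ring

lemma abs_symE_le (Q : Mat n) (p : Pair n) : |symE Q p| ≤ 2 * ‖Q‖ := by
  unfold symE
  have a1 := abs_entry_le Q p.1.2 p.1.1
  have a2 := abs_entry_le Q p.1.1 p.1.2
  have := abs_add_le (Q p.1.2 p.1.1) (Q p.1.1 p.1.2)
  linarith

omit [NeZero n] in
lemma card_pair_le : (Fintype.card (Pair n) : ℝ) ≤ (n : ℝ) ^ 2 := by
  have h := Fintype.card_subtype_le (fun p : Fin n × Fin n => p.1 < p.2)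
  have e : Fintype.card (Fin n × Fin n) = n ^ 2 := by
    simp [sq]
  rw [e] at h
  exact_mod_cast h

lemma abs_D_tau_le (k : ℕ) (g : Pair n → ℝ) :
    |(1 / (n * √(n : ℝ))) * ∑ p : Pair n, dTau p (k + 2) g * symE (uM (k + 1) g * 1) p|
      ≤ (4 * (k + 2) / n) * oneN g ^ (2 * k + 2) := by
  have hn := nR_pos (n := n)
  have hs := sqrtn_pos (n := n)
  have hsq : √(n : ℝ) * √(n : ℝ) = n := Real.mul_self_sqrt (Nat.cast_nonneg n)
  rw [abs_mul, abs_of_pos (by positivity : 0 < 1 / (n * √(n : ℝ)))]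
  have h1 : ∀ p : Pair n, |dTau p (k + 2) g * symE (uM (k + 1) g * 1) p|
      ≤ (1 / (n * √(n : ℝ))) * (4 * (k + 2)) * oneN g ^ (2 * k + 2) := by
    intro p
    rw [abs_mul]
    have a1 := abs_dTau_le p (k + 1) g
    have a2 := abs_symE_le (uM (k + 1) g * 1) p
    rw [mul_one] at a2
    have a3 := norm_uM_le (k + 1) g
    have hO := pow_nonneg (oneN_pos g).le (k + 1)
    have a4 : |symE (uM (k + 1) g * 1) p| ≤ 2 * oneN g ^ (k + 1) := by
      rw [mul_one]
      linarith
    have e : (2 * k + 2 : ℕ) = (k + 1) + (k + 1) := by ring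
    rw [e, pow_add]
    push_cast at a1
    calc |dTau p (k + 2) g| * |symE (uM (k + 1) g * 1) p|
        ≤ ((1 / (n * √(n : ℝ))) * (((k : ℝ) + 1 + 1) * (2 * oneN g ^ (k + 1)))) * (2 * oneN g ^ (k + 1)) :=
          mul_le_mul a1 a4 (abs_nonneg _) (by positivity)
      _ = _ := by ring
  have h2 : |∑ p : Pair n, dTau p (k + 2) g * symE (uM (k + 1) g * 1) p|
      ≤ (n : ℝ) ^ 2 * ((1 / (n * √(n : ℝ))) * (4 * (k + 2)) * oneN g ^ (2 * k + 2)) := by
    refine (Finset.abs_sum_le_sum_abs _ _).trans ((Finset.sum_le_sum fun p _ => h1 p).trans ?_)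
    rw [Finset.sum_const, Finset.card_univ, nsmul_eq_mul]
    exact mul_le_mul_of_nonneg_right card_pair_le (by
      have := oneN_pos g
      positivity)
  calc (1 / (n * √(n : ℝ))) * |∑ p : Pair n, dTau p (k + 2) g * symE (uM (k + 1) g * 1) p|
      ≤ (1 / (n * √(n : ℝ))) * ((n : ℝ) ^ 2 * ((1 / (n * √(n : ℝ))) * (4 * (k + 2)) * oneN g ^ (2 * k + 2))) :=
        mul_le_mul_of_nonneg_left h2 (by positivity)
    _ = (4 * (k + 2) / n) * oneN g ^ (2 * k + 2) := by
        have : (n : ℝ) ^ 2 = n * (√(n : ℝ) * √(n : ℝ)) := by rw [hsq]; ring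
        rw [this]
        field_simp

omit [NeZero n] in
lemma tame_Rm {A B : (Pair n → ℝ) → Mat n} (tA : TameM A) (tB : TameM B) :
    Tame (fun g => Rm (A g) (B g)) := by
  unfold Rm
  exact (Tame.sum Finset.univ fun i _ => Tame.sum Finset.univ fun j _ =>
    (tA i j).mul (tB i j)).sub
      ((Tame.sum Finset.univ fun i _ => (tA i i).mul (tB i i)).const_mul 2)

omit [NeZero n] in
lemma tame_Rm_div {A B : (Pair n → ℝ) → Mat n} (tA : TameM A) (tB : TameM B) :
    Tame (fun g => Rm (A g) (B g) / (n : ℝ) ^ 2) := by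
  have := (tame_Rm tA tB).const_mul (1 / (n : ℝ) ^ 2)
  convert this using 2 with g
  ring

/-- Second moment of the normalised trace. -/
noncomputable def Tn (a n : ℕ) : ℝ := ∫ g, tauT a g ^ 2 ∂(gm (Pair n))

/-- Product of a normalised trace with a power of the majorant. -/
noncomputable def Pn (a m n : ℕ) : ℝ := ∫ g, |tauT a g| * oneN g ^ m ∂(gm (Pair n))

omit [NeZero n] in
lemma hM_const_one (g : Pair n → ℝ) (k : ℕ) :
    tM (fun _ : Pair n → ℝ => (1 : Mat n)) k g = tauT k g := by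
  simp [tM, tauT]

/-- The basic recursive bound for the second moments of traces. -/
theorem tau_core (k : ℕ) :
    Tn (k + 2) n ≤ ((3 * (k + 1) + 4 * (k + 2)) / n) * Cm (2 * k + 2)
      + ∑ x ∈ (Finset.HasAntidiagonal.antidiagonal k).erase (0, k), Pn x.1 (k + 2 + x.2) n := by
  have hn := nR_pos (n := n)
  have hrec := rec_succ (n := n) (φ := tauT (k + 2)) (φ' := fun p => dTau p (k + 2))
    (M := fun _ => 1) (dM := fun _ _ => 0)
    (fun p => hasPD_tauT p (k + 2)) (tame_tauT (k + 2)) (fun p => tame_dTau p (k + 2))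
    (fun p => HasPDM.const p 1) (TameM.const 1) (fun _ => TameM.const 0) k
  simp only [hM_const_one, Matrix.mul_zero] at hrec
  -- the two tame integrands
  have tE : Tame (fun g : Pair n → ℝ => tauT (k + 2) g ^ 2) := (tame_tauT (k + 2)).pow 2
  have tP : ∀ x : ℕ × ℕ, Tame (fun g : Pair n → ℝ => |tauT x.1 g| * oneN g ^ (k + 2 + x.2)) :=
    fun x => (tame_tauT x.1).abs.mul (tame_oneN_pow _)
  have tB : Tame (fun g : Pair n → ℝ => ((3 * (k + 1) + 4 * (k + 2)) / n) * oneN g ^ (2 * k + 2)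
      + ∑ x ∈ (Finset.HasAntidiagonal.antidiagonal k).erase (0, k),
          |tauT x.1 g| * oneN g ^ (k + 2 + x.2)) :=
    ((tame_oneN_pow _).const_mul _).add (Tame.sum _ fun x _ => tP x)
  have tS : ∀ p : Pair n, Tame (fun g => symE (uM (k + 1) g * 1) p) := fun p => by
    simp only [mul_one, symE]
    exact (tameM_uM (k + 1) _ _).add (tameM_uM (k + 1) _ _)
  have tR : Tame (fun g : Pair n → ℝ => (1 / (n * √(n : ℝ))) *
      ∑ p : Pair n, dTau p (k + 2) g * symE (uM (k + 1) g * 1) p) :=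
    (Tame.sum _ fun p _ => (tame_dTau p (k + 2)).mul (tS p)).const_mul _
  have tRm : ∀ x : ℕ × ℕ, Tame (fun g : Pair n → ℝ => Rm (uM x.1 g) (uM x.2 g * 1) / (n : ℝ) ^ 2) := by
    intro x
    exact tame_Rm_div (tameM_uM x.1) ((tameM_uM x.2).mul (TameM.const 1))
  -- the identity, moved around
  have e1 : Tn (k + 2) n = ∫ g, ((1 / (n * √(n : ℝ))) *
      ∑ p : Pair n, dTau p (k + 2) g * symE (uM (k + 1) g * 1) p
      + tauT (k + 2) g * (∑ x ∈ Finset.HasAntidiagonal.antidiagonal k, tauT x.1 g * tauT x.2 g - tauT k g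
        + ∑ x ∈ Finset.HasAntidiagonal.antidiagonal k, Rm (uM x.1 g) (uM x.2 g * 1) / (n : ℝ) ^ 2))
        ∂(gm (Pair n)) := by
    have t1 : Tame (fun g : Pair n → ℝ => tauT (k + 2) g * tauT k g) :=
      (tame_tauT (k + 2)).mul (tame_tauT k)
    have t2 : Tame (fun g : Pair n → ℝ => tauT (k + 2) g * (tauT (k + 2) g + tauT k g)) :=
      (tame_tauT (k + 2)).mul ((tame_tauT (k + 2)).add (tame_tauT k))
    have a1 : Tn (k + 2) n = ∫ g, tauT (k + 2) g * (tauT (k + 2) g + tauT k g) ∂(gm (Pair n))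
        - ∫ g, tauT (k + 2) g * tauT k g ∂(gm (Pair n)) := by
      rw [← integral_sub t2.integrable t1.integrable]
      unfold Tn
      refine integral_congr_ae (Filter.Eventually.of_forall fun g => ?_)
      simp only
      ring
    have t3 : Tame (fun g : Pair n → ℝ => (1 / (n * √(n : ℝ))) *
        ∑ p : Pair n, dTau p (k + 2) g * symE (uM (k + 1) g * 1) p
        + tauT (k + 2) g * (∑ x ∈ Finset.HasAntidiagonal.antidiagonal k,
            (tauT x.1 g * tauT x.2 g + Rm (uM x.1 g) (uM x.2 g * 1) / (n : ℝ) ^ 2)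
          + (1 / (n * √(n : ℝ))) * ∑ p : Pair n, symE (0 : Mat n) p)) := by
      refine tR.add ((tame_tauT (k + 2)).mul (Tame.add (Tame.sum _ fun x _ => ?_) (Tame.const _)))
      exact ((tame_tauT x.1).mul (tame_tauT x.2)).add (tRm x)
    rw [a1, hrec, ← integral_sub t3.integrable t1.integrable]
    refine integral_congr_ae (Filter.Eventually.of_forall fun g => ?_)
    simp only [symE, Matrix.zero_apply, add_zero, Finset.sum_const_zero, mul_zero, Finset.sum_add_distrib]
    ring
  rw [e1]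
  -- pointwise bound
  have hpt : ∀ g : Pair n → ℝ, ((1 / (n * √(n : ℝ))) *
      ∑ p : Pair n, dTau p (k + 2) g * symE (uM (k + 1) g * 1) p
      + tauT (k + 2) g * (∑ x ∈ Finset.HasAntidiagonal.antidiagonal k, tauT x.1 g * tauT x.2 g - tauT k g
        + ∑ x ∈ Finset.HasAntidiagonal.antidiagonal k, Rm (uM x.1 g) (uM x.2 g * 1) / (n : ℝ) ^ 2))
      ≤ ((3 * (k + 1) + 4 * (k + 2)) / n) * oneN g ^ (2 * k + 2)
        + ∑ x ∈ (Finset.HasAntidiagonal.antidiagonal k).erase (0, k),
            |tauT x.1 g| * oneN g ^ (k + 2 + x.2) := by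
    intro g
    have a1 := (le_abs_self _).trans (abs_D_tau_le k g)
    have hO := oneN_pos g
    have a2 := abs_tauT_le (k + 2) g
    rw [conv_erase (fun b => tauT b g) k g]
    have a3 : |∑ x ∈ (Finset.HasAntidiagonal.antidiagonal k).erase (0, k), tauT x.1 g * tauT x.2 g|
        ≤ ∑ x ∈ (Finset.HasAntidiagonal.antidiagonal k).erase (0, k), |tauT x.1 g| * oneN g ^ x.2 := by
      refine (Finset.abs_sum_le_sum_abs _ _).trans (Finset.sum_le_sum fun x _ => ?_)
      rw [abs_mul]
      exact mul_le_mul_of_nonneg_left (abs_tauT_le x.2 g) (abs_nonneg _)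
    have a4 := abs_sum_Rm_le (M := fun _ => 1) hM_one k g
    have a5 : |tauT (k + 2) g * ∑ x ∈ (Finset.HasAntidiagonal.antidiagonal k).erase (0, k), tauT x.1 g * tauT x.2 g|
        ≤ ∑ x ∈ (Finset.HasAntidiagonal.antidiagonal k).erase (0, k), |tauT x.1 g| * oneN g ^ (k + 2 + x.2) := by
      rw [abs_mul]
      calc |tauT (k + 2) g| * |∑ x ∈ (Finset.HasAntidiagonal.antidiagonal k).erase (0, k), tauT x.1 g * tauT x.2 g|
          ≤ oneN g ^ (k + 2) * ∑ x ∈ (Finset.HasAntidiagonal.antidiagonal k).erase (0, k), |tauT x.1 g| * oneN g ^ x.2 :=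
            mul_le_mul a2 a3 (abs_nonneg _) (by positivity)
        _ = _ := by
            rw [Finset.mul_sum]
            refine Finset.sum_congr rfl fun x _ => ?_
            rw [pow_add]; ring
    have a6 : |tauT (k + 2) g * ∑ x ∈ Finset.HasAntidiagonal.antidiagonal k, Rm (uM x.1 g) (uM x.2 g * 1) / (n : ℝ) ^ 2|
        ≤ (3 * (k + 1) / n) * oneN g ^ (2 * k + 2) := by
      rw [abs_mul]
      calc _ ≤ oneN g ^ (k + 2) * ((3 * (k + 1) / n) * oneN g ^ k) :=
            mul_le_mul a2 a4 (abs_nonneg _) (by positivity)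
        _ = _ := by
            have : 2 * k + 2 = (k + 2) + k := by ring
            rw [this, pow_add]; ring
    have e3 : (3 * ((k : ℝ) + 1) + 4 * (k + 2)) / n * oneN g ^ (2 * k + 2)
        = (3 * (k + 1) / n) * oneN g ^ (2 * k + 2) + (4 * (k + 2) / n) * oneN g ^ (2 * k + 2) := by
      field_simp
    rw [e3, mul_add]
    have a5' := (le_abs_self _).trans a5
    have a6' := (le_abs_self _).trans a6
    linarith
  have tI : Tame (fun g : Pair n → ℝ => ((1 / (n * √(n : ℝ))) *
      ∑ p : Pair n, dTau p (k + 2) g * symE (uM (k + 1) g * 1) p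
      + tauT (k + 2) g * (∑ x ∈ Finset.HasAntidiagonal.antidiagonal k, tauT x.1 g * tauT x.2 g - tauT k g
        + ∑ x ∈ Finset.HasAntidiagonal.antidiagonal k, Rm (uM x.1 g) (uM x.2 g * 1) / (n : ℝ) ^ 2))) := by
    refine tR.add ((tame_tauT (k + 2)).mul (((Tame.sum _ fun x _ => ?_).sub (tame_tauT k)).add
      (Tame.sum _ fun x _ => tRm x)))
    exact (tame_tauT x.1).mul (tame_tauT x.2)
  refine (integral_mono tI.integrable tB.integrable hpt).trans ?_
  rw [integral_add ((tame_oneN_pow _).const_mul _).integrable (Tame.sum _ fun x _ => tP x).integrable,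
    integral_const_mul, integral_finsetSum _ fun x _ => (tP x).integrable]
  refine add_le_add (mul_le_mul_of_nonneg_left (integral_oneN_pow_le _) (by positivity)) le_rfl

omit [NeZero n] in
lemma Tn_nonneg (a n : ℕ) : 0 ≤ Tn a n := integral_nonneg fun _ => sq_nonneg _

omit [NeZero n] in
lemma Pn_nonneg (a m n : ℕ) : 0 ≤ Pn a m n :=
  integral_nonneg fun g => mul_nonneg (abs_nonneg _) (pow_nonneg (oneN_pos g).le _)

lemma Pn_sq_le (a m : ℕ) : Pn a m n ^ 2 ≤ Tn a n * Cm (2 * m) := by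
  have h := sq_integral_mul_le (tame_tauT (n := n) a).abs (tame_oneN_pow (n := n) m)
  refine h.trans ?_
  have e1 : ∫ g : Pair n → ℝ, |tauT a g| ^ 2 ∂(gm (Pair n)) = Tn a n := by
    unfold Tn
    simp_rw [sq_abs]
  have e2 : ∫ g : Pair n → ℝ, (oneN g ^ m) ^ 2 ∂(gm (Pair n)) = ∫ g : Pair n → ℝ, oneN g ^ (2 * m) ∂(gm (Pair n)) := by
    refine integral_congr_ae (Filter.Eventually.of_forall fun g => ?_)
    simp only
    rw [← pow_mul, mul_comm]
  rw [e1, e2]
  exact mul_le_mul_of_nonneg_left (integral_oneN_pow_le _) (Tn_nonneg a n)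

omit [NeZero n] in
/-- `Pn` vanishes if `Tn` does. -/
lemma Pn_tendsto {a : ℕ} (h : Tendsto (Tn a) atTop (𝓝 0)) (m : ℕ) :
    Tendsto (Pn a m) atTop (𝓝 0) := by
  have h1 : Tendsto (fun n => √(Tn a n * Cm (2 * m))) atTop (𝓝 0) := by
    have := (h.mul_const (Cm (2 * m))).sqrt
    simpa using this
  refine squeeze_zero' (Filter.Eventually.of_forall fun n => Pn_nonneg a m n) ?_ h1
  filter_upwards [eventually_ge_atTop 1] with n hn
  have : NeZero n := ⟨by omega⟩
  exact Real.le_sqrt_of_sq_le (Pn_sq_le a m)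

/-- The normalised traces of Chebyshev polynomials vanish in `L²`. -/
theorem Tn_tendsto : ∀ a : ℕ, 1 ≤ a → Tendsto (Tn a) atTop (𝓝 0) := by
  intro a
  induction a using Nat.strong_induction_on with
  | _ a ih =>
    intro ha
    match a, ha, ih with
    | 1, _, _ =>
      have : Tn 1 = fun _ => 0 := by
        funext n
        unfold Tn
        simp [tauT_one]
      rw [this]
      exact tendsto_const_nhds
    | k + 2, _, ih =>
      have h1 : Tendsto (fun n : ℕ => ((3 * ((k : ℝ) + 1) + 4 * (k + 2)) / n) * Cm (2 * k + 2))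
          atTop (𝓝 0) := by
        have := (tendsto_const_div_atTop_nhds_zero_nat (3 * ((k : ℝ) + 1) + 4 * (k + 2))).mul_const
          (Cm (2 * k + 2))
        simpa using this
      have h2 : Tendsto (fun n : ℕ => ∑ x ∈ (Finset.HasAntidiagonal.antidiagonal k).erase (0, k),
          Pn x.1 (k + 2 + x.2) n) atTop (𝓝 0) := by
        have : (0 : ℝ) = ∑ x ∈ (Finset.HasAntidiagonal.antidiagonal k).erase (0, k), (0 : ℝ) := by simp
        rw [this]
        refine tendsto_finsetSum _ fun x hx => ?_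
        have hx' := mem_erase_fst_ne hx
        exact Pn_tendsto (ih x.1 (by omega) hx'.1) _
      have h3 := h1.add h2
      rw [add_zero] at h3
      refine squeeze_zero' (Filter.Eventually.of_forall fun n => Tn_nonneg _ n) ?_ h3
      filter_upwards [eventually_ge_atTop 1] with n hn
      have : NeZero n := ⟨by omega⟩
      exact tau_core k

end Vale.Agent.Lib.P150
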