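import Vale.Agent.Lib.P150.GibbsBounds

open MeasureTheory ProbabilityTheory Real Matrix
open scoped BigOperators Matrix.Norms.L2Operator

set_option linter.unusedSectionVars false

namespace Vale.Agent.Lib.P150

variable {n : ℕ}

lemma tame_ovl (β : ℝ) : Tame (ovl (n := n) β) := by
  have : Tame (fun g : Pair n → ℝ => (1 / (n : ℝ) ^ 2) * ∑ a, ∑ b, sgm β g a b * sgm β g a b) :=
    (Tame.sum _ fun a _ => Tame.sum _ fun b _ => (tameM_sgm β a b).mul (tameM_sgm β a b)).const_mul _
  convert this using 2 with g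
  unfold ovl
  simp only [sq]
  ring

/-- The derivative of the overlap. -/
noncomputable def dOvl (β : ℝ) (p : Pair n) (g : Pair n → ℝ) : ℝ :=
  (2 * (β / √(n : ℝ))) *
    ((∑ a, ∑ b, sgm β g a b * gam β p g a b) / n ^ 2 - ovl β g * sgm β g p.1.1 p.1.2)

lemma hasPD_ovl (β : ℝ) (p : Pair n) : HasPD p (ovl (n := n) β) (dOvl β p) := by
  have h1 : HasPD p (fun g : Pair n → ℝ => (1 / (n : ℝ) ^ 2) * ∑ a, ∑ b, sgm β g a b * sgm β g a b)
      (fun g => (1 / (n : ℝ) ^ 2) * ∑ a, ∑ b, (dSgm β p g a b * sgm β g a b + sgm β g a b * dSgm β p g a b)) :=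
    (HasPD.sum _ fun a _ => HasPD.sum _ fun b _ =>
      (hasPDM_sgm β p a b).mul (hasPDM_sgm β p a b)).const_mul _
  intro g
  have h2 := h1 g
  have e1 : (fun t => (1 / (n : ℝ) ^ 2) * ∑ a, ∑ b, sgm β (Function.update g p t) a b * sgm β (Function.update g p t) a b)
      = fun t => ovl β (Function.update g p t) := by
    funext t
    unfold ovl
    simp only [sq]
    ring
  rw [e1] at h2
  convert h2 using 1
  unfold dOvl ovl dSgm
  simp only [Matrix.smul_apply, Matrix.sub_apply, smul_eq_mul]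
  rw [mul_sub]
  have e2 : ∑ a, ∑ b, ((β / √(n : ℝ)) * (gam β p g a b - sgm β g p.1.1 p.1.2 * sgm β g a b) * sgm β g a b
        + sgm β g a b * ((β / √(n : ℝ)) * (gam β p g a b - sgm β g p.1.1 p.1.2 * sgm β g a b)))
      = (2 * (β / √(n : ℝ))) * (∑ a, ∑ b, sgm β g a b * gam β p g a b)
        - (2 * (β / √(n : ℝ))) * sgm β g p.1.1 p.1.2 * ∑ a, ∑ b, sgm β g a b ^ 2 := by
    simp only [Finset.mul_sum, ← Finset.sum_sub_distrib]
    exact Finset.sum_congr rfl fun a _ => Finset.sum_congr rfl fun b _ => by ring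
  rw [e2]
  ring

lemma tame_dOvl (β : ℝ) (p : Pair n) : Tame (dOvl (n := n) β p) := by
  have : Tame (fun g : Pair n → ℝ => (2 * (β / √(n : ℝ))) *
      ((1 / (n : ℝ) ^ 2) * (∑ a, ∑ b, sgm β g a b * gam β p g a b) - ovl β g * sgm β g p.1.1 p.1.2)) :=
    (((Tame.sum _ fun a _ => Tame.sum _ fun b _ =>
      (tameM_sgm β a b).mul (tameM_gam β p a b)).const_mul _).sub
        ((tame_ovl β).mul (tameM_sgm β _ _))).const_mul _
  convert this using 2 with g
  unfold dOvl
  ring

/-- The weight `exp (- X / δ)`. -/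
noncomputable def phiW (β δ : ℝ) (g : Pair n → ℝ) : ℝ := exp (-ovl β g / δ)

/-- The derivative of the weight. -/
noncomputable def dPhiW (β δ : ℝ) (p : Pair n) (g : Pair n → ℝ) : ℝ :=
  phiW β δ g * (-dOvl β p g / δ)

lemma hasPD_phiW (β δ : ℝ) (p : Pair n) : HasPD p (phiW (n := n) β δ) (dPhiW β δ p) := by
  have h1 := ((hasPD_ovl (n := n) β p).const_mul (-1 / δ)).exp'
  intro g
  have h2 := h1 g
  have e1 : (fun t => phiW β δ (Function.update g p t))
      = fun t => exp (-1 / δ * ovl β (Function.update g p t)) := by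
    funext t; unfold phiW; congr 1; ring
  have e3 : dPhiW β δ p g = exp (-1 / δ * ovl β g) * (-1 / δ * dOvl β p g) := by
    unfold dPhiW phiW
    have e2 : exp (-ovl β g / δ) = exp (-1 / δ * ovl β g) := by
      congr 1; ring
    rw [e2]; ring
  rw [e1, e3]
  exact h2

lemma phiW_pos (β δ : ℝ) (g : Pair n → ℝ) : 0 < phiW β δ g := exp_pos _

lemma phiW_le_one {β δ : ℝ} (hδ : 0 < δ) (g : Pair n → ℝ) : phiW β δ g ≤ 1 := by
  unfold phiW
  rw [Real.exp_le_one_iff]
  exact div_nonpos_of_nonpos_of_nonneg (neg_nonpos.2 (ovl_nonneg β g)) hδ.le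

lemma tame_phiW {β δ : ℝ} (hδ : 0 < δ) : Tame (phiW (n := n) β δ) := by
  refine Tame.of_bound ?_ 1 fun g => ?_
  · unfold phiW
    exact (((tame_ovl β).1.neg).div_const δ).rexp
  · rw [abs_of_pos (phiW_pos β δ g)]
    exact phiW_le_one hδ g

lemma tame_dPhiW {β δ : ℝ} (hδ : 0 < δ) (p : Pair n) : Tame (dPhiW (n := n) β δ p) := by
  refine (tame_phiW hδ).mul ?_
  have := (tame_dOvl (n := n) β p).const_mul (-1 / δ)
  convert this using 2 with g
  ring

/-- Elementary inequality. -/
lemma phi_mul_le {δ X : ℝ} (hδ : 0 < δ) (hX : 0 ≤ X) : exp (-X / δ) * X ≤ δ := by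
  have h1 := Real.add_one_le_exp (X / δ)
  have h2 : exp (-X / δ) * exp (X / δ) = 1 := by
    rw [← Real.exp_add]; simp [neg_div]
  have h3 : X / δ ≤ exp (X / δ) := by linarith
  have h4 := exp_pos (-X / δ)
  have h5 : exp (-X / δ) * (X / δ) ≤ 1 := by
    rw [← h2]; exact mul_le_mul_of_nonneg_left h3 h4.le
  have h6 : exp (-X / δ) * X = δ * (exp (-X / δ) * (X / δ)) := by
    field_simp
  rw [h6]
  nlinarith

/-- Elementary inequality. -/
lemma phi_mul_le' {δ X : ℝ} (hδ : 0 < δ) (hX : 0 ≤ X) :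
    exp (-X / δ) * (X * √X) / δ ≤ √δ := by
  set r := √(X / δ) with hr
  have hr0 : 0 ≤ r := Real.sqrt_nonneg _
  have hr2 : r ^ 2 = X / δ := Real.sq_sqrt (by positivity)
  have hsX : √X = √δ * r := by
    rw [hr, ← Real.sqrt_mul hδ.le]
    congr 1
    field_simp
  have hX' : X = δ * r ^ 2 := by
    rw [hr2]; field_simp
  have hexp : exp (-X / δ) = exp (-(r ^ 2)) := by
    congr 1
    rw [hr2]; ring
  rw [hsX, hexp]
  have h1 : r ^ 3 ≤ exp (r ^ 2) := by
    have := Real.quadratic_le_exp_of_nonneg (sq_nonneg r)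
    nlinarith [sq_nonneg (r * (1 - r)), sq_nonneg r, mul_nonneg hr0 hr0]
  have h2 : exp (-(r ^ 2)) * r ^ 3 ≤ 1 := by
    have : exp (-(r ^ 2)) * exp (r ^ 2) = 1 := by
      rw [← Real.exp_add]; simp
    rw [← this]
    exact mul_le_mul_of_nonneg_left h1 (exp_pos _).le
  have hsδ := Real.sqrt_nonneg δ
  have e : exp (-(r ^ 2)) * (X * (√δ * r)) / δ = √δ * (exp (-(r ^ 2)) * r ^ 3) := by
    rw [hX']; field_simp
  rw [e]
  nlinarith

/-- The derivative of the weight paired with `A Σ`. -/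
theorem abs_Dterm_le [NeZero n] {β δ : ℝ} (hβ : 0 ≤ β) (hδ : 0 < δ) (g : Pair n → ℝ) (A : Mat n) :
    |(1 / (n * √(n : ℝ))) * ∑ p : Pair n, dPhiW β δ p g * symE (A * sgm β g) p|
      ≤ 4 * β * √δ * ‖A‖ := by
  set Q := A * sgm β g with hQ
  set X := ovl β g with hX
  have hX0 : 0 ≤ X := ovl_nonneg β g
  have hn := nR_pos (n := n)
  have hs := sqrtn_pos (n := n)
  have hsq : √(n : ℝ) * √(n : ℝ) = n := Real.mul_self_sqrt (Nat.cast_nonneg n)
  -- the kernel
  let Z : Fin n → Fin n → ℝ := fun i j =>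
    gibbsMean β g (fun x => wt β g x * (spin x i * spin x j)) - X * sgm β g i j
  have hZsymm : ∀ i j, Z i j = Z j i := by
    intro i j
    simp only [Z]
    rw [sgm_symm β g j i]
    simp only [mul_comm (spin _ i)]
  have hZdiag : ∀ i, Z i i = 0 := by
    intro i
    simp only [Z]
    simp_rw [spin_mul_self, mul_one]
    rw [sgm_diag, gibbsMean_wt]
    simp [hX]
  have hdOvl : ∀ p : Pair n, dOvl β p g = (2 * (β / √(n : ℝ))) * Z p.1.1 p.1.2 := by
    intro p
    unfold dOvl
    congr 2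
    show _ = gibbsMean β g (fun x => wt β g x * pS p x)
    rw [gibbsMean_wt_mul β g (pS p)]
    rfl
  have hsum : ∑ p : Pair n, Z p.1.1 p.1.2 * symE Q p
      = gibbsMean β g (fun x => wt β g x * qf Q x) - X * gibbsMean β g (qf Q) := by
    let F : Fin n → Fin n → ℝ := fun i j => Z i j * Q j i
    have e1 : ∀ p : Pair n, Z p.1.1 p.1.2 * symE Q p = F p.1.1 p.1.2 + F p.1.2 p.1.1 := by
      intro p
      simp only [F, symE]
      rw [hZsymm p.1.2 p.1.1]
      ring
    simp_rw [e1]
    rw [← sum_offdiag]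
    have h0 := sum_full F
    have hd : ∑ i, F i i = 0 := by
      refine Finset.sum_eq_zero fun i _ => ?_
      simp only [F, hZdiag]; ring
    rw [hd, add_zero] at h0
    rw [← h0]
    have e2 : ∀ x : Conf n, qf Q x = ∑ i, ∑ j, (spin x i * spin x j) * Q j i := by
      intro x
      rw [qf_eq, Finset.sum_comm]
      exact Finset.sum_congr rfl fun i _ => Finset.sum_congr rfl fun j _ => by ring
    have e3 : gibbsMean β g (qf Q) = ∑ i, ∑ j, sgm β g i j * Q j i := by
      have : qf Q = fun x => ∑ i, ∑ j, (spin x i * spin x j) * Q j i := funext e2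
      rw [this, gibbsMean_sum]
      refine Finset.sum_congr rfl fun i _ => ?_
      rw [gibbsMean_sum]
      refine Finset.sum_congr rfl fun j _ => ?_
      have := gibbsMean_const_mul β g (Q j i) (fun x => spin x i * spin x j)
      simp only [mul_comm (Q j i)] at this
      rw [this, sgm_apply]
    have e4 : gibbsMean β g (fun x => wt β g x * qf Q x)
        = ∑ i, ∑ j, gibbsMean β g (fun x => wt β g x * (spin x i * spin x j)) * Q j i := by
      have : (fun x => wt β g x * qf Q x)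
          = fun x => ∑ i, ∑ j, (wt β g x * (spin x i * spin x j)) * Q j i := by
        funext x
        rw [e2, Finset.mul_sum]
        refine Finset.sum_congr rfl fun i _ => ?_
        rw [Finset.mul_sum]
        exact Finset.sum_congr rfl fun j _ => by ring
      rw [this, gibbsMean_sum]
      refine Finset.sum_congr rfl fun i _ => ?_
      rw [gibbsMean_sum]
      refine Finset.sum_congr rfl fun j _ => ?_
      have := gibbsMean_const_mul β g (Q j i) (fun x => wt β g x * (spin x i * spin x j))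
      simp only [mul_comm (Q j i)] at this
      rw [this]
    rw [e3, e4, Finset.mul_sum, ← Finset.sum_sub_distrib]
    refine Finset.sum_congr rfl fun i _ => ?_
    rw [Finset.mul_sum, ← Finset.sum_sub_distrib]
    refine Finset.sum_congr rfl fun j _ => ?_
    simp only [F, Z]
    ring
  -- bound of the kernel sum
  set B := ‖A‖ * ((n : ℝ) ^ 2 * √X) with hB
  have hB0 : 0 ≤ B := by positivity
  have hq : ∀ x, |qf Q x| ≤ B := fun x => abs_qf_mul_sgm_le β g A x
  have hk : |∑ p : Pair n, Z p.1.1 p.1.2 * symE Q p| ≤ 2 * (B * X) := by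
    rw [hsum]
    have a1 : |gibbsMean β g (fun x => wt β g x * qf Q x)| ≤ B * X := by
      have u1 : gibbsMean β g (fun x => wt β g x * qf Q x)
          ≤ gibbsMean β g (fun x => B * wt β g x) :=
        gibbsMean_mono β g fun x => by
          have := wt_nonneg β g x
          have := (abs_le.1 (hq x)).2
          nlinarith
      have u2 : gibbsMean β g (fun x => -(B * wt β g x))
          ≤ gibbsMean β g (fun x => wt β g x * qf Q x) :=
        gibbsMean_mono β g fun x => by
          have := wt_nonneg β g x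
          have := (abs_le.1 (hq x)).1
          nlinarith
      have u3 : gibbsMean β g (fun x => B * wt β g x) = B * X := by
        rw [gibbsMean_const_mul]
        congr 1
        exact gibbsMean_wt β g
      have u4 : gibbsMean β g (fun x => -(B * wt β g x)) = -(B * X) := by
        have : (fun x => -(B * wt β g x)) = fun x => (-B) * wt β g x := by
          funext x; ring
        rw [this, gibbsMean_const_mul]
        rw [show gibbsMean β g (wt β g) = X from gibbsMean_wt β g]
        ring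
      rw [u4] at u2
      rw [u3] at u1
      exact abs_le.2 ⟨u2, u1⟩
    have a2 : |gibbsMean β g (qf Q)| ≤ B := abs_gibbsMean_le β g hq
    have a3 : |X * gibbsMean β g (qf Q)| ≤ B * X := by
      rw [abs_mul, abs_of_nonneg hX0, mul_comm]
      exact mul_le_mul_of_nonneg_right a2 hX0
    calc _ ≤ |gibbsMean β g (fun x => wt β g x * qf Q x)| + |X * gibbsMean β g (qf Q)| := abs_sub _ _
      _ ≤ _ := by linarith
  -- assemble
  have e : (1 / (n * √(n : ℝ))) * ∑ p : Pair n, dPhiW β δ p g * symE Q p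
      = -(2 * β * phiW β δ g / (δ * (n : ℝ) ^ 2)) * ∑ p : Pair n, Z p.1.1 p.1.2 * symE Q p := by
    rw [Finset.mul_sum, Finset.mul_sum]
    refine Finset.sum_congr rfl fun p _ => ?_
    unfold dPhiW
    rw [hdOvl]
    have hs' := hs.ne'
    have hn' := hn.ne'
    have hδ' := hδ.ne'
    have : (n : ℝ) ^ 2 = n * (√(n : ℝ) * √(n : ℝ)) := by rw [hsq]; ring
    rw [this]
    field_simp
  rw [e, abs_mul, abs_neg, abs_of_nonneg (by
    have := phiW_pos β δ g
    positivity : 0 ≤ 2 * β * phiW β δ g / (δ * (n : ℝ) ^ 2))]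
  have hφ : phiW β δ g * (X * √X) / δ ≤ √δ := phi_mul_le' hδ hX0
  have hA := norm_nonneg A
  have hφ0 := phiW_pos β δ g
  calc 2 * β * phiW β δ g / (δ * (n : ℝ) ^ 2) * |∑ p : Pair n, Z p.1.1 p.1.2 * symE Q p|
      ≤ 2 * β * phiW β δ g / (δ * (n : ℝ) ^ 2) * (2 * (B * X)) :=
        mul_le_mul_of_nonneg_left hk (by positivity)
    _ = 4 * β * ‖A‖ * (phiW β δ g * (X * √X) / δ) := by
        rw [hB]
        field_simp
        ring
    _ ≤ 4 * β * ‖A‖ * √δ := mul_le_mul_of_nonneg_left hφ (by positivity)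
    _ = _ := by ring

/-- The weight against `tr(A Σ²)`. -/
theorem abs_phi_trace_sq_le [NeZero n] {β δ : ℝ} (hδ : 0 < δ) (g : Pair n → ℝ) (A : Mat n) :
    phiW β δ g * (|Matrix.trace (A * sgm β g * sgm β g)| / n ^ 2) ≤ δ * ‖A‖ := by
  have hn := nR_pos (n := n)
  have h1 := abs_trace_mul_sgm_sq_le β g A
  have hφ := phi_mul_le hδ (ovl_nonneg β g)
  have hA := norm_nonneg A
  have h2 : |Matrix.trace (A * sgm β g * sgm β g)| / n ^ 2 ≤ ‖A‖ * ovl β g := by
    rw [div_le_iff₀ (by positivity)]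
    calc _ ≤ _ := h1
      _ = _ := by ring
  calc phiW β δ g * (|Matrix.trace (A * sgm β g * sgm β g)| / n ^ 2)
      ≤ phiW β δ g * (‖A‖ * ovl β g) :=
        mul_le_mul_of_nonneg_left h2 (phiW_pos β δ g).le
    _ = ‖A‖ * (exp (-ovl β g / δ) * ovl β g) := by
        unfold phiW; ring
    _ ≤ ‖A‖ * δ := mul_le_mul_of_nonneg_left hφ hA
    _ = _ := by ring

end Vale.Agent.Lib.P150
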