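import Vale.Agent.Lib.P150.MatNorm
import Vale.Agent.Lib.P150.Conc

open MeasureTheory ProbabilityTheory Real Matrix
open scoped BigOperators Matrix.Norms.L2Operator

set_option linter.unusedSectionVars false

namespace Vale.Agent.Lib.P150

variable {n : ℕ}

lemma sq_sum_eq_one {v : Fin n → ℝ} (h : elen v = 1) : ∑ i, v i ^ 2 = 1 := by
  unfold elen at h
  have := Real.sq_sqrt (Finset.sum_nonneg fun i (_ : i ∈ Finset.univ) => sq_nonneg (v i))
  rw [h] at this
  linarith

/-- Quadratic form of `xm`. -/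
lemma quad_xm (g : Pair n → ℝ) (u : Fin n → ℝ) :
    ∑ i, u i * (xm g *ᵥ u) i = ∑ p : Pair n, (2 / √(n : ℝ)) * u p.1.1 * u p.1.2 * g p := by
  have e : ∑ i, u i * (xm g *ᵥ u) i = ∑ i, ∑ j, xm g i j * (u i * u j) := by
    refine Finset.sum_congr rfl fun i _ => ?_
    show u i * ∑ j, xm g i j * u j = _
    rw [Finset.mul_sum]
    exact Finset.sum_congr rfl fun j _ => by ring
  rw [e, sum_xm_mul]
  refine Finset.sum_congr rfl fun p _ => ?_
  ring

/-- The Gaussian process on a set of vectors. -/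
noncomputable def procX (ε : ℝ) (t : Finset (Fin n → ℝ)) (u : t) (p : Pair n) : ℝ :=
  ε * ((2 / √(n : ℝ)) * (u : Fin n → ℝ) p.1.1 * (u : Fin n → ℝ) p.1.2)

/-- The comparison process. -/
noncomputable def procY (t : Finset (Fin n → ℝ)) (u : t) (i : Fin n) : ℝ :=
  (2 / √(n : ℝ)) * (u : Fin n → ℝ) i

lemma lin_procX (ε : ℝ) (t : Finset (Fin n → ℝ)) (g : Pair n → ℝ) (u : t) :
    lin (procX ε t) g u = ε * ∑ i, (u : Fin n → ℝ) i * (xm g *ᵥ (u : Fin n → ℝ)) i := by
  rw [quad_xm]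
  unfold lin procX
  rw [Finset.mul_sum]
  exact Finset.sum_congr rfl fun p _ => by ring

/-- Half of the off-diagonal sum for a symmetric function. -/
lemma sum_pair_symm (F : Fin n → Fin n → ℝ) (hF : ∀ i j, F i j = F j i) :
    2 * ∑ p : Pair n, F p.1.1 p.1.2 = ∑ i, ∑ j, F i j - ∑ i, F i i := by
  rw [sum_full F, add_sub_cancel_right, sum_offdiag, two_mul, ← Finset.sum_add_distrib]
  refine Finset.sum_congr rfl fun p _ => ?_
  rw [hF p.1.2 p.1.1]

lemma sum_mul_sum_eq (a : Fin n → ℝ) : ∑ i, ∑ j, a i * a j = (∑ i, a i) ^ 2 := by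
  rw [sq, Finset.sum_mul_sum]

lemma dot_sq_le {u v : Fin n → ℝ} (hu : elen u = 1) (hv : elen v = 1) :
    (∑ i, u i * v i) ^ 2 ≤ 1 := by
  have := Finset.sum_mul_sq_le_sq_mul_sq Finset.univ u v
  rw [sq_sum_eq_one hu, sq_sum_eq_one hv] at this
  linarith

variable [NeZero n]

lemma sqrtn_pos : 0 < √(n : ℝ) :=
  Real.sqrt_pos.2 (by exact_mod_cast (NeZero.pos n))

lemma sq_sqrtn : √(n : ℝ) ^ 2 = n := Real.sq_sqrt (by positivity)

lemma procX_cov {ε : ℝ} (hε : ε ^ 2 = 1) {t : Finset (Fin n → ℝ)}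
    (ht : ∀ u ∈ t, elen u = 1) (u v : t) :
    ∑ p, procX ε t u p * procX ε t v p ≤ 2 / (n : ℝ) := by
  have hnn : (0 : ℝ) < n := by exact_mod_cast (NeZero.pos n)
  let a : Fin n → ℝ := fun i => (u : Fin n → ℝ) i * (v : Fin n → ℝ) i
  have e : ∑ p, procX ε t u p * procX ε t v p = (4 / (n : ℝ)) * ∑ p : Pair n, a p.1.1 * a p.1.2 := by
    rw [Finset.mul_sum]
    refine Finset.sum_congr rfl fun p _ => ?_
    unfold procX
    simp only [a]
    have : (4 / (n : ℝ)) = ε ^ 2 * (2 / √(n : ℝ)) ^ 2 := by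
      rw [hε, div_pow, sq_sqrtn]; norm_num
    rw [this]
    ring
  rw [e]
  have h2 := sum_pair_symm (fun i j => a i * a j) (fun i j => mul_comm _ _)
  rw [sum_mul_sum_eq] at h2
  have h3 : 0 ≤ ∑ i, a i * a i := Finset.sum_nonneg fun i _ => mul_self_nonneg _
  have h4 := dot_sq_le (ht u u.2) (ht v v.2)
  have h5 : ∑ p : Pair n, a p.1.1 * a p.1.2 ≤ 1 / 2 := by
    have : (∑ i, a i) ^ 2 ≤ 1 := h4
    linarith
  calc (4 / (n : ℝ)) * ∑ p : Pair n, a p.1.1 * a p.1.2 ≤ (4 / (n : ℝ)) * (1 / 2) :=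
        mul_le_mul_of_nonneg_left h5 (by positivity)
    _ = _ := by ring

lemma proc_compare {ε : ℝ} (hε : ε ^ 2 = 1) {t : Finset (Fin n → ℝ)}
    (ht : ∀ u ∈ t, elen u = 1) (u v : t) :
    ∑ p, (procX ε t u p - procX ε t v p) ^ 2 ≤ ∑ i, (procY t u i - procY t v i) ^ 2 := by
  have hnn : (0 : ℝ) < n := by exact_mod_cast (NeZero.pos n)
  set uu : Fin n → ℝ := (u : Fin n → ℝ)
  set vv : Fin n → ℝ := (v : Fin n → ℝ)
  have hu := sq_sum_eq_one (ht u u.2)
  have hv := sq_sum_eq_one (ht v v.2)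
  let F : Fin n → Fin n → ℝ := fun i j => (uu i * uu j - vv i * vv j) ^ 2
  have e1 : ∑ p, (procX ε t u p - procX ε t v p) ^ 2 = (4 / (n : ℝ)) * ∑ p : Pair n, F p.1.1 p.1.2 := by
    rw [Finset.mul_sum]
    refine Finset.sum_congr rfl fun p _ => ?_
    unfold procX
    simp only [F]
    have : (4 / (n : ℝ)) = ε ^ 2 * (2 / √(n : ℝ)) ^ 2 := by
      rw [hε, div_pow, sq_sqrtn]; norm_num
    rw [this]
    ring
  have e2 : ∑ i, (procY t u i - procY t v i) ^ 2 = (4 / (n : ℝ)) * ∑ i, (uu i - vv i) ^ 2 := by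
    rw [Finset.mul_sum]
    refine Finset.sum_congr rfl fun i _ => ?_
    unfold procY
    have : (4 / (n : ℝ)) = (2 / √(n : ℝ)) ^ 2 := by
      rw [div_pow, sq_sqrtn]; norm_num
    rw [this]
    ring
  rw [e1, e2]
  refine mul_le_mul_of_nonneg_left ?_ (by positivity)
  set c := ∑ i, uu i * vv i with hc
  have h2 := sum_pair_symm F (fun i j => by simp only [F]; ring)
  have h3 : 0 ≤ ∑ i, F i i := Finset.sum_nonneg fun i _ => sq_nonneg _
  have h4 : ∑ i, ∑ j, F i j = 2 - 2 * c ^ 2 := by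
    have : ∀ i j, F i j = (uu i ^ 2 * uu j ^ 2) + (vv i ^ 2 * vv j ^ 2)
        - 2 * ((uu i * vv i) * (uu j * vv j)) := fun i j => by simp only [F]; ring
    have s1 : ∑ i, ∑ j, F i j = (∑ i, ∑ j, uu i ^ 2 * uu j ^ 2) + (∑ i, ∑ j, vv i ^ 2 * vv j ^ 2)
        - 2 * (∑ i, ∑ j, (uu i * vv i) * (uu j * vv j)) := by
      simp only [Finset.mul_sum, ← Finset.sum_add_distrib, ← Finset.sum_sub_distrib]
      exact Finset.sum_congr rfl fun i _ => Finset.sum_congr rfl fun j _ => this i j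
    rw [s1, sum_mul_sum_eq (fun i => uu i ^ 2), sum_mul_sum_eq (fun i => vv i ^ 2), hu, hv,
      sum_mul_sum_eq (fun i => uu i * vv i)]
    ring
  have h5 : ∑ i, (uu i - vv i) ^ 2 = 2 - 2 * c := by
    have : ∀ i, (uu i - vv i) ^ 2 = uu i ^ 2 + vv i ^ 2 - 2 * (uu i * vv i) := fun i => by ring
    simp_rw [this]
    rw [Finset.sum_sub_distrib, Finset.sum_add_distrib, hu, hv, ← Finset.mul_sum]
    ring
  rw [h5]
  nlinarith [sq_nonneg (1 - c)]

/-- Second moment of a coordinate. -/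
lemma integral_coord_sq {ι : Type*} [Fintype ι] [DecidableEq ι] (p : ι) :
    ∫ g : ι → ℝ, g p * g p ∂(gm ι) = 1 := by
  have hD : HasPD p (fun g : ι → ℝ => g p) (fun _ => 1) := by
    intro g
    simp only [Function.update_self]
    exact hasDerivAt_id' _
  rw [gauss_ibp (Tame.coord p) (Tame.const 1) hD]
  simp

lemma integral_smax_procY {t : Finset (Fin n → ℝ)} (ht : ∀ u ∈ t, elen u = 1) [Nonempty t]
    {s : ℝ} (hs : 0 < s) :
    ∫ h, smax s (lin (procY t) h) ∂(gm (Fin n)) ≤ 2 + log (Fintype.card t) / s := by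
  have hnn : (0 : ℝ) < n := by exact_mod_cast (NeZero.pos n)
  have hpt : ∀ h : Fin n → ℝ, smax s (lin (procY t) h)
      ≤ (1 + (∑ i, h i * h i) / n) + log (Fintype.card t) / s := by
    intro h
    refine smax_le hs _ _ fun u => ?_
    have e : lin (procY t) h u = (2 / √(n : ℝ)) * ∑ i, (u : Fin n → ℝ) i * h i := by
      unfold lin procY
      rw [Finset.mul_sum]
      exact Finset.sum_congr rfl fun i _ => by ring
    rw [e]
    have h1 := abs_dot_le (u : Fin n → ℝ) h
    rw [ht u u.2, one_mul] at h1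
    have h2 := (le_abs_self _).trans h1
    have hsq : elen h ^ 2 = ∑ i, h i * h i := by
      unfold elen
      rw [Real.sq_sqrt (Finset.sum_nonneg fun _ _ => sq_nonneg _)]
      exact Finset.sum_congr rfl fun i _ => by ring
    have hr := sqrtn_pos (n := n)
    have h3 : (2 / √(n : ℝ)) * elen h ≤ 1 + (∑ i, h i * h i) / n := by
      rw [← hsq]
      have e2 : elen h ^ 2 / (n : ℝ) = (elen h / √(n : ℝ)) ^ 2 := by
        rw [div_pow, sq_sqrtn]
      rw [e2]
      have : (2 / √(n : ℝ)) * elen h = 2 * (elen h / √(n : ℝ)) := by ring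
      rw [this]
      nlinarith [sq_nonneg (elen h / √(n : ℝ) - 1)]
    have h4 := mul_le_mul_of_nonneg_left h2 (by positivity : 0 ≤ 2 / √(n : ℝ))
    linarith
  have tR : Tame (fun h : Fin n → ℝ => (1 + (∑ i, h i * h i) / n) + log (Fintype.card t) / s) := by
    refine ((Tame.const 1).add ?_).add (Tame.const _)
    have : (fun h : Fin n → ℝ => (∑ i, h i * h i) / n)
        = fun h => (1 / (n : ℝ)) * ∑ i, h i * h i := by
      funext h; ring
    rw [this]
    exact (Tame.sum _ fun i _ => (Tame.coord i).mul (Tame.coord i)).const_mul _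
  have tL : Tame (fun h : Fin n → ℝ => smax s (lin (procY t) h)) := (tame_smax hs).comp_lin _
  refine (integral_mono tL.integrable tR.integrable hpt).trans ?_
  have e3 : ∫ h : Fin n → ℝ, (1 + (∑ i, h i * h i) / n) + log (Fintype.card t) / s ∂(gm (Fin n))
      = 2 + log (Fintype.card t) / s := by
    have t1 : Tame (fun h : Fin n → ℝ => (∑ i, h i * h i) / n) := by
      have : (fun h : Fin n → ℝ => (∑ i, h i * h i) / n)
          = fun h => (1 / (n : ℝ)) * ∑ i, h i * h i := by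
        funext h; ring
      rw [this]
      exact (Tame.sum _ fun i _ => (Tame.coord i).mul (Tame.coord i)).const_mul _
    rw [integral_add ((Tame.const 1).add t1).integrable (integrable_const _),
      integral_add (integrable_const _) t1.integrable]
    rw [integral_div, integral_finsetSum _ fun i _ => ((Tame.coord i).mul (Tame.coord i)).integrable]
    simp_rw [integral_coord_sq]
    simp
    field_simp
    ring
  rw [e3]

/-- Mean of the soft maximum of the quadratic form. -/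
theorem integral_smax_procX {ε : ℝ} (hε : ε ^ 2 = 1) {t : Finset (Fin n → ℝ)}
    (ht : ∀ u ∈ t, elen u = 1) [Nonempty t] {s : ℝ} (hs : 0 < s) :
    ∫ g, smax s (lin (procX ε t) g) ∂(gm (Pair n)) ≤ 2 + log (Fintype.card t) / s :=
  (sf_compare hs (procX ε t) (procY t) (proc_compare hε ht)).trans (integral_smax_procY ht hs)

/-- Exponential moments of the soft maximum of the quadratic form. -/
theorem mgf_smax_procX {ε : ℝ} (hε : ε ^ 2 = 1) {t : Finset (Fin n → ℝ)}
    (ht : ∀ u ∈ t, elen u = 1) [Nonempty t] {s : ℝ} (hs : 0 < s) {θ : ℝ} (hθ : 0 ≤ θ) :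
    ∫ g, exp (θ * smax s (lin (procX ε t) g)) ∂(gm (Pair n))
      ≤ exp (θ * (2 + log (Fintype.card t) / s) + θ ^ 2 * (2 / (n : ℝ))) := by
  refine (mgf_bound hs (procX ε t) (procX_cov hε ht)
    (fun u v => Finset.sum_congr rfl fun p _ => mul_comm _ _) θ).trans (exp_le_exp.2 ?_)
  have := mul_le_mul_of_nonneg_left (integral_smax_procX hε ht hs) hθ
  linarith

omit [NeZero n] in
lemma xm_isHermitian (g : Pair n → ℝ) : (xm g).IsHermitian := by
  ext i j
  simp [Matrix.conjTranspose_apply, xm_symm g j i]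

/-- A finite net of the unit sphere. -/
theorem exists_net {η : ℝ} (hη : 0 < η) :
    ∃ t : Finset (Fin n → ℝ), (∀ u ∈ t, elen u = 1) ∧ t.Nonempty ∧
      ∀ v : Fin n → ℝ, elen v = 1 → ∃ u ∈ t, elen (fun i => v i - u i) ≤ η := by
  classical
  have hK : IsCompact (Metric.sphere (0 : EuclideanSpace ℝ (Fin n)) 1) := isCompact_sphere _ _
  obtain ⟨K, hKs, hKf, hcov⟩ := hK.finite_cover_balls hη
  let t : Finset (Fin n → ℝ) := hKf.toFinset.image fun x => (x.ofLp : Fin n → ℝ)
  refine ⟨t, ?_, ?_, ?_⟩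
  · intro u hu
    simp only [t, Finset.mem_image, Set.Finite.mem_toFinset] at hu
    obtain ⟨x, hx, rfl⟩ := hu
    have := hKs hx
    rw [mem_sphere_zero_iff_norm] at this
    rw [← norm_toLp]
    simpa using this
  · -- the sphere is nonempty
    have i0 : Fin n := ⟨0, NeZero.pos n⟩
    have hv : (WithLp.toLp 2 (Pi.single i0 (1 : ℝ)) : EuclideanSpace ℝ (Fin n)) ∈
        Metric.sphere (0 : EuclideanSpace ℝ (Fin n)) 1 := by
      rw [mem_sphere_zero_iff_norm, norm_toLp, elen_single]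
    obtain ⟨x, hx⟩ := Set.mem_iUnion.1 (hcov hv)
    obtain ⟨hxK, -⟩ := Set.mem_iUnion.1 hx
    exact ⟨x.ofLp, Finset.mem_image.2 ⟨x, hKf.mem_toFinset.2 hxK, rfl⟩⟩
  · intro v hv
    have hv' : (WithLp.toLp 2 v : EuclideanSpace ℝ (Fin n)) ∈
        Metric.sphere (0 : EuclideanSpace ℝ (Fin n)) 1 := by
      rw [mem_sphere_zero_iff_norm, norm_toLp, hv]
    obtain ⟨x, hx⟩ := Set.mem_iUnion.1 (hcov hv')
    obtain ⟨hxK, hxb⟩ := Set.mem_iUnion.1 hx
    refine ⟨x.ofLp, Finset.mem_image.2 ⟨x, hKf.mem_toFinset.2 hxK, rfl⟩, ?_⟩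
    rw [Metric.mem_ball, dist_eq_norm] at hxb
    have e : WithLp.toLp 2 v - x = WithLp.toLp 2 (fun i => v i - x.ofLp i) := by
      ext i; simp
    rw [e, norm_toLp] at hxb
    exact hxb.le

omit [NeZero n] in
/-- The operator norm from the quadratic form on a net. -/
theorem norm_le_of_net {A : Mat n} (hA : A.IsHermitian) {η M : ℝ} (hM : 0 ≤ M)
    {t : Finset (Fin n → ℝ)} (ht : ∀ u ∈ t, elen u = 1)
    (hnet : ∀ v : Fin n → ℝ, elen v = 1 → ∃ u ∈ t, elen (fun i => v i - u i) ≤ η)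
    (hq : ∀ u ∈ t, |∑ i, u i * (A *ᵥ u) i| ≤ M) : (1 - 2 * η) * ‖A‖ ≤ M := by
  have hN := norm_nonneg A
  have key : ‖A‖ ≤ M + 2 * η * ‖A‖ := by
    by_cases hη : 0 ≤ η
    · refine norm_le_of_quad hA (by positivity) fun v hv => ?_
      obtain ⟨u, hu, huv⟩ := hnet v hv
      have hu1 := ht u hu
      set w : Fin n → ℝ := fun i => v i - u i with hw
      have e : ∑ k, v k * (A *ᵥ v) k = ∑ k, u k * (A *ᵥ u) k + ∑ k, w k * (A *ᵥ v) k
          + ∑ k, u k * (A *ᵥ w) k := by
        have h1 : v = fun i => u i + w i := by funext i; simp [w]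
        have h2 : A *ᵥ v = A *ᵥ u + A *ᵥ w := by
          rw [← Matrix.mulVec_add]
          congr 1
        have h3 : ∀ k, v k = u k + w k := fun k => by simp [w]
        rw [h2]
        simp only [Pi.add_apply]
        rw [← Finset.sum_add_distrib, ← Finset.sum_add_distrib]
        refine Finset.sum_congr rfl fun k _ => ?_
        rw [h3 k]
        ring
      rw [e]
      have b1 := hq u hu
      have b2 := abs_bilin_le A w v
      have b3 := abs_bilin_le A u w
      rw [hv, mul_one] at b2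
      rw [hu1, one_mul] at b3
      have b4 : ‖A‖ * elen w ≤ ‖A‖ * η := mul_le_mul_of_nonneg_left huv hN
      calc |∑ k, u k * (A *ᵥ u) k + ∑ k, w k * (A *ᵥ v) k + ∑ k, u k * (A *ᵥ w) k|
          ≤ |∑ k, u k * (A *ᵥ u) k| + |∑ k, w k * (A *ᵥ v) k| + |∑ k, u k * (A *ᵥ w) k| :=
            abs_add_three _ _ _
        _ ≤ M + ‖A‖ * elen w + ‖A‖ * elen w := by linarith
        _ ≤ _ := by linarith
    · -- η negative: no unit vector can be this close, so there are no unit vectors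
      have hempty : ∀ v : Fin n → ℝ, elen v ≠ 1 := by
        intro v hv
        obtain ⟨u, _, huv⟩ := hnet v hv
        exact hη ((elen_nonneg _).trans huv)
      have : ‖A‖ ≤ 0 := by
        refine norm_le_of_quad hA le_rfl fun v hv => absurd hv (hempty v)
      have : ‖A‖ = 0 := le_antisymm this hN
      rw [this]; linarith
  linarith

/-- `xm` has `Tame` operator norm. -/
theorem tame_norm_xm : Tame (fun g : Pair n → ℝ => ‖xm g‖) := by
  have hc : Continuous (fun g : Pair n → ℝ => xm g) := by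
    refine continuous_pi fun i => continuous_pi fun j => ?_
    simp only [xm, Matrix.of_apply]
    split_ifs <;> fun_prop
  have hc' : Continuous (fun g : Pair n → ℝ => ‖xm g‖) := continuous_norm.comp hc
  have hr := sqrtn_pos (n := n)
  have hr1 : 1 ≤ √(n : ℝ) := by
    rw [Real.one_le_sqrt]
    exact_mod_cast (NeZero.pos n)
  have t1 : Tame (fun g : Pair n → ℝ => (n : ℝ) ^ 2 * ∑ p, |g p|) := Tame.S.const_mul _
  refine Tame.mono hc' t1 fun g => ?_
  rw [abs_norm]
  refine le_trans ?_ (le_abs_self _)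
  refine (norm_le_sum_abs (xm g)).trans ?_
  have hS : 0 ≤ ∑ p, |g p| := Finset.sum_nonneg fun _ _ => abs_nonneg _
  have hent : ∀ i j, |xm g i j| ≤ ∑ p, |g p| := by
    intro i j
    rcases lt_trichotomy i j with h | h | h
    · have : xm g i j = g ⟨(i, j), h⟩ / √(n : ℝ) := xm_pair g ⟨(i, j), h⟩
      rw [this, abs_div, abs_of_pos hr]
      refine (div_le_self (abs_nonneg _) hr1).trans ?_
      exact Finset.single_le_sum (f := fun p => |g p|) (fun _ _ => abs_nonneg _) (Finset.mem_univ _)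
    · subst h; rw [xm_diag]; simpa using hS
    · have : xm g j i = g ⟨(j, i), h⟩ / √(n : ℝ) := xm_pair g ⟨(j, i), h⟩
      rw [xm_symm, this, abs_div, abs_of_pos hr]
      refine (div_le_self (abs_nonneg _) hr1).trans ?_
      exact Finset.single_le_sum (f := fun p => |g p|) (fun _ _ => abs_nonneg _) (Finset.mem_univ _)
  calc ∑ i, ∑ j, |xm g i j| ≤ ∑ _i : Fin n, ∑ _j : Fin n, ∑ p, |g p| :=
        Finset.sum_le_sum fun i _ => Finset.sum_le_sum fun j _ => hent i j
    _ = _ := by simp; ring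

/-- Quadratic form versus the soft maxima. -/
lemma abs_quad_le_max {t : Finset (Fin n → ℝ)} [Nonempty t] {s : ℝ} (hs : 0 < s)
    (g : Pair n → ℝ) (u : Fin n → ℝ) (hu : u ∈ t) :
    |∑ i, u i * (xm g *ᵥ u) i|
      ≤ max (smax s (lin (procX 1 t) g)) (smax s (lin (procX (-1) t) g)) := by
  have h1 := le_smax hs (lin (procX 1 t) g) ⟨u, hu⟩
  have h2 := le_smax hs (lin (procX (-1) t) g) ⟨u, hu⟩
  rw [lin_procX] at h1 h2
  simp only [one_mul, neg_mul] at h1 h2
  rw [abs_le]
  constructor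
  · have := le_max_right (smax s (lin (procX 1 t) g)) (smax s (lin (procX (-1) t) g))
    linarith
  · exact h1.trans (le_max_left _ _)

/-- Uniform exponential moment of the operator norm. -/
theorem integral_exp_norm_xm :
    ∫ g, exp ‖xm g‖ ∂(gm (Pair n)) ≤ 2 * exp 14 := by
  obtain ⟨t, ht, hne, hnet⟩ := exists_net (n := n) (η := 1 / 4) (by norm_num)
  have : Nonempty t := hne.to_subtype
  have hcard : (1 : ℝ) ≤ Fintype.card t := by exact_mod_cast Fintype.card_pos
  have hl := log_nonneg hcard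
  set s : ℝ := log (Fintype.card t) + 1 with hs
  have hs0 : 0 < s := by linarith
  have hls : log (Fintype.card t) / s ≤ 1 := by
    rw [div_le_one hs0]; linarith
  have hnn : (1 : ℝ) ≤ n := by exact_mod_cast (NeZero.pos n)
  set f₁ : (Pair n → ℝ) → ℝ := fun g => smax s (lin (procX 1 t) g)
  set f₂ : (Pair n → ℝ) → ℝ := fun g => smax s (lin (procX (-1) t) g)
  have key : ∀ g, exp ‖xm g‖ ≤ exp (2 * f₁ g) + exp (2 * f₂ g) := by
    intro g
    have h0 : ∀ u ∈ t, |∑ i, u i * (xm g *ᵥ u) i| ≤ max (f₁ g) (f₂ g) :=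
      fun u hu => abs_quad_le_max hs0 g u hu
    have hM : 0 ≤ max (f₁ g) (f₂ g) := by
      obtain ⟨u, hu⟩ := hne
      exact (abs_nonneg _).trans (h0 u hu)
    have h1 := norm_le_of_net (xm_isHermitian g) hM ht hnet h0
    have p1 := exp_pos (2 * f₁ g)
    have p2 := exp_pos (2 * f₂ g)
    rcases le_total (f₁ g) (f₂ g) with h | h
    · rw [max_eq_right h] at h1
      have : exp ‖xm g‖ ≤ exp (2 * f₂ g) := exp_le_exp.2 (by linarith)
      linarith
    · rw [max_eq_left h] at h1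
      have : exp ‖xm g‖ ≤ exp (2 * f₁ g) := exp_le_exp.2 (by linarith)
      linarith
  have t1 : Tame (fun g => exp (2 * f₁ g)) := (tame_eS hs0 2).comp_lin _
  have t2 : Tame (fun g => exp (2 * f₂ g)) := (tame_eS hs0 2).comp_lin _
  have tN : Tame (fun g : Pair n → ℝ => exp ‖xm g‖) := by
    refine Tame.mono (by
      exact (tame_norm_xm (n := n)).1.rexp) (t1.add t2) fun g => ?_
    rw [abs_of_pos (exp_pos _)]
    exact (key g).trans (le_abs_self _)
  refine (integral_mono tN.integrable (t1.add t2).integrable key).trans ?_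
  rw [integral_add t1.integrable t2.integrable]
  have b : ∀ ε : ℝ, ε ^ 2 = 1 → ∫ g, exp (2 * smax s (lin (procX ε t) g)) ∂(gm (Pair n)) ≤ exp 14 := by
    intro ε hε
    refine (mgf_smax_procX hε ht hs0 (by norm_num : (0 : ℝ) ≤ 2)).trans (exp_le_exp.2 ?_)
    have h2n : 2 / (n : ℝ) ≤ 2 := by
      rw [div_le_iff₀ (by linarith)]; nlinarith
    nlinarith
  have b1 := b 1 (by norm_num)
  have b2 := b (-1) (by norm_num)
  simp only [f₁, f₂]
  linarith

/-- The tail of the operator norm, through a tame upper bound for the indicator. -/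
theorem xm_tail {y0 : ℝ} (hy : 2 < y0) : ∃ c : ℝ, 0 < c ∧ ∀ (n : ℕ) [NeZero n],
    ∃ W : (Pair n → ℝ) → ℝ, Tame W ∧ (∀ g, 0 ≤ W g) ∧ (∀ g, y0 < ‖xm g‖ → 1 ≤ W g) ∧
      ∫ g, W g ^ 2 ∂(gm (Pair n)) ≤ 4 * exp (-c * n) := by
  set δ := y0 - 2 with hδ
  have hδ0 : 0 < δ := by linarith
  have hy0 : 0 < y0 := by linarith
  set ξ := δ / 8 with hξ
  have hξ0 : 0 < ξ := by positivity
  set η := δ / (4 * y0) with hη
  have hη0 : 0 < η := by positivity
  refine ⟨ξ ^ 2 / 8, by positivity, fun n _ => ?_⟩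
  obtain ⟨t, ht, hne, hnet⟩ := exists_net (n := n) hη0
  have : Nonempty t := hne.to_subtype
  have hcard : (1 : ℝ) ≤ Fintype.card t := by exact_mod_cast Fintype.card_pos
  have hl := log_nonneg hcard
  set s : ℝ := (log (Fintype.card t) + 1) / ξ with hs
  have hs0 : 0 < s := by positivity
  have hls : log (Fintype.card t) / s ≤ ξ := by
    rw [div_le_iff₀ hs0, hs]
    field_simp
    linarith
  have hnn : (0 : ℝ) < n := by exact_mod_cast (NeZero.pos n)
  set f₁ : (Pair n → ℝ) → ℝ := fun g => smax s (lin (procX 1 t) g)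
  set f₂ : (Pair n → ℝ) → ℝ := fun g => smax s (lin (procX (-1) t) g)
  set θ : ℝ := n * ξ / 8 with hθ
  have hθ0 : 0 < θ := by positivity
  set c0 : ℝ := 2 + 2 * ξ with hc0
  let W : (Pair n → ℝ) → ℝ := fun g => exp (θ * (f₁ g - c0)) + exp (θ * (f₂ g - c0))
  have tf₁ : Tame f₁ := (tame_smax hs0).comp_lin _
  have tf₂ : Tame f₂ := (tame_smax hs0).comp_lin _
  have te : ∀ ε : ℝ, ∀ a : ℝ, Tame (fun g => exp (a * (smax s (lin (procX ε t) g) - c0))) := by
    intro ε a
    have : (fun g => exp (a * (smax s (lin (procX ε t) g) - c0)))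
        = fun g => exp (-a * c0) * eS s a (lin (procX ε t) g) := by
      funext g
      unfold eS
      rw [← Real.exp_add]
      congr 1; ring
    rw [this]
    exact (Tame.const _).mul ((tame_eS hs0 a).comp_lin _)
  refine ⟨W, (te 1 θ).add (te (-1) θ), fun g => by positivity, ?_, ?_⟩
  · intro g hg
    have h0 : ∀ u ∈ t, |∑ i, u i * (xm g *ᵥ u) i| ≤ max (f₁ g) (f₂ g) :=
      fun u hu => abs_quad_le_max hs0 g u hu
    have hM : 0 ≤ max (f₁ g) (f₂ g) := by
      obtain ⟨u, hu⟩ := hne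
      exact (abs_nonneg _).trans (h0 u hu)
    have h1 := norm_le_of_net (xm_isHermitian g) hM ht hnet h0
    have h2 : c0 ≤ (1 - 2 * η) * ‖xm g‖ := by
      have hη1 : 2 * η * y0 = δ / 2 := by
        rw [hη]; field_simp; ring
      have hη2 : 1 - 2 * η ≥ 0 := by
        have : 2 * η * y0 ≤ y0 := by rw [hη1]; linarith
        have : 2 * η ≤ 1 := by
          by_contra h
          have h' := not_le.1 h
          nlinarith
        linarith
      have : (1 - 2 * η) * y0 ≤ (1 - 2 * η) * ‖xm g‖ :=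
        mul_le_mul_of_nonneg_left hg.le hη2
      have e : (1 - 2 * η) * y0 = y0 - δ / 2 := by
        rw [sub_mul, hη1]; ring
      rw [e] at this
      rw [hc0, hξ]
      linarith
    have h3 : c0 ≤ max (f₁ g) (f₂ g) := h2.trans h1
    have p1 := exp_pos (θ * (f₁ g - c0))
    have p2 := exp_pos (θ * (f₂ g - c0))
    show 1 ≤ exp (θ * (f₁ g - c0)) + exp (θ * (f₂ g - c0))
    rcases le_total (f₁ g) (f₂ g) with h | h
    · rw [max_eq_right h] at h3
      have : 1 ≤ exp (θ * (f₂ g - c0)) :=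
        Real.one_le_exp (mul_nonneg hθ0.le (by linarith))
      linarith
    · rw [max_eq_left h] at h3
      have : 1 ≤ exp (θ * (f₁ g - c0)) :=
        Real.one_le_exp (mul_nonneg hθ0.le (by linarith))
      linarith
  · -- second moment
    have hsq : ∀ g, W g ^ 2 ≤ 2 * exp ((2 * θ) * (f₁ g - c0)) + 2 * exp ((2 * θ) * (f₂ g - c0)) := by
      intro g
      show (exp (θ * (f₁ g - c0)) + exp (θ * (f₂ g - c0))) ^ 2 ≤ _
      have e1 : exp ((2 * θ) * (f₁ g - c0)) = exp (θ * (f₁ g - c0)) ^ 2 := by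
        rw [← Real.exp_nat_mul]; congr 1; push_cast; ring
      have e2 : exp ((2 * θ) * (f₂ g - c0)) = exp (θ * (f₂ g - c0)) ^ 2 := by
        rw [← Real.exp_nat_mul]; congr 1; push_cast; ring
      rw [e1, e2]
      nlinarith [sq_nonneg (exp (θ * (f₁ g - c0)) - exp (θ * (f₂ g - c0)))]
    have b : ∀ ε : ℝ, ε ^ 2 = 1 →
        ∫ g, exp ((2 * θ) * (smax s (lin (procX ε t) g) - c0)) ∂(gm (Pair n))
          ≤ exp (-(ξ ^ 2 / 8) * n) := by
      intro ε hε
      have e : (fun g => exp ((2 * θ) * (smax s (lin (procX ε t) g) - c0)))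
          = fun g => exp (-(2 * θ) * c0) * exp ((2 * θ) * smax s (lin (procX ε t) g)) := by
        funext g
        rw [← Real.exp_add]
        congr 1; ring
      rw [e, integral_const_mul]
      have h1 := mgf_smax_procX hε ht hs0 (θ := 2 * θ) (by positivity)
      have h2 := mul_le_mul_of_nonneg_left h1 (exp_pos (-(2 * θ) * c0)).le
      refine h2.trans ?_
      rw [← Real.exp_add]
      refine exp_le_exp.2 ?_
      have h3 : (2 * θ) * (log (Fintype.card t) / s) ≤ (2 * θ) * ξ :=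
        mul_le_mul_of_nonneg_left hls (by positivity)
      have h4 : (2 * θ) ^ 2 * (2 / (n : ℝ)) = (n * ξ ^ 2) / 8 := by
        rw [hθ]; field_simp; ring
      have h5 : (2 * θ) * ξ = (n * ξ ^ 2) / 4 := by
        rw [hθ]; ring
      rw [h4]
      have h6 : -(2 * θ) * c0 + (2 * θ * (2 + log (Fintype.card t) / s) + n * ξ ^ 2 / 8)
          = -(2 * θ) * (2 * ξ) + 2 * θ * (log (Fintype.card t) / s) + n * ξ ^ 2 / 8 := by
        rw [hc0]; ring
      rw [h6]
      nlinarith
    have t1 := te 1 (2 * θ)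
    have t2 := te (-1) (2 * θ)
    have tW : Tame (fun g => W g ^ 2) := by
      have := ((te 1 θ).add (te (-1) θ))
      simpa [sq] using this.mul this
    refine (integral_mono tW.integrable ((t1.const_mul 2).add (t2.const_mul 2)).integrable hsq).trans ?_
    rw [integral_add (t1.const_mul 2).integrable (t2.const_mul 2).integrable,
      integral_const_mul, integral_const_mul]
    have b1 : ∫ g, exp ((2 * θ) * (f₁ g - c0)) ∂(gm (Pair n)) ≤ exp (-(ξ ^ 2 / 8) * n) :=
      b 1 (by norm_num)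
    have b2 : ∫ g, exp ((2 * θ) * (f₂ g - c0)) ∂(gm (Pair n)) ≤ exp (-(ξ ^ 2 / 8) * n) :=
      b (-1) (by norm_num)
    linarith

end Vale.Agent.Lib.P150
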